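import Vale.Agent.KTV.Avg

open Finset
open scoped Classical

namespace Vale.Agent.KTV

section Sums
variable {V : Type*} [Fintype V]

theorem sum_split2 (G : V → ℝ) {u v : V} (huv : u ≠ v) :
    ∑ x, G x = G u + G v + ∑ x, if x ≠ u ∧ x ≠ v then G x else 0 := by
  rw [← Finset.add_sum_erase univ G (mem_univ u),
    ← Finset.add_sum_erase (univ.erase u) G (mem_erase.2 ⟨huv.symm, mem_univ v⟩), ← add_assoc]
  congr 1
  rw [← sum_filter]
  apply sum_congr _ (fun _ _ => rfl)
  ext x; simp; tauto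

theorem sum_pairs_split (F : V → V → ℝ) (h0 : ∀ x, F x x = 0) (hs : ∀ x y, F x y = F y x)
    {u v : V} (huv : u ≠ v) :
    ∑ x, ∑ y, F x y = 2 * F u v + 2 * (∑ w, if w ≠ u ∧ w ≠ v then F u w else 0)
      + 2 * (∑ w, if w ≠ u ∧ w ≠ v then F v w else 0)
      + ∑ x, ∑ y, if (x ≠ u ∧ x ≠ v) ∧ (y ≠ u ∧ y ≠ v) then F x y else 0 := by
  have h1 : ∀ x, ∑ y, F x y = F x u + F x v + ∑ y, if y ≠ u ∧ y ≠ v then F x y else 0 :=
    fun x => sum_split2 (F x) huv
  rw [sum_split2 (fun x => ∑ y, F x y) huv]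
  simp only [h1]
  have h2 : ∀ x, (if x ≠ u ∧ x ≠ v then
      (F x u + F x v + ∑ y, if y ≠ u ∧ y ≠ v then F x y else 0) else 0)
      = (if x ≠ u ∧ x ≠ v then F u x else 0) + (if x ≠ u ∧ x ≠ v then F v x else 0)
        + ∑ y, if (x ≠ u ∧ x ≠ v) ∧ (y ≠ u ∧ y ≠ v) then F x y else 0 := by
    intro x
    by_cases hx : x ≠ u ∧ x ≠ v
    · rw [if_pos hx, if_pos hx, if_pos hx, hs x u, hs x v]
      congr 1
      refine sum_congr rfl (fun y _ => ?_)
      by_cases hy : y ≠ u ∧ y ≠ v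
      · rw [if_pos hy, if_pos ⟨hx, hy⟩]
      · rw [if_neg hy, if_neg (fun h => hy h.2)]
    · have : ∀ y, ¬ ((x ≠ u ∧ x ≠ v) ∧ (y ≠ u ∧ y ≠ v)) := fun y h => hx h.1
      simp only [if_neg hx, if_neg (this _), sum_const_zero, add_zero]
  rw [sum_congr rfl (fun x _ => h2 x), sum_add_distrib, sum_add_distrib, h0, h0, hs v u]
  ring

end Sums

section Graph
variable {V : Type*} [Fintype V] {d : V → ℕ}

theorem pr_comm (u v : V) : (pr u v : Om d → Om d → Prop) = pr v u := by
  funext A B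
  unfold pr
  apply propext
  have : ∀ a : V, (a = u ∨ a = v) ↔ (a = v ∨ a = u) := fun a => or_comm
  constructor
  · intro h a b hab; apply h; rw [this, this b]; exact hab
  · intro h a b hab; apply h; rw [← this, ← this b]; exact hab

theorem Lp_comm (u v : V) (f : Om d → ℝ) : Lp u v f = Lp v u f := by
  unfold Lp; rw [pr_comm]

/-- the ordered-pair generator -/
noncomputable def genL (d : V → ℕ) : (Om d → ℝ) →ₗ[ℝ] (Om d → ℝ) :=
  ∑ u : V, ∑ v : V, if u ≠ v then (LinearMap.id - avgL (pr u v)) else 0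

/-- off-diagonal version of `Lp` -/
noncomputable def La (u v : V) (f : Om d → ℝ) : Om d → ℝ := if u ≠ v then Lp u v f else 0

theorem genL_apply (f : Om d → ℝ) : genL d f = ∑ u, ∑ v, La u v f := by
  unfold genL
  rw [LinearMap.sum_apply]
  refine sum_congr rfl (fun u _ => ?_)
  rw [LinearMap.sum_apply]
  refine sum_congr rfl (fun v _ => ?_)
  unfold La
  split_ifs with h
  · rfl
  · rfl

theorem tau_of_not {u v x y : V} (h : ¬ Dist4 u v x y) (A : Om d) : tau u v x y A = A := by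
  unfold tau
  rw [dif_neg (fun h' => h h'.1)]

theorem Mq_of_not {u v x y : V} (h : ¬ Dist4 u v x y) (f : Om d → ℝ) : Mq u v x y f = 0 := by
  funext A
  unfold Mq
  rw [tau_of_not h]; simp

theorem pr_tau (u v x y : V) (A : Om d) : pr u v A (tau u v x y A) := by
  intro a b hab
  unfold tau
  split_ifs with h
  · obtain ⟨⟨h1, h2, h3, h4, h5, h6⟩, -⟩ := h
    simp only [flipAdj]
    rw [if_neg]
    rintro (⟨ha, hb⟩ | ⟨ha, hb⟩)
    · have := hab.1 ha
      rcases hb with rfl | rfl <;> rcases this with rfl | rfl <;> contradiction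
    · have := hab.2 hb
      rcases ha with rfl | rfl <;> rcases this with rfl | rfl <;> contradiction
  · rfl

variable (hpr : ∀ u v : V, Equivalence (pr u v : Om d → Om d → Prop))
  (htriple : ∀ (u v w : V), u ≠ v → u ≠ w → v ≠ w → ∀ f : Om d → ℝ,
    0 ≤ ip (Lp u v f) (Lp u w f) + ip (Lp u v f) (Lp v w f) + ip (Lp u w f) (Lp v w f))
  (hdisj : ∀ (u v x y : V), Dist4 u v x y → ∀ f : Om d → ℝ,
    ip (Mq u v x y f) (Mq u v x y f)
      - (1 / 2) * ∑ A ∈ univ.filter (fun A => Alt u v x y A), Kq u v x y f A ^ 2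
      - (1 / 2) * ∑ A ∈ univ.filter (fun A => Alt u v x y A), Kq x y u v f A ^ 2
    ≤ ip (Lp u v f) (Lp x y f))
  (hpoin : ∀ (u v : V), u ≠ v → ∀ f : Om d → ℝ,
    ip (Lp u v f) (Lp u v f) ≤ (1 / 2) * ∑ x, ∑ y, ip (Mq u v x y f) (Mq u v x y f))
  (hsep : ∀ (u v : V), u ≠ v → ∀ f : Om d → ℝ,
    (∑ x, ∑ y, if Dist4 u v x y then
        ∑ A ∈ univ.filter (fun A => Alt u v x y A), Kq u v x y f A ^ 2 else 0)
      ≤ ∑ x, ∑ y, ip (Mq u v x y f) (Mq u v x y f))
  (hconn : ∀ f : Om d → ℝ, (∀ u v x y A, f (tau u v x y A) = f A) → ∀ A B, f A = f B)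

include hpr in
theorem ip_Lp (u v : V) (f g : Om d → ℝ) : ip (Lp u v f) g = ip f (Lp u v g) := by
  have h1 : Lp u v f = f - avg (pr u v) f := rfl
  have h2 : Lp u v g = g - avg (pr u v) g := rfl
  rw [h1, h2, ip_sub_left, ip_sub_right, ip_avg (hpr u v)]

include hpr in
theorem Lp_idem (u v : V) (f : Om d → ℝ) : Lp u v (Lp u v f) = Lp u v f := by
  have h1 : Lp u v f = f - avg (pr u v) f := rfl
  have h2 : Lp u v (Lp u v f) = Lp u v f - avg (pr u v) (Lp u v f) := rfl
  rw [h2, h1, avg_sub, avg_idem (hpr u v), sub_self, sub_zero]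

include hpr in
theorem ip_Lp_self (u v : V) (f : Om d → ℝ) : ip f (Lp u v f) = ip (Lp u v f) (Lp u v f) := by
  rw [ip_Lp hpr, Lp_idem hpr]

include hpr in
theorem ip_La (u v : V) (f g : Om d → ℝ) : ip (La u v f) g = ip f (La u v g) := by
  unfold La
  split_ifs with h
  · exact ip_Lp hpr u v f g
  · simp [ip]

include hpr in
theorem ip_La_self (u v : V) (f : Om d → ℝ) : ip f (La u v f) = ip (La u v f) (La u v f) := by
  unfold La
  split_ifs with h
  · exact ip_Lp_self hpr u v f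
  · simp [ip]

include hpr in
theorem ip_genL (f g : Om d → ℝ) : ip (genL d f) g = ip f (genL d g) := by
  rw [genL_apply, genL_apply, ip_sum_left, ip_sum_right]
  refine sum_congr rfl (fun u _ => ?_)
  rw [ip_sum_left, ip_sum_right]
  exact sum_congr rfl (fun v _ => ip_La hpr u v f g)

include hpr in
theorem ip_genL_self (f : Om d → ℝ) :
    ip f (genL d f) = ∑ u, ∑ v, ip (La u v f) (La u v f) := by
  rw [genL_apply, ip_sum_right]
  refine sum_congr rfl (fun u _ => ?_)
  rw [ip_sum_right]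
  exact sum_congr rfl (fun v _ => ip_La_self hpr u v f)

include htriple in
theorem S3_nonneg (f : Om d → ℝ) :
    0 ≤ ∑ u : V, ∑ v, ∑ w, if u ≠ v ∧ w ≠ u ∧ w ≠ v then ip (Lp u v f) (Lp u w f) else 0 := by
  set S := ∑ u : V, ∑ v, ∑ w, if u ≠ v ∧ w ≠ u ∧ w ≠ v then ip (Lp u v f) (Lp u w f) else 0
    with hS
  -- second cyclic form
  have e2 : S = ∑ u : V, ∑ v, ∑ w, if u ≠ v ∧ w ≠ u ∧ w ≠ v then ip (Lp u v f) (Lp v w f) else 0 := by
    rw [hS, sum_comm]
    refine sum_congr rfl (fun u _ => sum_congr rfl (fun v _ => sum_congr rfl (fun w _ => ?_)))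
    rw [Lp_comm v u]
    by_cases h : u ≠ v ∧ w ≠ u ∧ w ≠ v
    · rw [if_pos h, if_pos ⟨h.1.symm, h.2.2, h.2.1⟩]
    · rw [if_neg h, if_neg (fun h' => h ⟨h'.1.symm, h'.2.2, h'.2.1⟩)]
  have e3 : S = ∑ u : V, ∑ v, ∑ w, if u ≠ v ∧ w ≠ u ∧ w ≠ v then ip (Lp u w f) (Lp v w f) else 0 := by
    -- rename (u,v,w) -> (w,u,v)
    have hh : S = ∑ w : V, ∑ u, ∑ v, if w ≠ u ∧ v ≠ w ∧ v ≠ u then ip (Lp w u f) (Lp w v f) else 0 := hS
    rw [hh, sum_comm]
    refine sum_congr rfl (fun u _ => ?_)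
    rw [sum_comm]
    refine sum_congr rfl (fun v _ => sum_congr rfl (fun w _ => ?_))
    rw [Lp_comm w u, Lp_comm w v]
    by_cases h : u ≠ v ∧ w ≠ u ∧ w ≠ v
    · rw [if_pos h, if_pos ⟨h.2.1, h.2.2.symm, h.1.symm⟩]
    · rw [if_neg h, if_neg (fun h' => h ⟨h'.2.2.symm, h'.1, h'.2.1.symm⟩)]
  have h3 : 0 ≤ S + S + S := by
    nth_rw 2 [e2]
    nth_rw 2 [e3]
    rw [hS, ← sum_add_distrib, ← sum_add_distrib]
    refine sum_nonneg (fun u _ => ?_)
    rw [← sum_add_distrib, ← sum_add_distrib]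
    refine sum_nonneg (fun v _ => ?_)
    rw [← sum_add_distrib, ← sum_add_distrib]
    refine sum_nonneg (fun w _ => ?_)
    by_cases h : u ≠ v ∧ w ≠ u ∧ w ≠ v
    · simp only [if_pos h]
      exact htriple u v w h.1 h.2.1.symm h.2.2.symm f
    · simp only [if_neg h]; norm_num
  linarith

include hdisj hsep in
theorem S4_nonneg (f : Om d → ℝ) :
    0 ≤ ∑ u : V, ∑ v, ∑ x, ∑ y, if Dist4 u v x y then ip (Lp u v f) (Lp x y f) else 0 := by
  -- abbreviations
  let K : V → V → V → V → ℝ := fun u v x y => if Dist4 u v x y then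
    ∑ A ∈ univ.filter (fun A => Alt u v x y A), Kq u v x y f A ^ 2 else 0
  have hAlt : ∀ (u v x y : V) (A : Om d), Alt u v x y A ↔ Alt x y u v A := by
    intro u v x y A
    unfold Alt
    rw [A.symm u x, A.symm v y, A.symm u y, A.symm v x]
    constructor
    · rintro ⟨h1, h2, h3⟩; exact ⟨h1, h2.symm, by rw [← h2]; exact h3⟩
    · rintro ⟨h1, h2, h3⟩; exact ⟨h1, h2.symm, by rw [← h2]; exact h3⟩
  have hD4 : ∀ u v x y : V, Dist4 u v x y ↔ Dist4 x y u v := by
    intro u v x y; unfold Dist4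
    constructor
    · rintro ⟨a, b, c, e, g, h⟩; exact ⟨h, b.symm, e.symm, c.symm, g.symm, a⟩
    · rintro ⟨a, b, c, e, g, h⟩; exact ⟨h, b.symm, e.symm, c.symm, g.symm, a⟩
  have hK : ∑ u : V, ∑ v, ∑ x, ∑ y, K x y u v = ∑ u : V, ∑ v, ∑ x, ∑ y, K u v x y := by
    -- swap the two pairs of summation variables
    calc ∑ u : V, ∑ v, ∑ x, ∑ y, K x y u v
        = ∑ u : V, ∑ x, ∑ v, ∑ y, K x y u v := sum_congr rfl (fun u _ => sum_comm)
      _ = ∑ x : V, ∑ u, ∑ v, ∑ y, K x y u v := sum_comm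
      _ = ∑ x : V, ∑ u, ∑ y, ∑ v, K x y u v :=
          sum_congr rfl (fun x _ => sum_congr rfl (fun u _ => sum_comm))
      _ = ∑ x : V, ∑ y, ∑ u, ∑ v, K x y u v := sum_congr rfl (fun x _ => sum_comm)
  have hpt : ∀ u v x y : V, ip (Mq u v x y f) (Mq u v x y f) - (1 / 2) * K u v x y
      - (1 / 2) * K x y u v ≤ if Dist4 u v x y then ip (Lp u v f) (Lp x y f) else 0 := by
    intro u v x y
    by_cases h : Dist4 u v x y
    · have h' := (hD4 u v x y).1 h
      simp only [K, if_pos h, if_pos h']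
      have := hdisj u v x y h f
      have e : (univ.filter (fun A : Om d => Alt x y u v A))
          = univ.filter (fun A : Om d => Alt u v x y A) := by
        ext A; simp only [mem_filter, mem_univ, true_and]; exact (hAlt u v x y A).symm
      rw [e]; exact this
    · have h' : ¬ Dist4 x y u v := fun h'' => h ((hD4 u v x y).2 h'')
      simp only [K, if_neg h, if_neg h']
      rw [Mq_of_not h]; simp [ip]
  have h1 : ∑ u : V, ∑ v, ∑ x, ∑ y, (ip (Mq u v x y f) (Mq u v x y f) - (1 / 2) * K u v x y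
      - (1 / 2) * K x y u v) ≤
      ∑ u : V, ∑ v, ∑ x, ∑ y, if Dist4 u v x y then ip (Lp u v f) (Lp x y f) else 0 :=
    sum_le_sum (fun u _ => sum_le_sum (fun v _ => sum_le_sum (fun x _ =>
      sum_le_sum (fun y _ => hpt u v x y))))
  refine le_trans ?_ h1
  simp only [sum_sub_distrib, ← mul_sum]
  rw [hK]
  have h2 : ∑ u : V, ∑ v, ∑ x, ∑ y, K u v x y ≤
      ∑ u : V, ∑ v, ∑ x, ∑ y, ip (Mq u v x y f) (Mq u v x y f) := by
    refine sum_le_sum (fun u _ => sum_le_sum (fun v _ => ?_))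
    by_cases huv : u = v
    · have hn : ∀ x y, ¬ Dist4 u v x y := fun x y h => h.1 huv
      have : ∀ x y, K u v x y = 0 := fun x y => by simp only [K, if_neg (hn x y)]
      simp only [this, sum_const_zero]
      exact sum_nonneg (fun x _ => sum_nonneg (fun y _ => ip_self_nonneg _))
    · exact hsep u v huv f
  linarith

include hpr htriple hdisj hsep in
theorem genL_quad (f : Om d → ℝ) : 2 * ip f (genL d f) ≤ ip (genL d f) (genL d f) := by
  have hLa_comm : ∀ x y : V, La x y f = La y x f := by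
    intro x y; unfold La
    by_cases h : x = y
    · subst h; rfl
    · rw [if_pos h, if_pos (Ne.symm h), Lp_comm]
  have hLa0 : ∀ x : V, La x x f = 0 := by intro x; unfold La; simp
  have hexp : ip (genL d f) (genL d f) =
      ∑ u, ∑ v, ∑ x, ∑ y, ip (La u v f) (La x y f) := by
    rw [genL_apply, ip_sum_left]
    refine sum_congr rfl (fun u _ => ?_)
    rw [ip_sum_left]
    refine sum_congr rfl (fun v _ => ?_)
    rw [ip_sum_right]
    refine sum_congr rfl (fun x _ => ?_)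
    rw [ip_sum_right]
  have hsplit : ∀ u v : V, ∑ x, ∑ y, ip (La u v f) (La x y f) =
      2 * ip (La u v f) (La u v f)
      + 2 * (∑ w, if u ≠ v ∧ w ≠ u ∧ w ≠ v then ip (Lp u v f) (Lp u w f) else 0)
      + 2 * (∑ w, if u ≠ v ∧ w ≠ u ∧ w ≠ v then ip (Lp v u f) (Lp v w f) else 0)
      + ∑ x, ∑ y, if Dist4 u v x y then ip (Lp u v f) (Lp x y f) else 0 := by
    intro u v
    by_cases huv : u = v
    · subst huv
      have hn : ∀ x y, ¬ Dist4 u u x y := fun x y h => h.1 rfl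
      rw [hLa0]
      simp [ip, hn]
    · rw [sum_pairs_split (fun x y => ip (La u v f) (La x y f))
        (fun x => by rw [hLa0]; simp [ip])
        (fun x y => by rw [hLa_comm x y]) huv]
      congr 1
      · congr 1
        · congr 2
          refine sum_congr rfl (fun w _ => ?_)
          by_cases hw : w ≠ u ∧ w ≠ v
          · rw [if_pos hw, if_pos ⟨huv, hw⟩]
            unfold La; rw [if_pos huv, if_pos hw.1.symm]
          · rw [if_neg hw, if_neg (fun h => hw h.2)]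
        · congr 1
          refine sum_congr rfl (fun w _ => ?_)
          by_cases hw : w ≠ u ∧ w ≠ v
          · rw [if_pos hw, if_pos ⟨huv, hw⟩]
            unfold La; rw [if_pos huv, if_pos hw.2.symm, Lp_comm]
          · rw [if_neg hw, if_neg (fun h => hw h.2)]
      · refine sum_congr rfl (fun x _ => sum_congr rfl (fun y _ => ?_))
        by_cases hD : Dist4 u v x y
        · obtain ⟨h1, h2, h3, h4, h5, h6⟩ := hD
          rw [if_pos ⟨⟨h2.symm, h4.symm⟩, h3.symm, h5.symm⟩, if_pos ⟨h1, h2, h3, h4, h5, h6⟩]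
          unfold La; rw [if_pos h1, if_pos h6]
        · rw [if_neg hD]
          split_ifs with h
          · have hxy : x = y := by
              by_contra hxy
              exact hD ⟨huv, h.1.1.symm, h.2.1.symm, h.1.2.symm, h.2.2.symm, hxy⟩
            rw [hxy, hLa0]; simp [ip]
          · rfl
  rw [hexp]
  simp only [hsplit, sum_add_distrib, ← mul_sum]
  have h1 : ∑ u : V, ∑ v, ip (La u v f) (La u v f) = ip f (genL d f) := (ip_genL_self hpr f).symm
  have h3 := S3_nonneg htriple f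
  have h3' : ∑ u : V, ∑ v, ∑ w, (if u ≠ v ∧ w ≠ u ∧ w ≠ v then ip (Lp v u f) (Lp v w f) else 0)
      = ∑ u : V, ∑ v, ∑ w, if u ≠ v ∧ w ≠ u ∧ w ≠ v then ip (Lp u v f) (Lp u w f) else 0 := by
    rw [sum_comm]
    refine sum_congr rfl (fun u _ => sum_congr rfl (fun v _ => sum_congr rfl (fun w _ => ?_)))
    by_cases h : u ≠ v ∧ w ≠ u ∧ w ≠ v
    · rw [if_pos h, if_pos ⟨h.1.symm, h.2.2, h.2.1⟩]
    · rw [if_neg h, if_neg (fun h' => h ⟨h'.1.symm, h'.2.2, h'.2.1⟩)]
  have h4 := S4_nonneg hdisj hsep f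
  rw [h1, h3']
  linarith

include hpr hconn in
theorem genL_ker (f : Om d → ℝ) (h : genL d f = 0) : ∀ A B, f A = f B := by
  apply hconn
  intro u v x y A
  by_cases hD : Dist4 u v x y
  · have h0 : ip f (genL d f) = 0 := by rw [h]; simp [ip]
    rw [ip_genL_self hpr] at h0
    rw [sum_eq_zero_iff_of_nonneg (fun u _ => sum_nonneg (fun v _ => ip_self_nonneg _))] at h0
    have h1 := h0 u (mem_univ u)
    rw [sum_eq_zero_iff_of_nonneg (fun v _ => ip_self_nonneg _)] at h1
    have h2 := ip_self_eq_zero (h1 v (mem_univ v))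
    unfold La at h2
    rw [if_pos hD.1] at h2
    have h3 : f = avg (pr u v) f := by
      have : f - avg (pr u v) f = 0 := h2
      exact sub_eq_zero.1 this
    rw [h3]
    exact (avg_congr (hpr u v) f (pr_tau u v x y A)).symm
  · rw [tau_of_not hD]

include hpr htriple hdisj hpoin hsep hconn in
theorem main_poincare_of (f : Om d → ℝ) (hf : ∑ A, f A = 0) :
    16 * ∑ A, f A ^ 2 ≤ ∑ u, ∑ v, ∑ x, ∑ y, ∑ A, (f A - f (tau u v x y A)) ^ 2 := by
  have h1 := poincare_of_quad (genL d) (ip_genL hpr)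
    (fun f => by
      rw [ip_genL_self hpr]
      exact sum_nonneg (fun u _ => sum_nonneg (fun v _ => ip_self_nonneg _)))
    (genL_quad hpr htriple hdisj hsep) (genL_ker hpr hconn) f hf
  rw [ip_genL_self hpr] at h1
  have h2 : ∑ u : V, ∑ v, ip (La u v f) (La u v f) ≤
      ∑ u : V, ∑ v, (1 / 2) * ∑ x, ∑ y, ip (Mq u v x y f) (Mq u v x y f) := by
    refine sum_le_sum (fun u _ => sum_le_sum (fun v _ => ?_))
    unfold La
    split_ifs with huv
    · exact hpoin u v huv f
    · have : ip (0 : Om d → ℝ) 0 = 0 := by simp [ip]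
      rw [this]
      exact mul_nonneg (by norm_num)
        (sum_nonneg (fun x _ => sum_nonneg (fun y _ => ip_self_nonneg _)))
  have h3 : ∀ u v x y : V, ip (Mq u v x y f) (Mq u v x y f)
      = (1 / 4) * ∑ A, (f A - f (tau u v x y A)) ^ 2 := by
    intro u v x y
    unfold ip Mq
    rw [mul_sum]
    exact sum_congr rfl (fun A _ => by ring)
  simp only [h3, ← mul_sum] at h2
  have h4 : ip f f = ∑ A, f A ^ 2 := by
    unfold ip; exact sum_congr rfl (fun A _ => by ring)
  rw [h4] at h1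
  linarith

end Graph

end Vale.Agent.KTV
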