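import Vale.Agent.KTV.Defs

open Finset
open scoped Classical

namespace Vale.Agent.KTV

section Avg
variable {Ω : Type*} [Fintype Ω] {r s : Ω → Ω → Prop}

theorem mem_cls {x y : Ω} : y ∈ cls r x ↔ r x y := by simp [cls]

theorem cls_congr (hr : Equivalence r) {x y : Ω} (h : r x y) : cls r x = cls r y := by
  ext z; rw [mem_cls, mem_cls]
  exact ⟨fun h' => hr.trans (hr.symm h) h', fun h' => hr.trans h h'⟩

theorem cls_card_pos (hr : Equivalence r) (x : Ω) : 0 < (cls r x).card :=
  card_pos.2 ⟨x, mem_cls.2 (hr.refl x)⟩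

theorem avg_congr (hr : Equivalence r) (f : Ω → ℝ) {x y : Ω} (h : r x y) :
    avg r f x = avg r f y := by
  unfold avg; rw [cls_congr hr h]

/-- `card * avg = sum` -/
theorem card_mul_avg (hr : Equivalence r) (f : Ω → ℝ) (x : Ω) :
    ((cls r x).card : ℝ) * avg r f x = ∑ y ∈ cls r x, f y := by
  have : ((cls r x).card : ℝ) ≠ 0 := by
    have := cls_card_pos hr x; positivity
  unfold avg; field_simp

theorem avg_of_inv (hr : Equivalence r) {g : Ω → ℝ} (hg : ∀ x y, r x y → g x = g y) :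
    avg r g = g := by
  funext x
  have : ((cls r x).card : ℝ) ≠ 0 := by
    have := cls_card_pos hr x; positivity
  have h2 : ∑ y ∈ cls r x, g y = ∑ _y ∈ cls r x, g x :=
    sum_congr rfl (fun y hy => (hg x y (mem_cls.1 hy)).symm)
  unfold avg
  rw [h2, sum_const, nsmul_eq_mul]; field_simp

theorem avg_add (f g : Ω → ℝ) : avg r (f + g) = avg r f + avg r g := by
  funext x; simp only [avg, Pi.add_apply, sum_add_distrib, add_div]

theorem avg_sub (f g : Ω → ℝ) : avg r (f - g) = avg r f - avg r g := by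
  funext x; simp only [avg, Pi.sub_apply, sum_sub_distrib, sub_div]

theorem avg_smul (a : ℝ) (f : Ω → ℝ) : avg r (a • f) = a • avg r f := by
  funext x; simp only [avg, Pi.smul_apply, smul_eq_mul, ← mul_sum, mul_div_assoc]

/-- `avg` as a linear map -/
noncomputable def avgL (r : Ω → Ω → Prop) : (Ω → ℝ) →ₗ[ℝ] (Ω → ℝ) where
  toFun := avg r
  map_add' := avg_add
  map_smul' := avg_smul

@[simp] theorem avgL_apply (f : Ω → ℝ) : avgL r f = avg r f := rfl

theorem avg_idem (hr : Equivalence r) (f : Ω → ℝ) : avg r (avg r f) = avg r f :=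
  avg_of_inv hr (fun _ _ h => avg_congr hr f h)

theorem ip_comm (f g : Ω → ℝ) : ip f g = ip g f := by
  unfold ip; exact sum_congr rfl (fun x _ => mul_comm _ _)

theorem ip_add_left (f g h : Ω → ℝ) : ip (f + g) h = ip f h + ip g h := by
  unfold ip; simp [add_mul, sum_add_distrib]

theorem ip_add_right (f g h : Ω → ℝ) : ip f (g + h) = ip f g + ip f h := by
  unfold ip; simp [mul_add, sum_add_distrib]

theorem ip_sub_left (f g h : Ω → ℝ) : ip (f - g) h = ip f h - ip g h := by
  unfold ip; simp [sub_mul, sum_sub_distrib]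

theorem ip_sub_right (f g h : Ω → ℝ) : ip f (g - h) = ip f g - ip f h := by
  unfold ip; simp [mul_sub, sum_sub_distrib]

theorem ip_smul_left (a : ℝ) (f g : Ω → ℝ) : ip (a • f) g = a * ip f g := by
  unfold ip; rw [mul_sum]; exact sum_congr rfl (fun x _ => by simp [mul_assoc])

theorem ip_smul_right (a : ℝ) (f g : Ω → ℝ) : ip f (a • g) = a * ip f g := by
  rw [ip_comm, ip_smul_left, ip_comm]

theorem ip_self_nonneg (f : Ω → ℝ) : 0 ≤ ip f f :=
  sum_nonneg (fun x _ => mul_self_nonneg _)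

theorem ip_self_eq_zero {f : Ω → ℝ} (h : ip f f = 0) : f = 0 := by
  unfold ip at h
  rw [sum_eq_zero_iff_of_nonneg (fun x _ => mul_self_nonneg _)] at h
  funext x; exact mul_self_eq_zero.1 (h x (mem_univ x))

/-- sums over all points may be replaced by sums of class averages -/
theorem sum_avg (hr : Equivalence r) (f : Ω → ℝ) : ∑ x, avg r f x = ∑ x, f x := by
  unfold avg
  have h1 : ∀ x, (∑ y ∈ cls r x, f y) / ((cls r x).card : ℝ)
      = ∑ y, if r x y then f y / ((cls r y).card : ℝ) else 0 := by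
    intro x
    rw [sum_div, cls, sum_filter]
    refine sum_congr rfl (fun y _ => ?_)
    split_ifs with h
    · have := cls_congr hr h
      unfold cls at this ⊢
      rw [this]
    · rfl
  simp only [h1]
  rw [sum_comm]
  refine sum_congr rfl (fun y _ => ?_)
  have h2 : ∀ x, (if r x y then f y / ((cls r y).card : ℝ) else 0)
      = if r y x then f y / ((cls r y).card : ℝ) else 0 := by
    intro x
    have : r x y ↔ r y x := ⟨fun h => hr.symm h, fun h => hr.symm h⟩
    simp only [this]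
  simp only [h2]
  rw [← sum_filter]
  have h3 : (univ.filter (fun x => r y x)) = cls r y := rfl
  rw [h3, sum_const, nsmul_eq_mul]
  have : ((cls r y).card : ℝ) ≠ 0 := by
    have := cls_card_pos hr y; positivity
  field_simp

theorem avg_mul_inv (hr : Equivalence r) (f : Ω → ℝ) {g : Ω → ℝ}
    (hg : ∀ x y, r x y → g x = g y) : avg r (fun x => f x * g x) = fun x => avg r f x * g x := by
  funext x
  unfold avg
  rw [div_mul_eq_mul_div, sum_mul]
  congr 1
  exact sum_congr rfl (fun y hy => by rw [hg x y (mem_cls.1 hy)])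

theorem ip_avg (hr : Equivalence r) (f g : Ω → ℝ) : ip (avg r f) g = ip f (avg r g) := by
  have h1 : ip (avg r f) g = ∑ x, avg r f x * avg r g x := by
    unfold ip
    rw [← sum_avg hr (fun x => avg r f x * g x)]
    have : avg r (fun x => avg r f x * g x) = fun x => avg r g x * avg r f x := by
      have := avg_mul_inv hr g (g := avg r f) (fun _ _ h => avg_congr hr f h)
      rw [← this]; congr 1; funext x; ring
    rw [this]
    exact sum_congr rfl (fun x _ => mul_comm _ _)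
  have h2 : ip f (avg r g) = ∑ x, avg r f x * avg r g x := by
    unfold ip
    rw [← sum_avg hr (fun x => f x * avg r g x)]
    rw [avg_mul_inv hr f (g := avg r g) (fun _ _ h => avg_congr hr g h)]
  rw [h1, h2]

/-- if `s` is finer than `r` -/
theorem avg_avg_of_le (hr : Equivalence r) (hs : Equivalence s) (h : ∀ x y, s x y → r x y)
    (f : Ω → ℝ) : avg s (avg r f) = avg r f :=
  avg_of_inv hs (fun _ _ hxy => avg_congr hr f (h _ _ hxy))

theorem eq_of_ip_eq {f g : Ω → ℝ} (h : ∀ k, ip k f = ip k g) : f = g := by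
  have : ip (f - g) (f - g) = 0 := by
    rw [ip_sub_right, h (f - g), sub_self]
  have := ip_self_eq_zero this
  funext x
  have := congrFun this x
  simp at this; linarith

theorem avg_avg_of_le' (hr : Equivalence r) (hs : Equivalence s) (h : ∀ x y, s x y → r x y)
    (f : Ω → ℝ) : avg r (avg s f) = avg r f := by
  apply eq_of_ip_eq
  intro k
  rw [← ip_avg hr, ← ip_avg hs, avg_avg_of_le hr hs h, ip_avg hr]

/-- commutation criterion -/
theorem avg_comm_of_preserve (hr : Equivalence r) (hs : Equivalence s)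
    (h : ∀ g : Ω → ℝ, (∀ x y, s x y → g x = g y) → ∀ x y, s x y → avg r g x = avg r g y)
    (f : Ω → ℝ) : avg r (avg s f) = avg s (avg r f) := by
  -- `avg s (avg r (avg s f)) = avg r (avg s f)`
  have h1 : ∀ f : Ω → ℝ, avg s (avg r (avg s f)) = avg r (avg s f) := fun f =>
    avg_of_inv hs (h _ (fun _ _ hxy => avg_congr hs f hxy))
  rw [← h1 f]
  apply eq_of_ip_eq
  intro k
  rw [← ip_avg hs, ← ip_avg hr, ← ip_avg hs, ← ip_avg hs, ← ip_avg hr, h1]

theorem avg_transfer {X : Type*} [Fintype X] (θ : X → Ω) (hθ : Function.Injective θ)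
    (t : X → X → Prop) (f : Ω → ℝ) (x : X) (h : ∀ A, r (θ x) A ↔ ∃ y, t x y ∧ θ y = A) :
    avg t (fun y => f (θ y)) x = avg r f (θ x) := by
  have hc : cls r (θ x) = (cls t x).image θ := by
    ext A; rw [mem_cls, h, mem_image]
    simp only [mem_cls]
  unfold avg
  rw [hc, sum_image (fun a _ b _ hab => hθ hab), card_image_of_injective _ hθ]

theorem sum_le_sum_of_cls (hr : Equivalence r) {F G : Ω → ℝ}
    (h : ∀ x, ∑ y ∈ cls r x, F y ≤ ∑ y ∈ cls r x, G y) : ∑ x, F x ≤ ∑ x, G x := by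
  rw [← sum_avg hr F, ← sum_avg hr G]
  refine sum_le_sum (fun x _ => ?_)
  unfold avg
  exact div_le_div_of_nonneg_right (h x) (by positivity)

/-! ### spectral facts -/

theorem ip_sum_left {ι : Type*} (t : Finset ι) (F : ι → Ω → ℝ) (g : Ω → ℝ) :
    ip (∑ i ∈ t, F i) g = ∑ i ∈ t, ip (F i) g := by
  unfold ip
  rw [sum_comm]
  refine sum_congr rfl (fun x _ => ?_)
  rw [Finset.sum_apply, sum_mul]

theorem ip_sum_right {ι : Type*} (t : Finset ι) (F : ι → Ω → ℝ) (g : Ω → ℝ) :
    ip g (∑ i ∈ t, F i) = ∑ i ∈ t, ip g (F i) := by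
  rw [ip_comm, ip_sum_left]; exact sum_congr rfl (fun i _ => ip_comm _ _)

theorem spectral (A : (Ω → ℝ) →ₗ[ℝ] (Ω → ℝ)) (hA : ∀ f g, ip (A f) g = ip f (A g)) :
    ∃ (e : Ω → (Ω → ℝ)) (μ : Ω → ℝ), (∀ i, A (e i) = μ i • e i) ∧
      (∀ i j, ip (e i) (e j) = if i = j then 1 else 0) ∧
      ∀ f, f = ∑ i, ip (e i) f • e i := by
  let E := EuclideanSpace ℝ Ω
  let φ : E ≃ₗ[ℝ] (Ω → ℝ) := WithLp.linearEquiv 2 ℝ (Ω → ℝ)
  have hφ : ∀ x y : E, inner ℝ x y = ip (φ x) (φ y) := by
    intro x y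
    rw [PiLp.inner_apply]
    unfold ip
    refine sum_congr rfl (fun i _ => ?_)
    have h1 : φ x i = x.ofLp i := rfl
    have h2 : φ y i = y.ofLp i := rfl
    rw [h1, h2]
    simp [mul_comm]
  let T : E →ₗ[ℝ] E := φ.symm.toLinearMap ∘ₗ A ∘ₗ φ.toLinearMap
  have hTφ : ∀ x, φ (T x) = A (φ x) := by intro x; simp [T]
  have hT : T.IsSymmetric := by
    intro x y
    rw [hφ, hφ, hTφ, hTφ, hA]
  have hn : Module.finrank ℝ E = Fintype.card Ω := finrank_euclideanSpace
  let b := hT.eigenvectorBasis hn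
  let eq := Fintype.equivFin Ω
  refine ⟨fun i => φ (b (eq i)), fun i => hT.eigenvalues hn (eq i), ?_, ?_, ?_⟩
  · intro i
    have := hT.apply_eigenvectorBasis hn (eq i)
    rw [← hTφ]
    simp only [b]
    rw [this]
    simp
  · intro i j
    rw [← hφ]
    have := b.orthonormal
    rw [orthonormal_iff_ite] at this
    rw [this]
    simp
  · intro f
    have h := b.sum_repr (φ.symm f)
    have h2 : φ (φ.symm f) = φ (∑ i, b.repr (φ.symm f) i • b i) := by rw [h]
    rw [LinearEquiv.apply_symm_apply, map_sum] at h2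
    have h3 : ∀ i, φ (b.repr (φ.symm f) i • b i) = ip (φ (b i)) f • φ (b i) := by
      intro i
      rw [map_smul, b.repr_apply_apply, hφ, LinearEquiv.apply_symm_apply]
    simp only [h3] at h2
    rw [← Equiv.sum_comp eq] at h2
    exact h2

theorem spectral_forms (A : (Ω → ℝ) →ₗ[ℝ] (Ω → ℝ)) {e : Ω → (Ω → ℝ)} {μ : Ω → ℝ}
    (h1 : ∀ i, A (e i) = μ i • e i) (h2 : ∀ i j, ip (e i) (e j) = if i = j then 1 else 0)
    (h3 : ∀ f, f = ∑ i, ip (e i) f • e i) (f : Ω → ℝ) :
    ip f f = ∑ i, ip (e i) f ^ 2 ∧ ip f (A f) = ∑ i, μ i * ip (e i) f ^ 2 ∧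
      ip (A f) (A f) = ∑ i, μ i ^ 2 * ip (e i) f ^ 2 := by
  have hAf : A f = ∑ i, (μ i * ip (e i) f) • e i := by
    conv_lhs => rw [h3 f]
    rw [map_sum]
    refine sum_congr rfl (fun i _ => ?_)
    rw [map_smul, h1, smul_smul, mul_comm]
  have key : ∀ (a b : Ω → ℝ), ip (∑ i, a i • e i) (∑ i, b i • e i) = ∑ i, a i * b i := by
    intro a b
    rw [ip_sum_left]
    refine sum_congr rfl (fun i _ => ?_)
    rw [ip_smul_left, ip_sum_right]
    simp only [ip_smul_right, h2, mul_ite, mul_one, mul_zero, sum_ite_eq, mem_univ, if_true]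
  refine ⟨?_, ?_, ?_⟩
  · conv_lhs => rw [h3 f]
    rw [key]
    exact sum_congr rfl (fun i _ => by ring)
  · rw [hAf]
    conv_lhs => rw [h3 f]
    have h4 : ∀ i, ip (e i) (∑ j, ip (e j) f • e j) = ip (e i) f := by
      intro i; rw [← h3 f]
    simp only [h4]
    rw [key]
    exact sum_congr rfl (fun i _ => by ring)
  · rw [hAf, key]
    exact sum_congr rfl (fun i _ => by ring)

theorem quad_of_eigen (A : (Ω → ℝ) →ₗ[ℝ] (Ω → ℝ)) (hA : ∀ f g, ip (A f) g = ip f (A g))
    (c : ℝ) (h : ∀ (v : Ω → ℝ) (μ : ℝ), v ≠ 0 → A v = μ • v → c * μ ≤ μ ^ 2) (f : Ω → ℝ) :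
    c * ip f (A f) ≤ ip (A f) (A f) := by
  obtain ⟨e, μ, h1, h2, h3⟩ := spectral A hA
  obtain ⟨-, k2, k3⟩ := spectral_forms A h1 h2 h3 f
  rw [k2, k3, mul_sum]
  refine sum_le_sum (fun i _ => ?_)
  rw [← mul_assoc]
  apply mul_le_mul_of_nonneg_right _ (sq_nonneg _)
  apply h (e i) (μ i) _ (h1 i)
  intro h0
  have := h2 i i
  rw [h0] at this
  simp [ip] at this

theorem poincare_of_quad (A : (Ω → ℝ) →ₗ[ℝ] (Ω → ℝ)) (hA : ∀ f g, ip (A f) g = ip f (A g))
    (hpos : ∀ f, 0 ≤ ip f (A f)) {c : ℝ}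
    (h : ∀ f, c * ip f (A f) ≤ ip (A f) (A f))
    (hker : ∀ f, A f = 0 → ∀ x y, f x = f y) (f : Ω → ℝ) (hf : ∑ x, f x = 0) :
    c * ip f f ≤ ip f (A f) := by
  obtain ⟨e, μ, h1, h2, h3⟩ := spectral A hA
  obtain ⟨k1, k2, -⟩ := spectral_forms A h1 h2 h3 f
  rw [k1, k2, mul_sum]
  refine sum_le_sum (fun i _ => ?_)
  have hi : ip (e i) (e i) = 1 := by rw [h2, if_pos rfl]
  have hq := h (e i)
  have hp := hpos (e i)
  rw [h1, ip_smul_right, hi] at hq hp
  rw [ip_smul_left, ip_smul_right, hi] at hq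
  by_cases h0 : μ i = 0
  · -- eigenvector in the kernel: constant, orthogonal to `f`
    have hk := hker (e i) (by rw [h1, h0, zero_smul])
    have : ip (e i) f = 0 := by
      unfold ip
      rcases isEmpty_or_nonempty Ω with hE | ⟨⟨x0⟩⟩
      · simp
      · have : ∀ x, e i x * f x = e i x0 * f x := fun x => by rw [hk x x0]
        simp only [this]
        rw [← mul_sum, hf, mul_zero]
    rw [this]; simp
  · have hpos' : 0 < μ i := lt_of_le_of_ne (by linarith) (Ne.symm h0)
    have : c ≤ μ i := by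
      by_contra hlt
      push Not at hlt
      nlinarith
    exact mul_le_mul_of_nonneg_right this (sq_nonneg _)

end Avg

end Vale.Agent.KTV
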