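import Mathlib

open Finset
open scoped Classical

namespace Vale.Agent.KTV

/-- `Ω_d`: the simple graphs on `Fin n` in which vertex `v` has degree `d v` for all `v` -/
def Realization (n : ℕ) (d : Fin n → ℕ) : Type :=
  {G : SimpleGraph (Fin n) // ∀ v, G.degree v = d v}

noncomputable instance (n : ℕ) (d : Fin n → ℕ) : Fintype (Realization n d) :=
  Subtype.fintype _

/-- `d` is graphical -/
def Graphical (n : ℕ) (d : Fin n → ℕ) : Prop := Nonempty (Realization n d)

/-- the perfect matchings of the complete graph on `S`, as sets of edges -/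
noncomputable def perfectMatchings {n : ℕ} (S : Finset (Fin n)) :
    Finset (Finset (Sym2 (Fin n))) :=
  univ.filter (fun F => (∀ e ∈ F, ¬ e.IsDiag ∧ ∀ v ∈ e, v ∈ S) ∧
    ∀ v ∈ S, ∃! e, e ∈ F ∧ v ∈ e)

/-- replace `F` by `F'` if all edges of `F` are present and all edges of `F'` are absent;
otherwise keep the graph -/
noncomputable def switchStep {n : ℕ} (G : SimpleGraph (Fin n))
    (F F' : Finset (Sym2 (Fin n))) : SimpleGraph (Fin n) :=
  if (∀ e ∈ F, e ∈ G.edgeSet) ∧ (∀ e ∈ F', e ∉ G.edgeSet) then
    SimpleGraph.fromEdgeSet ((G.edgeSet \ (F : Set (Sym2 (Fin n)))) ∪ (F' : Set (Sym2 (Fin n))))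
  else G

/-- the transition matrix `P_d` of the switch chain: with probability `1/2` stay put; otherwise
choose a `4`-subset `S` uniformly and then one of the six ordered pairs `(F, F')` of distinct
perfect matchings of `S` uniformly, and perform the switch `F → F'` if possible -/
noncomputable def switchMatrix (n : ℕ) (d : Fin n → ℕ) :
    Matrix (Realization n d) (Realization n d) ℝ :=
  fun G H => (1 / 2) * (if G = H then 1 else 0) +
    (1 / 2) * ((1 / (n.choose 4 : ℝ)) * ∑ S ∈ (univ : Finset (Fin n)).powersetCard 4,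
      (1 / 6) * ∑ FF ∈ (perfectMatchings S).offDiag,
        if switchStep G.1 FF.1 FF.2 = H.1 then 1 else 0)

/-- total variation distance -/
noncomputable def tvDist {X : Type*} [Fintype X] (μ ν : X → ℝ) : ℝ :=
  (1 / 2) * ∑ x, |μ x - ν x|

/-- after `t` steps the chain is within `1/4` of uniform from every starting state -/
def MixedAt (n : ℕ) (d : Fin n → ℕ) (t : ℕ) : Prop :=
  ∀ G : Realization n d,
    tvDist ((switchMatrix n d ^ t) G) (fun _ => 1 / (Fintype.card (Realization n d) : ℝ)) ≤ 1 / 4

/-- the mixing time -/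
noncomputable def mixingTime (n : ℕ) (d : Fin n → ℕ) : ℕ := sInf {t | MixedAt n d t}

end Vale.Agent.KTV
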