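import Vale.Agent.KTV.Avg

open Finset
open scoped Classical

namespace Vale.Agent.KTV

section Conn
variable {V : Type*} [Fintype V] {d : V → ℕ}

/-- `A` and `B` agree outside the active set `W` -/
def agreeOff (W : Finset V) (A B : Om d) : Prop :=
  ∀ a b, (a ∉ W ∨ b ∉ W) → A.adj a b = B.adj a b

/-- number of neighbours of `a` inside `W` -/
noncomputable def dW (W : Finset V) (A : Om d) (a : V) : ℕ := ∑ c ∈ W, (A.adj a c).toNat

theorem dW_eq {W : Finset V} {A B : Om d} (h : agreeOff W A B) (a : V) :
    dW W A a = dW W B a := by
  have hA := A.deg a
  have hB := B.deg a
  rw [← Finset.sum_add_sum_compl W] at hA hB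
  have : ∑ c ∈ Wᶜ, (A.adj a c).toNat = ∑ c ∈ Wᶜ, (B.adj a c).toNat := by
    apply sum_congr rfl
    intro c hc
    rw [h a c (Or.inr (mem_compl.1 hc))]
  unfold dW
  omega

/-- number of differences in the row of `v` -/
noncomputable def dif (v : V) (A B : Om d) : ℕ := (univ.filter (fun x => A.adj v x ≠ B.adj v x)).card

theorem dif_comm (v : V) (A B : Om d) : dif v A B = dif v B A := by
  unfold dif
  congr 1
  ext x
  simp only [mem_filter, mem_univ, true_and, ne_comm]

theorem exists_c {W : Finset V} {A : Om d} {v a b : V} (hv : v ∈ W) (ha : a ∈ W) (hb : b ∈ W)
    (hva' : v ≠ a) (hva : A.adj v a = false) (hvb : A.adj v b = true)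
    (hw : dW W A b ≤ dW W A a) :
    ∃ c ∈ W, c ≠ b ∧ A.adj a c = true ∧ A.adj b c = false := by
  by_contra hcon
  push Not at hcon
  have hav : A.adj a v = false := by rw [A.symm]; exact hva
  have hbv : A.adj b v = true := by rw [A.symm]; exact hvb
  have hab : b ≠ a := by rintro rfl; rw [hva] at hvb; exact Bool.false_ne_true hvb
  have hvb' : v ≠ b := by rintro rfl; rw [A.irrefl] at hvb; exact Bool.false_ne_true hvb
  have hbe : b ∈ W.erase a := mem_erase.2 ⟨hab, hb⟩
  have e1 : dW W A a = (A.adj a a).toNat + ((A.adj a b).toNat +
      ∑ c ∈ (W.erase a).erase b, (A.adj a c).toNat) := by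
    rw [Finset.add_sum_erase _ (fun c => (A.adj a c).toNat) hbe,
      Finset.add_sum_erase _ (fun c => (A.adj a c).toNat) ha]; rfl
  have e2 : dW W A b = (A.adj b a).toNat + ((A.adj b b).toNat +
      ∑ c ∈ (W.erase a).erase b, (A.adj b c).toNat) := by
    rw [Finset.add_sum_erase _ (fun c => (A.adj b c).toNat) hbe,
      Finset.add_sum_erase _ (fun c => (A.adj b c).toNat) ha]; rfl
  have e3 : ∑ c ∈ (W.erase a).erase b, (A.adj a c).toNat
      < ∑ c ∈ (W.erase a).erase b, (A.adj b c).toNat := by
    apply Finset.sum_lt_sum
    · intro c hc
      simp only [mem_erase] at hc
      cases h : A.adj a c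
      · simp
      · have := hcon c hc.2.2 hc.1 h
        have h2 : A.adj b c = true := by
          cases h3 : A.adj b c
          · exact absurd h3 this
          · rfl
        rw [h2]
    · refine ⟨v, ?_, ?_⟩
      · simp only [mem_erase]; exact ⟨hvb', hva', hv⟩
      · rw [hav, hbv]; decide
  rw [A.irrefl, A.symm a b] at e1
  rw [A.irrefl] at e2
  simp only [Bool.toNat_false] at e1 e2
  omega

theorem step_tau {W : Finset V} {A B : Om d} {v a b : V} (hv : v ∈ W) (ha : a ∈ W) (hb : b ∈ W)
    (hAB : agreeOff W A B)
    (hva : A.adj v a = false) (hvb : A.adj v b = true)
    (hva2 : B.adj v a = true) (hvb2 : B.adj v b = false)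
    (hw : dW W A b ≤ dW W A a) :
    ∃ c, agreeOff W (tau v c a b A) B ∧ dif v (tau v c a b A) B < dif v A B := by
  have hva' : v ≠ a := by rintro rfl; rw [B.irrefl] at hva2; exact Bool.false_ne_true hva2
  have hab : a ≠ b := by rintro rfl; rw [hva] at hvb; exact Bool.false_ne_true hvb
  have hvb' : v ≠ b := by rintro rfl; rw [A.irrefl] at hvb; exact Bool.false_ne_true hvb
  obtain ⟨c, hcW, hcb, hac, hbc⟩ := exists_c hv ha hb hva' hva hvb hw
  have hvc : v ≠ c := by
    rintro rfl
    rw [A.symm, hva] at hac; exact Bool.false_ne_true hac
  have hca : c ≠ a := by
    rintro rfl
    rw [A.irrefl] at hac; exact Bool.false_ne_true hac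
  have hD : Dist4 v c a b := ⟨hvc, hva', hvb', hca, hcb, hab⟩
  have hca1 : A.adj c a = true := by rw [A.symm]; exact hac
  have hcb1 : A.adj c b = false := by rw [A.symm]; exact hbc
  have hAlt : Alt v c a b A := by
    refine ⟨?_, ?_, ?_⟩
    · rw [hva, hcb1]
    · rw [hvb, hca1]
    · rw [hva, hvb]; exact Bool.false_ne_true
  have htau : (tau v c a b A).adj = flipAdj v c a b A.adj := by
    unfold tau
    rw [dif_pos ⟨hD, hAlt⟩]
  refine ⟨c, ?_, ?_⟩
  · intro x y hxy
    rw [htau, ← hAB x y hxy]
    unfold flipAdj
    rw [if_neg]
    rintro (⟨h1 | h1, h2 | h2⟩ | ⟨h1 | h1, h2 | h2⟩) <;> subst h1 <;> subst h2 <;>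
      rcases hxy with h | h <;> exact h (by assumption)
  · unfold dif
    apply Finset.card_lt_card
    rw [Finset.ssubset_iff_of_subset]
    · refine ⟨a, ?_, ?_⟩
      · simp only [mem_filter, mem_univ, true_and]
        rw [hva, hva2]; exact Bool.false_ne_true
      · simp only [mem_filter, mem_univ, true_and, not_not]
        rw [htau, hva2]
        unfold flipAdj
        rw [if_pos (Or.inl ⟨Or.inl rfl, Or.inl rfl⟩), hva]; rfl
    · intro x hx
      simp only [mem_filter, mem_univ, true_and] at hx ⊢
      by_cases hxa : x = a
      · subst hxa; rw [hva, hva2]; exact Bool.false_ne_true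
      by_cases hxb : x = b
      · subst hxb; rw [hvb, hvb2]; exact Bool.false_ne_true.symm
      rw [htau] at hx
      unfold flipAdj at hx
      rw [if_neg] at hx
      · exact hx
      · rintro (⟨h1 | h1, h2 | h2⟩ | ⟨h1 | h1, h2 | h2⟩)
        · exact hxa h2
        · exact hxb h2
        · exact hvc h1
        · exact hvc h1
        · exact hva' h1
        · exact hva' h1
        · exact hvb' h1
        · exact hvb' h1

theorem connected_of_tau (f : Om d → ℝ) (hf : ∀ u v x y A, f (tau u v x y A) = f A) :
    ∀ A B, f A = f B := by
  have main : ∀ (k : ℕ) (W : Finset V), W.card = k → ∀ A B : Om d, agreeOff W A B → f A = f B := by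
    intro k
    induction k with
    | zero =>
      intro W hW A B hAB
      rw [card_eq_zero] at hW
      subst hW
      have : A = B := by
        ext a b
        rw [hAB a b (Or.inl (notMem_empty _))]
      rw [this]
    | succ k ih =>
      intro W hW A B hAB
      obtain ⟨v, hv⟩ : W.Nonempty := by rw [← card_pos]; omega
      have inner : ∀ (n : ℕ) (A B : Om d), agreeOff W A B → dif v A B = n → f A = f B := by
        intro n
        induction n using Nat.strong_induction_on with
        | _ n ihn =>
          intro A B hAB hn
          by_cases hn0 : dif v A B = 0
          · -- the rows of v agree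
            apply ih (W.erase v) (by rw [card_erase_of_mem hv, hW]; rfl) A B
            have hrow : ∀ x, A.adj v x = B.adj v x := by
              intro x
              by_contra hx
              unfold dif at hn0
              rw [card_eq_zero] at hn0
              have : x ∈ univ.filter (fun x => A.adj v x ≠ B.adj v x) := by
                simp only [mem_filter, mem_univ, true_and]; exact hx
              rw [hn0] at this
              exact notMem_empty _ this
            intro a b hab
            simp only [mem_erase, not_and_or, not_not] at hab
            rcases hab with (h | h) | (h | h)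
            · subst h; exact hrow b
            · exact hAB a b (Or.inl h)
            · subst h; rw [A.symm, B.symm]; exact hrow a
            · exact hAB a b (Or.inr h)
          · -- there is a difference
            have hdeg : ∑ x, (A.adj v x).toNat = ∑ x, (B.adj v x).toNat := by
              rw [A.deg, B.deg]
            have hex : ∃ x, A.adj v x ≠ B.adj v x := by
              by_contra hcon
              push Not at hcon
              apply hn0
              unfold dif
              rw [card_eq_zero, filter_eq_empty_iff]
              intro x _
              simp only [not_not, ne_eq]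
              exact hcon x
            have h1 : ∃ a, A.adj v a = false ∧ B.adj v a = true := by
              by_contra hcon
              push Not at hcon
              obtain ⟨x, hx⟩ := hex
              have : ∑ x, (B.adj v x).toNat < ∑ x, (A.adj v x).toNat := by
                apply sum_lt_sum
                · intro y _
                  cases hA : A.adj v y
                  · have := hcon y hA
                    cases hB : B.adj v y
                    · exact le_refl _
                    · exact absurd hB this
                  · cases B.adj v y <;> decide
                · refine ⟨x, mem_univ _, ?_⟩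
                  cases hA : A.adj v x
                  · have := hcon x hA
                    cases hB : B.adj v x
                    · rw [hA, hB] at hx; exact absurd rfl hx
                    · exact absurd hB this
                  · cases hB : B.adj v x
                    · decide
                    · rw [hA, hB] at hx; exact absurd rfl hx
              omega
            have h2 : ∃ b, A.adj v b = true ∧ B.adj v b = false := by
              by_contra hcon
              push Not at hcon
              obtain ⟨x, hx⟩ := hex
              have : ∑ x, (A.adj v x).toNat < ∑ x, (B.adj v x).toNat := by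
                apply sum_lt_sum
                · intro y _
                  cases hA : A.adj v y
                  · simp
                  · have := hcon y hA
                    cases hB : B.adj v y
                    · exact absurd hB this
                    · exact le_refl _
                · refine ⟨x, mem_univ _, ?_⟩
                  cases hA : A.adj v x
                  · cases hB : B.adj v x
                    · rw [hA, hB] at hx; exact absurd rfl hx
                    · decide
                  · have := hcon x hA
                    cases hB : B.adj v x
                    · exact absurd hB this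
                    · rw [hA, hB] at hx; exact absurd rfl hx
              omega
            obtain ⟨a, hA1, hB1⟩ := h1
            obtain ⟨b, hA2, hB2⟩ := h2
            have haW : a ∈ W := by
              by_contra h
              have := hAB v a (Or.inr h)
              rw [hA1, hB1] at this; exact Bool.false_ne_true this
            have hbW : b ∈ W := by
              by_contra h
              have := hAB v b (Or.inr h)
              rw [hA2, hB2] at this; exact Bool.false_ne_true this.symm
            have hAB' : agreeOff W B A := fun x y h => (hAB x y h).symm
            rcases le_total (dW W A b) (dW W A a) with hw | hw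
            · obtain ⟨c, hc1, hc2⟩ := step_tau hv haW hbW hAB hA1 hA2 hB1 hB2 hw
              rw [← hf v c a b A]
              exact ihn _ (by rw [← hn]; exact hc2) _ _ hc1 rfl
            · rw [dW_eq hAB a, dW_eq hAB b] at hw
              obtain ⟨c, hc1, hc2⟩ := step_tau hv hbW haW hAB' hB2 hB1 hA2 hA1 hw
              rw [← hf v c b a B]
              exact (ihn _ (by rw [← hn, dif_comm v A B]; exact hc2) _ _ hc1 rfl).symm
      exact inner _ A B hAB rfl
  intro A B
  apply main _ univ rfl A B
  intro a b hab
  rcases hab with h | h <;> exact absurd (mem_univ _) h

end Conn

end Vale.Agent.KTV
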