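import Vale.Agent.KTV.Avg

open Finset
open scoped Classical

namespace Vale.Agent.KTV

/-- double counting of pairs `(W, e)`, `e ∈ W`, `|W| = k+1` -/
theorem sum_erase_pairs {α : Type*} (P : Finset α) (k : ℕ) (H : Finset α → α → ℝ) :
    ∑ W ∈ P.powersetCard (k + 1), ∑ e ∈ W, H (W.erase e) e
      = ∑ U ∈ P.powersetCard k, ∑ e ∈ P \ U, H U e := by
  rw [Finset.sum_sigma', Finset.sum_sigma']
  refine Finset.sum_bij' (fun p _ => ⟨p.1.erase p.2, p.2⟩) (fun p _ => ⟨insert p.2 p.1, p.2⟩)
    ?_ ?_ ?_ ?_ ?_
  · rintro ⟨W, e⟩ hp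
    simp only [mem_sigma, mem_powersetCard] at hp ⊢
    obtain ⟨⟨hW, hc⟩, he⟩ := hp
    refine ⟨⟨(erase_subset _ _).trans hW, ?_⟩, ?_⟩
    · rw [card_erase_of_mem he, hc]; rfl
    · rw [mem_sdiff]; exact ⟨hW he, notMem_erase _ _⟩
  · rintro ⟨U, e⟩ hp
    simp only [mem_sigma, mem_powersetCard, mem_sdiff] at hp ⊢
    obtain ⟨⟨hU, hc⟩, he, he'⟩ := hp
    refine ⟨⟨?_, ?_⟩, mem_insert_self _ _⟩
    · intro z hz
      rcases mem_insert.1 hz with rfl | hz
      · exact he
      · exact hU hz
    · rw [card_insert_of_notMem he', hc]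
  · rintro ⟨W, e⟩ hp
    simp only [mem_sigma, mem_powersetCard] at hp
    simp only [insert_erase hp.2]
  · rintro ⟨U, e⟩ hp
    simp only [mem_sigma, mem_powersetCard, mem_sdiff] at hp
    simp only [erase_insert hp.2.2]
  · rintro ⟨W, e⟩ hp
    rfl

theorem subset_coupling {α : Type*} (P : Finset α) (c c' : α) (hc : c ∉ P) (hc' : c' ∉ P)
    (hcc : c ≠ c') (s : ℕ) (hs : s ≤ P.card) (h h' : Finset α → ℝ) (m : ℝ)
    (h1 : ∀ U ∈ P.powersetCard s, h' (insert c U) ≤ h U + m)
    (h2 : ∀ U ∈ P.powersetCard s, h' (insert c' U) ≤ h U + m)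
    (h3 : ∀ W ∈ P.powersetCard (s + 1), ∀ e ∈ W, h' W ≤ h (W.erase e) + m)
    (h4 : ∀ W ⊆ P, W.card + 1 = s → ∀ e ∈ P \ W, h' (insert c (insert c' W)) ≤ h (insert e W) + m) :
    (∑ U ∈ (insert c (insert c' P)).powersetCard (s + 1), h' U) /
        (((insert c (insert c' P)).powersetCard (s + 1)).card : ℝ) ≤
      (∑ U ∈ P.powersetCard s, h U) / ((P.powersetCard s).card : ℝ) + m := by
  have hcP : c ∉ insert c' P := by
    simp only [mem_insert, not_or]; exact ⟨hcc, hc⟩
  set S : ℝ := ∑ U ∈ P.powersetCard s, h U with hS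
  set K : ℝ := ((P.powersetCard s).card : ℝ) with hK
  have hKpos : 0 < K := by
    rw [hK, card_powersetCard]; exact_mod_cast Nat.choose_pos hs
  set N := P.card with hN
  -- part A
  set A : ℝ := ∑ W ∈ P.powersetCard (s + 1), h' W with hA
  have eA : ((s : ℝ) + 1) * A ≤ ((N : ℝ) - s) * S
      + ((s : ℝ) + 1) * ((P.powersetCard (s + 1)).card : ℝ) * m := by
    have e1 : ((s : ℝ) + 1) * A = ∑ W ∈ P.powersetCard (s + 1), ∑ e ∈ W, h' W := by
      rw [hA, Finset.mul_sum]
      apply sum_congr rfl
      intro W hW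
      rw [sum_const, (mem_powersetCard.1 hW).2, nsmul_eq_mul]; push_cast; ring
    have e2 : ∑ W ∈ P.powersetCard (s + 1), ∑ e ∈ W, h' W
        ≤ ∑ W ∈ P.powersetCard (s + 1), ∑ e ∈ W, (h (W.erase e) + m) :=
      sum_le_sum fun W hW => sum_le_sum fun e he => h3 W hW e he
    have e3 := sum_erase_pairs P s (fun U _ => h U + m)
    rw [e1]
    refine e2.trans (le_of_eq ?_)
    have e4 : ∑ W ∈ P.powersetCard (s + 1), ∑ e ∈ W, (h (W.erase e) + m)
        = (∑ W ∈ P.powersetCard (s + 1), ∑ e ∈ W, h (W.erase e))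
          + ((s : ℝ) + 1) * ((P.powersetCard (s + 1)).card : ℝ) * m := by
      rw [mul_right_comm, ← nsmul_eq_mul', ← sum_const, ← sum_add_distrib]
      apply sum_congr rfl
      intro W hW
      rw [sum_add_distrib, sum_const, (mem_powersetCard.1 hW).2, nsmul_eq_mul]; push_cast; ring
    rw [e4, sum_erase_pairs P s (fun U _ => h U)]
    congr 1
    rw [hS, Finset.mul_sum]
    apply sum_congr rfl
    intro U hU
    have hU' := mem_powersetCard.1 hU
    rw [sum_const, card_sdiff_of_subset hU'.1, hU'.2, nsmul_eq_mul, Nat.cast_sub hs]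
  have ea : ((s : ℝ) + 1) * ((P.powersetCard (s + 1)).card : ℝ) = ((N : ℝ) - s) * K := by
    rw [hK, card_powersetCard, card_powersetCard]
    have := Nat.choose_succ_right_eq N s
    have h5 : ((N.choose (s + 1) : ℕ) : ℝ) * ((s : ℝ) + 1) = (N.choose s : ℝ) * ((N : ℝ) - s) := by
      rw [← Nat.cast_sub hs]; exact_mod_cast this
    rw [← hN]; linarith
  -- parts B
  have eB1 : ∑ U ∈ P.powersetCard s, h' (insert c U) ≤ S + K * m := by
    rw [hS, hK, ← nsmul_eq_mul, ← sum_const, ← sum_add_distrib]
    exact sum_le_sum h1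
  have eB2 : ∑ U ∈ P.powersetCard s, h' (insert c' U) ≤ S + K * m := by
    rw [hS, hK, ← nsmul_eq_mul, ← sum_const, ← sum_add_distrib]
    exact sum_le_sum h2
  have key : ∀ (T M D dd : ℝ), 0 < M → T = A + (∑ U ∈ P.powersetCard s, h' (insert c' U))
        + ((∑ U ∈ P.powersetCard s, h' (insert c U)) + D) →
      M = ((P.powersetCard (s + 1)).card : ℝ) + K + (K + dd) →
      K * D ≤ dd * S + dd * K * m → T / M ≤ S / K + m := by
    intro T M D dd hM hT hM' hD
    rw [div_le_iff₀ hM]
    have hKA : K * A ≤ ((P.powersetCard (s + 1)).card : ℝ) * S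
        + ((P.powersetCard (s + 1)).card : ℝ) * K * m := by
      have hs1 : (0 : ℝ) < (s : ℝ) + 1 := by positivity
      have : ((s : ℝ) + 1) * (K * A) ≤ ((s : ℝ) + 1) * (((P.powersetCard (s + 1)).card : ℝ) * S
        + ((P.powersetCard (s + 1)).card : ℝ) * K * m) := by
        calc ((s : ℝ) + 1) * (K * A) = K * (((s : ℝ) + 1) * A) := by ring
          _ ≤ K * (((N : ℝ) - s) * S
              + ((s : ℝ) + 1) * ((P.powersetCard (s + 1)).card : ℝ) * m) :=
              mul_le_mul_of_nonneg_left eA hKpos.le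
          _ = (((N : ℝ) - s) * K) * S
              + K * (((s : ℝ) + 1) * ((P.powersetCard (s + 1)).card : ℝ)) * m := by ring
          _ = _ := by rw [← ea]; ring
      exact le_of_mul_le_mul_left this hs1
    have hfin : K * T ≤ M * (S + K * m) := by
      rw [hT, hM']
      nlinarith [mul_le_mul_of_nonneg_left eB1 hKpos.le, mul_le_mul_of_nonneg_left eB2 hKpos.le]
    have : (S / K + m) * M = (M * (S + K * m)) / K := by
      field_simp
    rw [this, le_div_iff₀ hKpos]
    linarith
  have hins : Set.InjOn (insert c) ((insert c' P).powersetCard s : Set (Finset α)) := by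
    intro U hU V hV hUV
    have hU' := (mem_powersetCard.1 (mem_coe.1 hU)).1
    have hV' := (mem_powersetCard.1 (mem_coe.1 hV)).1
    have a1 : c ∉ U := fun hh => hcP (hU' hh)
    have a2 : c ∉ V := fun hh => hcP (hV' hh)
    rw [← erase_insert a1, ← erase_insert a2, hUV]
  have hins' : ∀ k, Set.InjOn (insert c') (P.powersetCard k : Set (Finset α)) := by
    intro k U hU V hV hUV
    have hU' := (mem_powersetCard.1 (mem_coe.1 hU)).1
    have hV' := (mem_powersetCard.1 (mem_coe.1 hV)).1
    have a1 : c' ∉ U := fun hh => hc' (hU' hh)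
    have a2 : c' ∉ V := fun hh => hc' (hV' hh)
    rw [← erase_insert a1, ← erase_insert a2, hUV]
  have d1 : ∀ (F : Finset α → ℝ), ∑ U ∈ (insert c (insert c' P)).powersetCard (s + 1), F U
      = (∑ U ∈ P.powersetCard (s + 1), F U + ∑ U ∈ P.powersetCard s, F (insert c' U))
        + ∑ U ∈ (insert c' P).powersetCard s, F (insert c U) := by
    intro F
    rw [powersetCard_succ_insert hcP, sum_union, sum_image hins, powersetCard_succ_insert hc',
      sum_union, sum_image (hins' s)]
    · rw [disjoint_left]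
      intro U hU hU2
      obtain ⟨V, hV, rfl⟩ := mem_image.1 hU2
      exact hc' ((mem_powersetCard.1 hU).1 (mem_insert_self _ _))
    · rw [disjoint_left]
      intro U hU hU2
      obtain ⟨V, hV, rfl⟩ := mem_image.1 hU2
      exact hcP ((mem_powersetCard.1 hU).1 (mem_insert_self _ _))
  have hMpos : (0 : ℝ) < (((insert c (insert c' P)).powersetCard (s + 1)).card : ℝ) := by
    rw [card_powersetCard]
    have : s + 1 ≤ (insert c (insert c' P)).card := by
      rw [card_insert_of_notMem hcP, card_insert_of_notMem hc']; omega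
    exact_mod_cast Nat.choose_pos this
  have hcard : (((insert c (insert c' P)).powersetCard (s + 1)).card : ℝ)
      = ((P.powersetCard (s + 1)).card : ℝ) + K + (((insert c' P).powersetCard s).card : ℝ) := by
    have := d1 (fun _ => 1)
    simp only [sum_const, nsmul_eq_mul, mul_one] at this
    rw [this]
  rcases Nat.eq_zero_or_pos s with hs0 | hspos
  · subst hs0
    refine key _ _ 0 0 hMpos ?_ ?_ (by simp)
    · rw [d1 h']
      simp only [powersetCard_zero, sum_singleton]
      rw [hA]; ring
    · rw [hcard]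
      simp only [powersetCard_zero, card_singleton, hK]
      push_cast; ring
  · obtain ⟨k, rfl⟩ : ∃ k, s = k + 1 := ⟨s - 1, by omega⟩
    have d2 : ∀ (F : Finset α → ℝ), ∑ U ∈ (insert c' P).powersetCard (k + 1), F U
      = ∑ U ∈ P.powersetCard (k + 1), F U + ∑ U ∈ P.powersetCard k, F (insert c' U) := by
      intro F
      rw [powersetCard_succ_insert hc', sum_union, sum_image (hins' k)]
      rw [disjoint_left]
      intro U hU hU2
      obtain ⟨V, hV, rfl⟩ := mem_image.1 hU2
      exact hc' ((mem_powersetCard.1 hU).1 (mem_insert_self _ _))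
    refine key _ _ (∑ U ∈ P.powersetCard k, h' (insert c (insert c' U)))
      ((P.powersetCard k).card : ℝ) hMpos ?_ ?_ ?_
    · rw [d1 h', d2 (fun U => h' (insert c U))]
    · rw [hcard]
      have := d2 (fun _ => 1)
      simp only [sum_const, nsmul_eq_mul, mul_one] at this
      rw [this]
    · have hkN : k ≤ N := by omega
      have hNk : (0 : ℝ) < (N : ℝ) - k := by
        have : (k : ℝ) + 1 ≤ N := by exact_mod_cast hs
        linarith
      have ed : ((N : ℝ) - k) * ((P.powersetCard k).card : ℝ) = ((k : ℝ) + 1) * K := by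
        rw [hK, card_powersetCard, card_powersetCard]
        have := Nat.choose_succ_right_eq N k
        have h5 : ((N.choose (k + 1) : ℕ) : ℝ) * ((k : ℝ) + 1)
            = (N.choose k : ℝ) * ((N : ℝ) - k) := by
          rw [← Nat.cast_sub hkN]; exact_mod_cast this
        rw [← hN]; linarith
      have eD : ((N : ℝ) - k) * (∑ U ∈ P.powersetCard k, h' (insert c (insert c' U)))
          ≤ ((k : ℝ) + 1) * S + ((N : ℝ) - k) * ((P.powersetCard k).card : ℝ) * m := by
        have e1 : ((N : ℝ) - k) * (∑ U ∈ P.powersetCard k, h' (insert c (insert c' U)))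
            = ∑ U ∈ P.powersetCard k, ∑ e ∈ P \ U, h' (insert c (insert c' U)) := by
          rw [Finset.mul_sum]
          apply sum_congr rfl
          intro U hU
          have hU' := mem_powersetCard.1 hU
          rw [sum_const, card_sdiff_of_subset hU'.1, hU'.2, nsmul_eq_mul, Nat.cast_sub hkN]
        have e2 : ∑ U ∈ P.powersetCard k, ∑ e ∈ P \ U, h' (insert c (insert c' U))
            ≤ ∑ U ∈ P.powersetCard k, ∑ e ∈ P \ U, (h (insert e U) + m) :=
          sum_le_sum fun U hU => sum_le_sum fun e he =>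
            h4 U (mem_powersetCard.1 hU).1 (by rw [(mem_powersetCard.1 hU).2]) e he
        rw [e1]
        refine e2.trans (le_of_eq ?_)
        have e3 : ∑ U ∈ P.powersetCard k, ∑ e ∈ P \ U, (h (insert e U) + m)
            = (∑ U ∈ P.powersetCard k, ∑ e ∈ P \ U, h (insert e U))
              + ((N : ℝ) - k) * ((P.powersetCard k).card : ℝ) * m := by
          rw [mul_right_comm, ← nsmul_eq_mul', ← sum_const, ← sum_add_distrib]
          apply sum_congr rfl
          intro U hU
          have hU' := mem_powersetCard.1 hU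
          rw [sum_add_distrib, sum_const, card_sdiff_of_subset hU'.1, hU'.2, nsmul_eq_mul,
            Nat.cast_sub hkN]
        rw [e3, ← sum_erase_pairs P k (fun U e => h (insert e U))]
        congr 1
        rw [hS, Finset.mul_sum]
        apply sum_congr rfl
        intro W hW
        rw [sum_congr rfl (fun e he => by rw [insert_erase he]), sum_const,
          (mem_powersetCard.1 hW).2, nsmul_eq_mul]
        push_cast; ring
      have : ((N : ℝ) - k) * (K * (∑ U ∈ P.powersetCard k, h' (insert c (insert c' U))))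
          ≤ ((N : ℝ) - k) * (((P.powersetCard k).card : ℝ) * S
            + ((P.powersetCard k).card : ℝ) * K * m) := by
        calc ((N : ℝ) - k) * (K * (∑ U ∈ P.powersetCard k, h' (insert c (insert c' U))))
            = K * (((N : ℝ) - k) * (∑ U ∈ P.powersetCard k, h' (insert c (insert c' U)))) := by
              ring
          _ ≤ K * (((k : ℝ) + 1) * S + ((N : ℝ) - k) * ((P.powersetCard k).card : ℝ) * m) :=
              mul_le_mul_of_nonneg_left eD hKpos.le
          _ = (((k : ℝ) + 1) * K) * S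
              + ((N : ℝ) - k) * (((P.powersetCard k).card : ℝ) * K) * m := by ring
          _ = _ := by rw [← ed]; ring
      exact le_of_mul_le_mul_left this hNk

end Vale.Agent.KTV
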