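import Mathlib

open Finset
open scoped Classical

namespace Vale.Agent.KTV

/-! ## Averaging operators on a finite set -/

section Avg
variable {Ω : Type*} [Fintype Ω]

/-- the class of `x` for the relation `r` -/
noncomputable def cls (r : Ω → Ω → Prop) (x : Ω) : Finset Ω := univ.filter (fun y => r x y)

/-- the average of `f` over the class of `x` -/
noncomputable def avg (r : Ω → Ω → Prop) (f : Ω → ℝ) (x : Ω) : ℝ :=
  (∑ y ∈ cls r x, f y) / ((cls r x).card : ℝ)

/-- inner product -/
noncomputable def ip (f g : Ω → ℝ) : ℝ := ∑ x, f x * g x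

end Avg

/-! ## Subsets of a finite set (Johnson scheme) -/

/-- apply the transposition of `x` and `y` to the set `U` -/
noncomputable def sws {α : Type*} (x y : α) (U : Finset α) : Finset α :=
  U.image (Equiv.swap x y)

/-- the `s`-subsets of `P` containing exactly one of `x`, `y` -/
noncomputable def sep {α : Type*} (P : Finset α) (s : ℕ) (x y : α) : Finset (Finset α) :=
  (P.powersetCard s).filter (fun U => ¬ (x ∈ U ↔ y ∈ U))

/-! ## Three-row systems -/

/-- `3 × C` zero-one matrices with given row sums `r` and column sums `c` -/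
@[ext] structure X3 (C : Type*) [Fintype C] (r : Fin 3 → ℕ) (c : C → ℕ) where
  m : Fin 3 → C → Bool
  row : ∀ i, ∑ x, (m i x).toNat = r i
  col : ∀ x, ∑ i, (m i x).toNat = c x

noncomputable instance X3.fintype {C : Type*} [Fintype C] (r : Fin 3 → ℕ) (c : C → ℕ) :
    Fintype (X3 C r c) :=
  Fintype.ofInjective (fun M : X3 C r c => M.m) (fun _ _ h => X3.ext h)

/-- two matrices have the same row `i` -/
def sameRow {C : Type*} [Fintype C] {r : Fin 3 → ℕ} {c : C → ℕ} (i : Fin 3)
    (M N : X3 C r c) : Prop := M.m i = N.m i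

/-! ## Graphs with a given degree sequence -/

/-- realizations of the degree sequence `d`, as symmetric zero-one matrices -/
@[ext] structure Om {V : Type*} [Fintype V] (d : V → ℕ) where
  adj : V → V → Bool
  symm : ∀ a b, adj a b = adj b a
  irrefl : ∀ a, adj a a = false
  deg : ∀ a, ∑ b, (adj a b).toNat = d a

noncomputable instance Om.fintype {V : Type*} [Fintype V] (d : V → ℕ) : Fintype (Om d) :=
  Fintype.ofInjective (fun A : Om d => A.adj) (fun _ _ h => Om.ext h)

section Graph
variable {V : Type*} [Fintype V] {d : V → ℕ}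

/-- `A` and `B` agree on every pair `a, b` except those with exactly one endpoint in `{u, v}` -/
def pr (u v : V) (A B : Om d) : Prop :=
  ∀ a b, ((a = u ∨ a = v) ↔ (b = u ∨ b = v)) → A.adj a b = B.adj a b

/-- four distinct vertices -/
def Dist4 (u v x y : V) : Prop := u ≠ v ∧ u ≠ x ∧ u ≠ y ∧ v ≠ x ∧ v ≠ y ∧ x ≠ y

/-- the `2 × 2` block with rows `u, v` and columns `x, y` is alternating
(that is, it is a permutation matrix) -/
def Alt (u v x y : V) (A : Om d) : Prop :=
  A.adj u x = A.adj v y ∧ A.adj u y = A.adj v x ∧ A.adj u x ≠ A.adj u y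

/-- complement the four entries of the block `{u,v} × {x,y}` -/
noncomputable def flipAdj (u v x y : V) (A : V → V → Bool) : V → V → Bool := fun a b =>
  if ((a = u ∨ a = v) ∧ (b = x ∨ b = y)) ∨ ((a = x ∨ a = y) ∧ (b = u ∨ b = v))
  then !(A a b) else A a b

/-- the relation refining `pr u v` used for the pair `{x, y}`: the columns `x, y` are either
unchanged or changed by exchanging the rows `u` and `v` -/
def prs (u v x y : V) (A B : Om d) : Prop :=
  pr u v A B ∧
    ((∀ a, B.adj a x = A.adj a x ∧ B.adj a y = A.adj a y) ∨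
     (∀ a, B.adj a x = A.adj (Equiv.swap u v a) x ∧ B.adj a y = A.adj (Equiv.swap u v a) y))

/-- fluctuation operator of the resampling of the rows `u, v` -/
noncomputable def Lp (u v : V) (f : Om d → ℝ) (A : Om d) : ℝ := f A - avg (pr u v) f A

/-- the difference of the two averages -/
noncomputable def Kq (u v x y : V) (f : Om d → ℝ) (A : Om d) : ℝ :=
  avg (prs u v x y) f A - avg (pr u v) f A

end Graph



theorem sum_two_change {V : Type*} [Fintype V] {f g : V → ℕ} {x y : V} (hxy : x ≠ y)
    (h : ∀ b, b ≠ x → b ≠ y → f b = g b) (h2 : f x + f y = g x + g y) :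
    ∑ b, f b = ∑ b, g b := by
  rw [← Finset.add_sum_erase univ f (mem_univ x), ← Finset.add_sum_erase univ g (mem_univ x),
    ← Finset.add_sum_erase (univ.erase x) f (mem_erase.2 ⟨hxy.symm, mem_univ y⟩),
    ← Finset.add_sum_erase (univ.erase x) g (mem_erase.2 ⟨hxy.symm, mem_univ y⟩)]
  have : ∑ b ∈ (univ.erase x).erase y, f b = ∑ b ∈ (univ.erase x).erase y, g b := by
    apply sum_congr rfl
    intro b hb
    simp only [mem_erase] at hb
    exact h b hb.2.1 hb.1
  omega

section Graph
variable {V : Type*} [Fintype V] {d : V → ℕ}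

theorem flipAdj_deg {u v x y : V} (hd : Dist4 u v x y) (A : Om d) (hA : Alt u v x y A) (a : V) :
    ∑ b, (flipAdj u v x y A.adj a b).toNat = d a := by
  rw [← A.deg a]
  obtain ⟨h1, h2, h3, h4, h5, h6⟩ := hd
  obtain ⟨k1, k2, k3⟩ := hA
  have hsx := A.symm
  by_cases hp : a = u ∨ a = v
  · have hq : ¬ (a = x ∨ a = y) := by
      rcases hp with rfl | rfl <;> push Not <;> constructor <;> assumption
    apply sum_two_change h6
    · intro b hbx hby
      have : ¬ (b = x ∨ b = y) := by push Not; exact ⟨hbx, hby⟩
      simp only [flipAdj, hp, hq, this, and_false, false_and, or_false, if_false]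
    · simp only [flipAdj, hp, true_and, true_or, or_true, if_true]
      rcases hp with rfl | rfl
      · cases hh : A.adj a x <;> cases hh' : A.adj a y <;> simp_all
      · cases hh : A.adj a x <;> cases hh' : A.adj a y <;> simp_all
  · by_cases hq : a = x ∨ a = y
    · apply sum_two_change h1
      · intro b hbx hby
        have : ¬ (b = u ∨ b = v) := by push Not; exact ⟨hbx, hby⟩
        simp only [flipAdj, hp, hq, this, and_false, false_and, or_false, if_false]
      · simp only [flipAdj, hp, hq, true_and, true_or, or_true, if_true]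
        rw [hsx a u, hsx a v]
        rcases hq with rfl | rfl
        · cases hh : A.adj u a <;> cases hh' : A.adj v a <;> simp_all
        · cases hh : A.adj u a <;> cases hh' : A.adj v a <;> simp_all
    · apply sum_congr rfl
      intro b _
      simp only [flipAdj, hp, hq, false_and, or_false, if_false]

theorem flipAdj_symm (u v x y : V) (A : Om d) (a b : V) :
    flipAdj u v x y A.adj a b = flipAdj u v x y A.adj b a := by
  unfold flipAdj
  rw [A.symm a b]
  have : (((a = u ∨ a = v) ∧ (b = x ∨ b = y)) ∨ ((a = x ∨ a = y) ∧ (b = u ∨ b = v))) ↔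
      (((b = u ∨ b = v) ∧ (a = x ∨ a = y)) ∨ ((b = x ∨ b = y) ∧ (a = u ∨ a = v))) := by tauto
  simp only [this]

theorem flipAdj_irrefl {u v x y : V} (hd : Dist4 u v x y) (A : Om d) (a : V) :
    flipAdj u v x y A.adj a a = false := by
  obtain ⟨h1, h2, h3, h4, h5, h6⟩ := hd
  unfold flipAdj
  rw [if_neg, A.irrefl]
  rintro (⟨h | h, h' | h'⟩ | ⟨h | h, h' | h'⟩) <;> subst h <;> first
    | exact h2 h' | exact h3 h' | exact h4 h' | exact h5 h'
    | exact h2 h'.symm | exact h3 h'.symm | exact h4 h'.symm | exact h5 h'.symm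

/-- the switch on the block `{u,v} × {x,y}` (identity if it is not possible) -/
noncomputable def tau (u v x y : V) (A : Om d) : Om d :=
  if h : Dist4 u v x y ∧ Alt u v x y A then
    { adj := flipAdj u v x y A.adj
      symm := flipAdj_symm u v x y A
      irrefl := flipAdj_irrefl h.1 A
      deg := flipAdj_deg h.1 A h.2 }
  else A

/-- half-difference under the switch -/
noncomputable def Mq (u v x y : V) (f : Om d → ℝ) (A : Om d) : ℝ := (f A - f (tau u v x y A)) / 2

end Graph


end Vale.Agent.KTV
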