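import Vale.Agent.KTV.Rel

open Finset
open scoped Classical

namespace Vale.Agent.KTV

section Disj
variable {V : Type*} [Fintype V] {d : V → ℕ}

theorem two_sum_of_sum {f g : V → ℕ} {x y : V} (hxy : x ≠ y)
    (h : ∀ b, b ≠ x → b ≠ y → f b = g b) (h2 : ∑ b, f b = ∑ b, g b) :
    f x + f y = g x + g y := by
  rw [← Finset.add_sum_erase univ f (mem_univ x), ← Finset.add_sum_erase univ g (mem_univ x),
    ← Finset.add_sum_erase (univ.erase x) f (mem_erase.2 ⟨hxy.symm, mem_univ y⟩),
    ← Finset.add_sum_erase (univ.erase x) g (mem_erase.2 ⟨hxy.symm, mem_univ y⟩)] at h2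
  have : ∑ b ∈ (univ.erase x).erase y, f b = ∑ b ∈ (univ.erase x).erase y, g b := by
    apply sum_congr rfl
    intro b hb
    simp only [mem_erase] at hb
    exact h b hb.2.1 hb.1
  omega

theorem pr_colsum {u v : V} (huv : u ≠ v) {A B : Om d} (h : pr u v A B) {c : V} (hcu : c ≠ u)
    (hcv : c ≠ v) : (A.adj c u).toNat + (A.adj c v).toNat =
      (B.adj c u).toNat + (B.adj c v).toNat := by
  apply two_sum_of_sum (f := fun b => (A.adj c b).toNat) (g := fun b => (B.adj c b).toNat) huv
  · intro b hbu hbv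
    have hc : ¬ (c = u ∨ c = v) := by push Not; exact ⟨hcu, hcv⟩
    have hb : ¬ (b = u ∨ b = v) := by push Not; exact ⟨hbu, hbv⟩
    rw [h c b (by tauto)]
  · rw [A.deg c, B.deg c]

/-- the data of a row exchange `π` of the matrix restricted to the columns `u, v` -/
structure Good (u v : V) (π : Equiv.Perm V) (A As : Om d) : Prop where
  fu : π u = u
  fv : π v = v
  inv : ∀ a, π (π a) = a
  col : ∀ a, As.adj a u = A.adj (π a) u ∧ As.adj a v = A.adj (π a) v

theorem Good.symm {u v : V} {π : Equiv.Perm V} {A As : Om d} (h : Good u v π A As) :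
    Good u v π As A := by
  refine ⟨h.fu, h.fv, h.inv, fun a => ?_⟩
  have := h.col (π a)
  rw [h.inv a] at this
  exact ⟨this.1.symm, this.2.symm⟩

theorem Good.mem_iff {u v : V} {π : Equiv.Perm V} {A As : Om d} (h : Good u v π A As) (a : V) :
    (π a = u ∨ π a = v) ↔ (a = u ∨ a = v) := by
  constructor
  · rintro (h1 | h1)
    · left; exact π.injective (h1.trans h.fu.symm)
    · right; exact π.injective (h1.trans h.fv.symm)
  · rintro (rfl | rfl)
    · left; exact h.fu
    · right; exact h.fv

/-- transported adjacency matrix -/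
noncomputable def resAdj (u v : V) (π : Equiv.Perm V) (B As : V → V → Bool) : V → V → Bool :=
  fun a b => if (a = u ∨ a = v) ∨ (b = u ∨ b = v) then B (π a) (π b) else As a b

theorem resAdj_deg {u v : V} (huv : u ≠ v) {π : Equiv.Perm V} {A As B : Om d}
    (hG : Good u v π A As) (hp : pr u v A B) (a : V) :
    ∑ b, (resAdj u v π B.adj As.adj a b).toNat = d a := by
  by_cases ha : a = u ∨ a = v
  · have hπ : π a = a := by rcases ha with rfl | rfl; exacts [hG.fu, hG.fv]
    have : ∀ b, (resAdj u v π B.adj As.adj a b).toNat = (B.adj a (π b)).toNat := by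
      intro b
      simp only [resAdj, ha, true_or, if_true, hπ]
    simp only [this]
    rw [Equiv.sum_comp π (fun b => (B.adj a b).toNat), B.deg a]
  · rw [← As.deg a]
    apply sum_two_change huv
    · intro b hbu hbv
      have hb : ¬ (b = u ∨ b = v) := by push Not; exact ⟨hbu, hbv⟩
      simp only [resAdj, ha, hb, or_self, if_false]
    · have hπa : ¬ (π a = u ∨ π a = v) := fun h => ha ((hG.mem_iff a).1 h)
      push Not at hπa
      have h1 := pr_colsum huv hp hπa.1 hπa.2
      simp only [resAdj, true_or, or_true, if_true, hG.fu, hG.fv]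
      rw [(hG.col a).1, (hG.col a).2]
      exact h1.symm

/-- transported element -/
noncomputable def trOm (u v : V) (π : Equiv.Perm V) (As B : Om d) : Om d :=
  if h : (∀ a, ∑ b, (resAdj u v π B.adj As.adj a b).toNat = d a) ∧ π u = u ∧ π v = v then
    { adj := resAdj u v π B.adj As.adj
      symm := by
        intro a b
        unfold resAdj
        rw [B.symm (π a) (π b), As.symm a b]
        simp only [or_comm]
      irrefl := by
        intro a
        unfold resAdj
        split_ifs with h1
        · exact B.irrefl _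
        · exact As.irrefl a
      deg := h.1 }
  else As

theorem trOm_adj {u v : V} (huv : u ≠ v) {π : Equiv.Perm V} {A As B : Om d}
    (hG : Good u v π A As) (hp : pr u v A B) :
    (trOm u v π As B).adj = resAdj u v π B.adj As.adj := by
  unfold trOm
  rw [dif_pos ⟨resAdj_deg huv hG hp, hG.fu, hG.fv⟩]

theorem trOm_pr {u v : V} (huv : u ≠ v) {π : Equiv.Perm V} {A As B : Om d}
    (hG : Good u v π A As) (hp : pr u v A B) : pr u v As (trOm u v π As B) := by
  intro a b hab
  rw [trOm_adj huv hG hp]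
  unfold resAdj
  split_ifs with h
  · have ha : a = u ∨ a = v := by tauto
    have hb : b = u ∨ b = v := by tauto
    have hπa : π a = a := by rcases ha with rfl | rfl; exacts [hG.fu, hG.fv]
    have hπb : π b = b := by rcases hb with rfl | rfl; exacts [hG.fu, hG.fv]
    rw [hπa, hπb, ← hp a b hab]
    rcases hb with rfl | rfl
    · rw [(hG.col a).1, hπa]
    · rw [(hG.col a).2, hπa]
  · rfl

theorem trOm_left {u v : V} (huv : u ≠ v) {π : Equiv.Perm V} {A As B : Om d}
    (hG : Good u v π A As) (hp : pr u v A B) :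
    trOm u v π A (trOm u v π As B) = B := by
  apply Om.ext
  rw [trOm_adj huv hG.symm (trOm_pr huv hG hp), trOm_adj huv hG hp]
  funext a b
  unfold resAdj
  by_cases h : (a = u ∨ a = v) ∨ (b = u ∨ b = v)
  · have h' : (π a = u ∨ π a = v) ∨ (π b = u ∨ π b = v) := by
      rw [hG.mem_iff, hG.mem_iff]; exact h
    rw [if_pos h, if_pos h', hG.inv, hG.inv]
  · rw [if_neg h]
    exact hp a b (by tauto)

/-- `prs x y u v A As` gives a row exchange -/
theorem exists_good {u v x y : V} (hd : Dist4 u v x y) {A As : Om d} (h : prs x y u v A As) :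
    ∃ π : Equiv.Perm V, Good u v π A As ∧ (π = 1 ∨ π = Equiv.swap x y) := by
  obtain ⟨h1, h2, h3, h4, h5, h6⟩ := hd
  rcases h.2 with h' | h'
  · exact ⟨1, ⟨rfl, rfl, fun _ => rfl, fun a => ⟨(h' a).1, (h' a).2⟩⟩, Or.inl rfl⟩
  · refine ⟨Equiv.swap x y, ⟨?_, ?_, fun a => Equiv.swap_apply_self x y a, h'⟩, Or.inr rfl⟩
    · exact Equiv.swap_apply_of_ne_of_ne h2 h3
    · exact Equiv.swap_apply_of_ne_of_ne h4 h5

theorem trOm_prs {u v x y : V} (hd : Dist4 u v x y) {π : Equiv.Perm V} {A As B : Om d}
    (hG : Good u v π A As) (hπ : π = 1 ∨ π = Equiv.swap x y) (hq : pr x y A As)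
    (hp : pr u v A B) : prs x y u v B (trOm u v π As B) := by
  obtain ⟨h1, h2, h3, h4, h5, h6⟩ := hd
  have hfix : ∀ a, a ≠ x → a ≠ y → π a = a := by
    intro a hx hy
    rcases hπ with rfl | rfl
    · rfl
    · exact Equiv.swap_apply_of_ne_of_ne hx hy
  refine ⟨?_, ?_⟩
  · intro a b hab
    rw [trOm_adj h1 hG hp]
    unfold resAdj
    split_ifs with h
    · -- one of them in `{u,v}`, so none in `{x,y}`
      have hn : ¬ (a = x ∨ a = y) ∧ ¬ (b = x ∨ b = y) := by
        rcases h with h | h
        · have : ¬ (a = x ∨ a = y) := by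
            rcases h with rfl | rfl <;> push Not <;> constructor <;> assumption
          exact ⟨this, fun hb => this (hab.2 hb)⟩
        · have : ¬ (b = x ∨ b = y) := by
            rcases h with rfl | rfl <;> push Not <;> constructor <;> assumption
          exact ⟨fun ha => this (hab.1 ha), this⟩
      obtain ⟨ha, hb⟩ := hn
      push Not at ha hb
      rw [hfix a ha.1 ha.2, hfix b hb.1 hb.2]
    · rw [← hp a b (by tauto)]
      exact hq a b hab
  · have hcol : ∀ a, (trOm u v π As B).adj a u = B.adj (π a) u ∧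
        (trOm u v π As B).adj a v = B.adj (π a) v := by
      intro a
      rw [trOm_adj h1 hG hp]
      simp only [resAdj, true_or, or_true, if_true, hG.fu, hG.fv, and_self]
    rcases hπ with rfl | rfl
    · left; exact hcol
    · right; exact hcol

theorem trOm_prs' {u v x y : V} (hd : Dist4 u v x y) {π : Equiv.Perm V} {A As B : Om d}
    (hG : Good u v π A As) (hπ : π = 1 ∨ π = Equiv.swap x y)
    (hp : prs u v x y A B) : prs u v x y As (trOm u v π As B) := by
  obtain ⟨h1, h2, h3, h4, h5, h6⟩ := hd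
  refine ⟨trOm_pr h1 hG hp.1, ?_⟩
  -- the key identity for a row exchange `σ` of `{u,v}`
  have key : ∀ σ : V → V, (∀ a, (a = u ∨ a = v) → (σ a = u ∨ σ a = v)) →
      (∀ a, ¬ (a = u ∨ a = v) → σ a = a) →
      (∀ a, B.adj a x = A.adj (σ a) x ∧ B.adj a y = A.adj (σ a) y) →
      ∀ a, (trOm u v π As B).adj a x = As.adj (σ a) x ∧
        (trOm u v π As B).adj a y = As.adj (σ a) y := by
    intro σ hσ hσ' hB a
    rw [trOm_adj h1 hG hp.1]
    unfold resAdj
    have hx : ¬ (x = u ∨ x = v) := by push Not; exact ⟨h2.symm, h4.symm⟩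
    have hy : ¬ (y = u ∨ y = v) := by push Not; exact ⟨h3.symm, h5.symm⟩
    by_cases ha : a = u ∨ a = v
    · have hπa : π a = a := by rcases ha with rfl | rfl; exacts [hG.fu, hG.fv]
      simp only [ha, true_or, if_true, hπa]
      -- value of `As` at `(σ a, c)`
      have hAs : ∀ c, As.adj (σ a) c = A.adj (σ a) (π c) := by
        intro c
        rw [As.symm, A.symm]
        rcases hσ a ha with h | h
        · rw [h]; exact (hG.col c).1
        · rw [h]; exact (hG.col c).2
      rw [hAs x, hAs y]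
      rcases hπ with rfl | rfl
      · exact hB a
      · rw [Equiv.swap_apply_left, Equiv.swap_apply_right]
        exact ⟨(hB a).2, (hB a).1⟩
    · simp only [ha, hx, hy, or_self, if_false]
      rw [hσ' a ha]
      exact ⟨rfl, rfl⟩
  rcases hp.2 with h | h
  · left
    exact key id (fun a h => h) (fun a _ => rfl) h
  · right
    refine key (Equiv.swap u v) ?_ ?_ h
    · rintro a (rfl | rfl)
      · right; exact Equiv.swap_apply_left _ _
      · left; exact Equiv.swap_apply_right _ _
    · intro a ha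
      push Not at ha
      exact Equiv.swap_apply_of_ne_of_ne ha.1 ha.2

/-- transport of class averages -/
theorem avg_preserve {u v x y : V} (hd : Dist4 u v x y) (r : Om d → Om d → Prop)
    (hr : ∀ A B, r A B → pr u v A B)
    (hlift : ∀ (π : Equiv.Perm V) (A As B : Om d), Good u v π A As →
      (π = 1 ∨ π = Equiv.swap x y) → r A B → r As (trOm u v π As B))
    (g : Om d → ℝ) (hg : ∀ A B, prs x y u v A B → g A = g B) {A As : Om d}
    (h : prs x y u v A As) : avg r g A = avg r g As := by
  obtain ⟨π, hG, hπ⟩ := exists_good hd h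
  have hd1 : u ≠ v := hd.1
  have hsum : ∑ B ∈ cls r A, g B = ∑ B ∈ cls r As, g B := by
    refine sum_nbij' (fun B => trOm u v π As B) (fun B => trOm u v π A B) ?_ ?_ ?_ ?_ ?_
    · intro B hB
      rw [mem_cls] at hB ⊢
      exact hlift π A As B hG hπ hB
    · intro B hB
      rw [mem_cls] at hB ⊢
      exact hlift π As A B hG.symm hπ hB
    · intro B hB
      rw [mem_cls] at hB
      exact trOm_left hd1 hG (hr _ _ hB)
    · intro B hB
      rw [mem_cls] at hB
      exact trOm_left hd1 hG.symm (hr _ _ hB)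
    · intro B hB
      rw [mem_cls] at hB
      exact hg _ _ (trOm_prs hd hG hπ h.1 (hr _ _ hB))
  have hcard : (cls r A).card = (cls r As).card := by
    refine card_nbij' (fun B => trOm u v π As B) (fun B => trOm u v π A B) ?_ ?_ ?_ ?_
    · intro B hB
      rw [mem_coe, mem_cls] at hB ⊢
      exact hlift π A As B hG hπ hB
    · intro B hB
      rw [mem_coe, mem_cls] at hB ⊢
      exact hlift π As A B hG.symm hπ hB
    · intro B hB
      rw [mem_coe, mem_cls] at hB
      exact trOm_left hd1 hG (hr _ _ hB)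
    · intro B hB
      rw [mem_coe, mem_cls] at hB
      exact trOm_left hd1 hG.symm (hr _ _ hB)
  unfold avg
  rw [hsum, hcard]

theorem dist4_symm {u v x y : V} (h : Dist4 u v x y) : Dist4 x y u v := by
  obtain ⟨h1, h2, h3, h4, h5, h6⟩ := h
  exact ⟨h6, h2.symm, h4.symm, h3.symm, h5.symm, h1⟩

theorem comm_pr_prs {u v x y : V} (hd : Dist4 u v x y) (f : Om d → ℝ) :
    avg (pr u v) (avg (prs x y u v) f) = avg (prs x y u v) (avg (pr u v) f) :=
  avg_comm_of_preserve (pr_equiv u v) (prs_equiv (dist4_symm hd))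
    (fun g hg _ _ h => avg_preserve hd (pr u v) (fun _ _ h => h)
      (fun π A As B hG _ hp => trOm_pr hd.1 hG hp) g hg h) f

theorem comm_prs_prs {u v x y : V} (hd : Dist4 u v x y) (f : Om d → ℝ) :
    avg (prs u v x y) (avg (prs x y u v) f) = avg (prs x y u v) (avg (prs u v x y) f) :=
  avg_comm_of_preserve (prs_equiv hd) (prs_equiv (dist4_symm hd))
    (fun g hg _ _ h => avg_preserve hd (prs u v x y) (fun _ _ h => h.1)
      (fun π A As B hG hπ hp => trOm_prs' hd hG hπ hp) g hg h) f

/-! ### the switch -/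

theorem alt_symm' {u v x y : V} {A : Om d} : Alt u v x y A ↔ Alt x y u v A := by
  unfold Alt
  rw [A.symm x u, A.symm y v, A.symm x v, A.symm y u]
  constructor
  · rintro ⟨h1, h2, h3⟩
    exact ⟨h1, h2.symm, by rw [← h2]; exact h3⟩
  · rintro ⟨h1, h2, h3⟩
    exact ⟨h1, h2.symm, by rw [h2.symm]; exact h3⟩

theorem tau_adj {u v x y : V} (hd : Dist4 u v x y) {A : Om d} (hA : Alt u v x y A) :
    (tau u v x y A).adj = flipAdj u v x y A.adj := by
  unfold tau
  rw [dif_pos ⟨hd, hA⟩]

theorem tau_not {u v x y : V} {A : Om d} (hA : ¬ Alt u v x y A) :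
    tau u v x y A = A := by
  unfold tau
  rw [dif_neg (fun h => hA h.2)]

theorem flip_ux {u v x y : V} (A : V → V → Bool) :
    flipAdj u v x y A u x = !A u x := by simp [flipAdj]

theorem tau_alt {u v x y : V} (hd : Dist4 u v x y) {A : Om d} (hA : Alt u v x y A) :
    Alt u v x y (tau u v x y A) := by
  unfold Alt
  rw [tau_adj hd hA]
  obtain ⟨k1, k2, k3⟩ := hA
  have e1 : flipAdj u v x y A.adj u x = !A.adj u x := by simp [flipAdj]
  have e2 : flipAdj u v x y A.adj v y = !A.adj v y := by simp [flipAdj]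
  have e3 : flipAdj u v x y A.adj u y = !A.adj u y := by simp [flipAdj]
  have e4 : flipAdj u v x y A.adj v x = !A.adj v x := by simp [flipAdj]
  rw [e1, e2, e3, e4, k1, k2]
  rw [k1, k2] at k3
  refine ⟨rfl, rfl, ?_⟩
  intro h
  exact k3 (by simpa using h)

theorem tau_tau {u v x y : V} (hd : Dist4 u v x y) (A : Om d) :
    tau u v x y (tau u v x y A) = A := by
  by_cases hA : Alt u v x y A
  · apply Om.ext
    rw [tau_adj hd (tau_alt hd hA), tau_adj hd hA]
    funext a b
    unfold flipAdj
    split_ifs <;> simp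
  · rw [tau_not hA, tau_not hA]

theorem tau_prs {u v x y : V} (hd : Dist4 u v x y) (A : Om d) :
    prs u v x y A (tau u v x y A) := by
  by_cases hA : Alt u v x y A
  · have hadj := tau_adj hd hA
    obtain ⟨h1, h2, h3, h4, h5, h6⟩ := hd
    refine ⟨?_, ?_⟩
    · intro a b hab
      rw [hadj]
      unfold flipAdj
      rw [if_neg]
      rintro (⟨ha, hb⟩ | ⟨ha, hb⟩)
      · have := hab.1 ha
        rcases this with rfl | rfl <;> rcases hb with hb | hb
        exacts [h2 hb, h3 hb, h4 hb, h5 hb]
      · have := hab.2 hb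
        rcases this with rfl | rfl <;> rcases ha with ha | ha
        exacts [h2 ha, h3 ha, h4 ha, h5 ha]
    · right
      intro a
      rw [hadj]
      obtain ⟨k1, k2, k3⟩ := hA
      by_cases ha : a = u
      · subst ha
        rw [Equiv.swap_apply_left]
        have e1 : flipAdj a v x y A.adj a x = !A.adj a x := by simp [flipAdj]
        have e3 : flipAdj a v x y A.adj a y = !A.adj a y := by simp [flipAdj]
        rw [e1, e3]
        revert k1 k2 k3
        generalize A.adj a x = b1
        generalize A.adj a y = b2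
        generalize A.adj v x = b3
        generalize A.adj v y = b4
        revert b1 b2 b3 b4
        decide
      · by_cases ha' : a = v
        · subst ha'
          rw [Equiv.swap_apply_right]
          have e1 : flipAdj u a x y A.adj a x = !A.adj a x := by simp [flipAdj]
          have e3 : flipAdj u a x y A.adj a y = !A.adj a y := by simp [flipAdj]
          rw [e1, e3]
          revert k1 k2 k3
          generalize A.adj a x = b1
          generalize A.adj a y = b2
          generalize A.adj u x = b3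
          generalize A.adj u y = b4
          revert b1 b2 b3 b4
          decide
        · rw [Equiv.swap_apply_of_ne_of_ne ha ha']
          have hx : ¬ (x = u ∨ x = v) := by push Not; exact ⟨h2.symm, h4.symm⟩
          have hy : ¬ (y = u ∨ y = v) := by push Not; exact ⟨h3.symm, h5.symm⟩
          simp only [flipAdj, ha, ha', hx, hy, or_self, false_and, and_false, if_false, and_self]
  · rw [tau_not hA]
    exact (prs_equiv hd).refl A

theorem flipAdj_comm (u v x y : V) (A : V → V → Bool) :
    flipAdj u v x y A = flipAdj x y u v A := by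
  funext a b
  unfold flipAdj
  have : (((a = u ∨ a = v) ∧ (b = x ∨ b = y)) ∨ ((a = x ∨ a = y) ∧ (b = u ∨ b = v))) ↔
      (((a = x ∨ a = y) ∧ (b = u ∨ b = v)) ∨ ((a = u ∨ a = v) ∧ (b = x ∨ b = y))) := by tauto
  simp only [this]

theorem tau_comm {u v x y : V} (hd : Dist4 u v x y) (A : Om d) :
    tau u v x y A = tau x y u v A := by
  by_cases hA : Alt u v x y A
  · apply Om.ext
    rw [tau_adj hd hA, tau_adj (dist4_symm hd) (alt_symm'.1 hA), flipAdj_comm]
  · rw [tau_not hA, tau_not (fun h => hA (alt_symm'.2 h))]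

theorem tau_prs' {u v x y : V} (hd : Dist4 u v x y) (A : Om d) :
    prs x y u v A (tau u v x y A) := by
  rw [tau_comm hd]
  exact tau_prs (dist4_symm hd) A

/-- the switch is measure preserving -/
theorem sum_tau {u v x y : V} (hd : Dist4 u v x y) (f : Om d → ℝ) :
    ∑ A, f (tau u v x y A) = ∑ A, f A :=
  Equiv.sum_comp ⟨tau u v x y, tau u v x y, tau_tau hd, tau_tau hd⟩ f

/-- `Mq` is a contraction -/
theorem Mq_le {u v x y : V} (hd : Dist4 u v x y) (f : Om d → ℝ) :
    ip (Mq u v x y f) (Mq u v x y f) ≤ ip f f := by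
  have h1 : ip (Mq u v x y f) (Mq u v x y f) ≤
      ∑ A, (f A ^ 2 + f (tau u v x y A) ^ 2) / 2 := by
    unfold ip Mq
    refine sum_le_sum fun A _ => ?_
    nlinarith [sq_nonneg (f A + f (tau u v x y A))]
  refine h1.trans (le_of_eq ?_)
  rw [← sum_div, sum_add_distrib, sum_tau hd (fun A => f A ^ 2)]
  unfold ip
  have : ∑ A, f A * f A = ∑ A, f A ^ 2 := sum_congr rfl fun A _ => by ring
  rw [this]
  ring

/-! ### vanishing of the differences off the alternating set -/

theorem bool_two {a b c e : Bool} (h : a.toNat + b.toNat = c.toNat + e.toNat) (hab : a = b) :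
    c = a ∧ e = a := by
  revert a b c e; decide

theorem bool_two' {a b c e : Bool} (h : a.toNat + b.toNat = c.toNat + e.toNat) :
    (c = a ∧ e = b) ∨ (c = b ∧ e = a) := by
  revert a b c e; decide

theorem cls_eq_of_eq {u v x y : V} (hd : Dist4 u v x y) {A : Om d}
    (h : A.adj u x = A.adj v x ∨ A.adj u y = A.adj v y) :
    cls (prs u v x y) A = cls (pr u v) A := by
  obtain ⟨h1, h2, h3, h4, h5, h6⟩ := hd
  ext B
  rw [mem_cls, mem_cls]
  refine ⟨fun hB => hB.1, fun hB => ⟨hB, ?_⟩⟩
  -- columns sums at `x` and `y`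
  have hx := pr_colsum h1 hB h2.symm h4.symm
  have hy := pr_colsum h1 hB h3.symm h5.symm
  rw [A.symm x u, A.symm x v, B.symm x u, B.symm x v] at hx
  rw [A.symm y u, A.symm y v, B.symm y u, B.symm y v] at hy
  have hoff : ∀ a, a ≠ u → a ≠ v → B.adj a x = A.adj a x ∧ B.adj a y = A.adj a y := by
    intro a hu hv
    have ha : ¬ (a = u ∨ a = v) := by push Not; exact ⟨hu, hv⟩
    have hxx : ¬ (x = u ∨ x = v) := by push Not; exact ⟨h2.symm, h4.symm⟩
    have hyy : ¬ (y = u ∨ y = v) := by push Not; exact ⟨h3.symm, h5.symm⟩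
    exact ⟨(hB a x (by tauto)).symm, (hB a y (by tauto)).symm⟩
  -- reduce to the values at `u` and `v`
  have fin1 : (B.adj u x = A.adj u x ∧ B.adj u y = A.adj u y) ∧
      (B.adj v x = A.adj v x ∧ B.adj v y = A.adj v y) →
      ∀ a, B.adj a x = A.adj a x ∧ B.adj a y = A.adj a y := by
    rintro ⟨hu, hv⟩ a
    by_cases ha : a = u
    · rw [ha]; exact hu
    · by_cases ha' : a = v
      · rw [ha']; exact hv
      · exact hoff a ha ha'
  have fin2 : (B.adj u x = A.adj v x ∧ B.adj u y = A.adj v y) ∧
      (B.adj v x = A.adj u x ∧ B.adj v y = A.adj u y) →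
      ∀ a, B.adj a x = A.adj (Equiv.swap u v a) x ∧ B.adj a y = A.adj (Equiv.swap u v a) y := by
    rintro ⟨hu, hv⟩ a
    by_cases ha : a = u
    · rw [ha, Equiv.swap_apply_left]; exact hu
    · by_cases ha' : a = v
      · rw [ha', Equiv.swap_apply_right]; exact hv
      · rw [Equiv.swap_apply_of_ne_of_ne ha ha']
        exact hoff a ha ha'
  rcases h with h | h
  · obtain ⟨e1, e2⟩ := bool_two hx h
    rcases bool_two' hy with ⟨e3, e4⟩ | ⟨e3, e4⟩
    · left; exact fin1 ⟨⟨e1, e3⟩, ⟨e2.trans h, e4⟩⟩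
    · right; exact fin2 ⟨⟨e1.trans h, e3⟩, ⟨e2, e4⟩⟩
  · obtain ⟨e1, e2⟩ := bool_two hy h
    rcases bool_two' hx with ⟨e3, e4⟩ | ⟨e3, e4⟩
    · left; exact fin1 ⟨⟨e3, e1⟩, ⟨e4, e2.trans h⟩⟩
    · right; exact fin2 ⟨⟨e3, e1.trans h⟩, ⟨e4, e2⟩⟩

theorem Kq_eq_zero {u v x y : V} (hd : Dist4 u v x y) (f : Om d → ℝ) {A : Om d}
    (h : A.adj u x = A.adj v x ∨ A.adj u y = A.adj v y) : Kq u v x y f A = 0 := by
  unfold Kq avg
  rw [cls_eq_of_eq hd h, sub_self]

theorem Kq_mul_eq_zero {u v x y : V} (hd : Dist4 u v x y) (f : Om d → ℝ) {A : Om d}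
    (h : ¬ Alt u v x y A) : Kq u v x y f A * Kq x y u v f A = 0 := by
  by_cases h1 : A.adj u x = A.adj v x ∨ A.adj u y = A.adj v y
  · rw [Kq_eq_zero hd f h1, zero_mul]
  by_cases h2 : A.adj x u = A.adj y u ∨ A.adj x v = A.adj y v
  · rw [Kq_eq_zero (dist4_symm hd) f h2, mul_zero]
  exfalso
  apply h
  rw [A.symm x u, A.symm y u, A.symm x v, A.symm y v] at h2
  unfold Alt
  revert h1 h2
  generalize A.adj u x = b1
  generalize A.adj u y = b2
  generalize A.adj v x = b3
  generalize A.adj v y = b4
  revert b1 b2 b3 b4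
  decide

/-! ### the main inequality -/

theorem disjoint_pairs {u v x y : V} (h : Dist4 u v x y) (f : Om d → ℝ) :
    ip (Mq u v x y f) (Mq u v x y f)
      - (1 / 2) * ∑ A ∈ univ.filter (fun A => Alt u v x y A), Kq u v x y f A ^ 2
      - (1 / 2) * ∑ A ∈ univ.filter (fun A => Alt u v x y A), Kq x y u v f A ^ 2
    ≤ ip (Lp u v f) (Lp x y f) := by
  have h' := dist4_symm h
  have hp : Equivalence (pr u v : Om d → Om d → Prop) := pr_equiv u v
  have hq : Equivalence (pr x y : Om d → Om d → Prop) := pr_equiv x y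
  have hps : Equivalence (prs u v x y : Om d → Om d → Prop) := prs_equiv h
  have hqs : Equivalence (prs x y u v : Om d → Om d → Prop) := prs_equiv h'
  -- the two commuting families
  have c1 : ∀ g : Om d → ℝ, avg (pr u v) (avg (prs x y u v) g) =
      avg (prs x y u v) (avg (pr u v) g) := comm_pr_prs h
  have c2 : ∀ g : Om d → ℝ, avg (prs u v x y) (avg (prs x y u v) g) =
      avg (prs x y u v) (avg (prs u v x y) g) := comm_prs_prs h
  have c3 : ∀ g : Om d → ℝ, avg (pr x y) (avg (prs u v x y) g) =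
      avg (prs u v x y) (avg (pr x y) g) := comm_pr_prs h'
  -- decomposition
  set Ls : Om d → ℝ := f - avg (prs u v x y) f with hLs
  set Ms : Om d → ℝ := f - avg (prs x y u v) f with hMs
  set Kp : Om d → ℝ := Kq u v x y f with hKp
  set Kr : Om d → ℝ := Kq x y u v f with hKr
  have eKp : Kp = avg (prs u v x y) f - avg (pr u v) f := rfl
  have eKr : Kr = avg (prs x y u v) f - avg (pr x y) f := rfl
  have e1 : Lp u v f = Ls + Kp := by
    rw [eKp, hLs]; funext A; simp [Lp]
  have e2 : Lp x y f = Ms + Kr := by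
    rw [eKr, hMs]; funext A; simp [Lp]
  -- helper facts on nested averages
  have n1 : ∀ g : Om d → ℝ, avg (prs u v x y) (avg (pr u v) g) = avg (pr u v) g :=
    fun g => avg_avg_of_le hp hps (fun _ _ h => h.1) g
  have n2 : ∀ g : Om d → ℝ, avg (pr u v) (avg (prs u v x y) g) = avg (pr u v) g :=
    fun g => avg_avg_of_le' hp hps (fun _ _ h => h.1) g
  have n3 : ∀ g : Om d → ℝ, avg (prs x y u v) (avg (pr x y) g) = avg (pr x y) g :=
    fun g => avg_avg_of_le hq hqs (fun _ _ h => h.1) g
  have n4 : ∀ g : Om d → ℝ, avg (pr x y) (avg (prs x y u v) g) = avg (pr x y) g :=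
    fun g => avg_avg_of_le' hq hqs (fun _ _ h => h.1) g
  have i1 : ∀ g : Om d → ℝ, avg (prs u v x y) (avg (prs u v x y) g) = avg (prs u v x y) g :=
    avg_idem hps
  have i2 : ∀ g : Om d → ℝ, avg (pr u v) (avg (pr u v) g) = avg (pr u v) g := avg_idem hp
  have i3 : ∀ g : Om d → ℝ, avg (prs x y u v) (avg (prs x y u v) g) = avg (prs x y u v) g :=
    avg_idem hqs
  have i4 : ∀ g : Om d → ℝ, avg (pr x y) (avg (pr x y) g) = avg (pr x y) g := avg_idem hq
  -- second term: `ip Kp Ms ≥ 0`
  have t2 : 0 ≤ ip Kp Ms := by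
    -- `Kp - avg q# Kp`
    have hW : ip Kp Ms = ip (Kp - avg (prs x y u v) Kp) (Kp - avg (prs x y u v) Kp) := by
      -- `ip Kp Ms = ip Kp (K (Ms))` with `K = avg p# - avg p`
      have a1 : Kp = avg (prs u v x y) Kp - avg (pr u v) Kp := by
        rw [eKp, avg_sub, avg_sub, i1, n1, n2, i2]; abel
      have a2 : ip Kp Ms = ip Kp (avg (prs u v x y) Ms - avg (pr u v) Ms) := by
        conv_lhs => rw [a1]
        rw [ip_sub_left, ip_avg hps, ip_avg hp, ip_sub_right]
      have a3 : avg (prs u v x y) Ms - avg (pr u v) Ms = Kp - avg (prs x y u v) Kp := by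
        rw [hMs, eKp, avg_sub, avg_sub, avg_sub, c2, c1]; abel
      rw [a2, a3]
      have a4 : ip (avg (prs x y u v) Kp) (Kp - avg (prs x y u v) Kp) = 0 := by
        rw [ip_avg hqs, avg_sub, i3, sub_self]
        unfold ip; simp
      rw [ip_sub_left, a4, sub_zero]
    rw [hW]
    exact ip_self_nonneg _
  -- third term: `ip Ls Kr ≥ 0`
  have t3 : 0 ≤ ip Ls Kr := by
    have hW : ip Ls Kr = ip (Kr - avg (prs u v x y) Kr) (Kr - avg (prs u v x y) Kr) := by
      have a1 : Kr = avg (prs x y u v) Kr - avg (pr x y) Kr := by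
        rw [eKr, avg_sub, avg_sub, i3, n3, n4, i4]; abel
      have a2 : ip Ls Kr = ip (avg (prs x y u v) Ls - avg (pr x y) Ls) Kr := by
        conv_lhs => rw [a1]
        rw [ip_sub_right, ← ip_avg hqs, ← ip_avg hq, ip_sub_left]
      have a3 : avg (prs x y u v) Ls - avg (pr x y) Ls = Kr - avg (prs u v x y) Kr := by
        rw [hLs, eKr, avg_sub, avg_sub, avg_sub, ← c2, c3]; abel
      rw [a2, a3]
      have a4 : ip (Kr - avg (prs u v x y) Kr) (avg (prs u v x y) Kr) = 0 := by
        rw [← ip_avg hps, avg_sub, i1, sub_self]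
        unfold ip; simp
      rw [ip_sub_right, a4, sub_zero]
    rw [hW]
    exact ip_self_nonneg _
  -- first term
  have t1 : ip (Mq u v x y f) (Mq u v x y f) ≤ ip Ls Ms := by
    set W : Om d → ℝ := Ms - avg (prs u v x y) Ms with hWdef
    have hW : ip Ls Ms = ip W W := by
      have b1 : avg (prs u v x y) Ls = 0 := by rw [hLs, avg_sub, i1, sub_self]
      have b2 : avg (prs x y u v) Ms = 0 := by rw [hMs, avg_sub, i3, sub_self]
      have b3 : W = Ls - avg (prs x y u v) Ls := by
        rw [hWdef, hLs, hMs, avg_sub, avg_sub, c2]; abel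
      have b40 : ip Ls (avg (prs u v x y) Ms) = 0 := by
        rw [← ip_avg hps, b1]
        unfold ip; simp
      have b4 : ip Ls Ms = ip Ls W := by
        have b41 : ip Ls W = ip Ls Ms - ip Ls (avg (prs u v x y) Ms) :=
          ip_sub_right Ls Ms (avg (prs u v x y) Ms)
        rw [b41, b40, sub_zero]
      have b5 : ip W W = ip Ls W := by
        conv_lhs => rw [b3]
        rw [ip_sub_left, ip_avg hqs]
        have : avg (prs x y u v) W = 0 := by
          rw [hWdef, avg_sub, ← c2, b2]
          have : avg (prs u v x y) (0 : Om d → ℝ) = 0 := by funext A; simp [avg]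
          rw [this, sub_self]
        have b6 : ip Ls (avg (prs x y u v) (Ls - avg (prs x y u v) Ls)) = 0 := by
          rw [← b3, this]; unfold ip; simp
        rw [b6, sub_zero, ← b3]
      rw [b4, b5]
    rw [hW]
    have hM : Mq u v x y f = Mq u v x y W := by
      have inv1 : ∀ (g : Om d → ℝ) A, avg (prs u v x y) g (tau u v x y A) =
          avg (prs u v x y) g A := fun g A => (avg_congr hps g (tau_prs h A)).symm
      have inv2 : ∀ (g : Om d → ℝ) A, avg (prs x y u v) g (tau u v x y A) =
          avg (prs x y u v) g A := fun g A => (avg_congr hqs g (tau_prs' h A)).symm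
      funext A
      simp only [Mq, hWdef, hMs, Pi.sub_apply, inv1, inv2]
      ring
    rw [hM]
    exact Mq_le h W
  -- fourth term
  have t4 : - (1 / 2) * ∑ A ∈ univ.filter (fun A => Alt u v x y A), Kp A ^ 2
      - (1 / 2) * ∑ A ∈ univ.filter (fun A => Alt u v x y A), Kr A ^ 2 ≤ ip Kp Kr := by
    have : ip Kp Kr = ∑ A ∈ univ.filter (fun A => Alt u v x y A), Kp A * Kr A := by
      unfold ip
      rw [sum_filter]
      refine sum_congr rfl fun A _ => ?_
      split_ifs with hA
      · rfl
      · exact Kq_mul_eq_zero h f hA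
    rw [this, mul_sum, mul_sum, ← sum_sub_distrib]
    refine sum_le_sum fun A _ => ?_
    nlinarith [sq_nonneg (Kp A + Kr A)]
  rw [e1, e2, ip_add_left, ip_add_right, ip_add_right]
  linarith

end Disj

end Vale.Agent.KTV
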