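import Vale.Agent.KTV.Avg

open Finset
open scoped Classical

namespace Vale.Agent.KTV

section Johnson1
variable {α : Type*}

theorem mem_sws {a b z : α} {U : Finset α} : z ∈ sws a b U ↔ Equiv.swap a b z ∈ U := by
  unfold sws
  rw [mem_image]
  constructor
  · rintro ⟨w, hw, rfl⟩; rwa [Equiv.swap_apply_self]
  · intro h; exact ⟨_, h, Equiv.swap_apply_self _ _ _⟩

theorem sws_comm (a b : α) (U : Finset α) : sws a b U = sws b a U := by
  unfold sws; rw [Equiv.swap_comm]

theorem sws_self_inv (a b : α) (U : Finset α) : sws a b (sws a b U) = U := by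
  ext z; rw [mem_sws, mem_sws, Equiv.swap_apply_self]

theorem sws_fix {a b : α} {U : Finset α} (h : a ∈ U ↔ b ∈ U) : sws a b U = U := by
  ext z; rw [mem_sws]
  by_cases h1 : z = a
  · subst h1; rw [Equiv.swap_apply_left]; exact h.symm
  by_cases h2 : z = b
  · subst h2; rw [Equiv.swap_apply_right]; exact h
  rw [Equiv.swap_apply_of_ne_of_ne h1 h2]

theorem sws_card (a b : α) (U : Finset α) : (sws a b U).card = U.card := by
  unfold sws; exact card_image_of_injective _ (Equiv.injective _)

theorem sws_subset {a b : α} {U P : Finset α} (ha : a ∈ P) (hb : b ∈ P) (hU : U ⊆ P) :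
    sws a b U ⊆ P := by
  intro z hz
  rw [mem_sws] at hz
  by_cases h1 : z = a
  · subst h1; exact ha
  by_cases h2 : z = b
  · subst h2; exact hb
  rw [Equiv.swap_apply_of_ne_of_ne h1 h2] at hz
  exact hU hz

/-- conjugation: `σ τ = τ' σ` -/
theorem sws_conj (a b x y : α) (U : Finset α) :
    sws a b (sws x y U) = sws (Equiv.swap a b x) (Equiv.swap a b y) (sws a b U) := by
  ext z
  rw [mem_sws, mem_sws, mem_sws, mem_sws]
  have : Equiv.swap x y (Equiv.swap a b z) =
      Equiv.swap a b (Equiv.swap (Equiv.swap a b x) (Equiv.swap a b y) z) := by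
    have h := Equiv.swap_apply_apply (Equiv.swap a b) x y
    rw [h]
    simp only [Equiv.Perm.mul_apply, Equiv.swap_inv, Equiv.swap_apply_self]
  rw [this]

/-- the `s`-subsets of `P` as a finite type -/
abbrev XJ (P : Finset α) (s : ℕ) := {U : Finset α // U ∈ P.powersetCard s}

/-- the transposition acting on `XJ` -/
noncomputable def sX (P : Finset α) (s : ℕ) (a b : α) (U : XJ P s) : XJ P s :=
  if h : a ∈ P ∧ b ∈ P then
    ⟨sws a b U.1, mem_powersetCard.2 ⟨sws_subset h.1 h.2 (mem_powersetCard.1 U.2).1, by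
      rw [sws_card, (mem_powersetCard.1 U.2).2]⟩⟩
  else U

variable {P : Finset α} {s : ℕ}

theorem sX_val {a b : α} (ha : a ∈ P) (hb : b ∈ P) (U : XJ P s) :
    (sX P s a b U).1 = sws a b U.1 := by
  unfold sX; rw [dif_pos ⟨ha, hb⟩]

theorem sX_inv (a b : α) (U : XJ P s) : sX P s a b (sX P s a b U) = U := by
  by_cases h : a ∈ P ∧ b ∈ P
  · apply Subtype.ext
    rw [sX_val h.1 h.2, sX_val h.1 h.2, sws_self_inv]
  · unfold sX; rw [dif_neg h, dif_neg h]

/-- the transposition as a permutation of `XJ` -/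
noncomputable def sXe (P : Finset α) (s : ℕ) (a b : α) : Equiv.Perm (XJ P s) where
  toFun := sX P s a b
  invFun := sX P s a b
  left_inv := sX_inv a b
  right_inv := sX_inv a b

theorem sum_sX (a b : α) (F : XJ P s → ℝ) : ∑ U, F (sX P s a b U) = ∑ U, F U :=
  Equiv.sum_comp (sXe P s a b) F

/-- the Laplacian of the Johnson graph -/
noncomputable def lapJ (P : Finset α) (s : ℕ) : (XJ P s → ℝ) →ₗ[ℝ] (XJ P s → ℝ) where
  toFun v := fun U => (1 / 4) * ∑ a ∈ P, ∑ b ∈ P, (v U - v (sX P s a b U))
  map_add' f g := by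
    funext U
    simp only [Pi.add_apply, ← mul_add, ← sum_add_distrib]
    congr 1
    refine sum_congr rfl fun a _ => sum_congr rfl fun b _ => ?_
    ring
  map_smul' c f := by
    funext U
    simp only [Pi.smul_apply, smul_eq_mul, RingHom.id_apply, mul_sum]
    refine sum_congr rfl fun a _ => sum_congr rfl fun b _ => ?_
    ring

theorem lapJ_apply (v : XJ P s → ℝ) (U : XJ P s) :
    lapJ P s v U = (1 / 4) * ∑ a ∈ P, ∑ b ∈ P, (v U - v (sX P s a b U)) := rfl

theorem pair_form (a b : α) (f g : XJ P s → ℝ) :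
    ∑ U, (f U - f (sX P s a b U)) * g U
      = (1 / 2) * ∑ U, (f U - f (sX P s a b U)) * (g U - g (sX P s a b U)) := by
  have h := sum_sX a b (fun U => (f U - f (sX P s a b U)) * g U)
  simp only [sX_inv] at h
  have h2 : ∑ U, (f U - f (sX P s a b U)) * (g U - g (sX P s a b U))
      = ∑ U, (f U - f (sX P s a b U)) * g U
        + ∑ U, (f (sX P s a b U) - f U) * g (sX P s a b U) := by
    rw [← sum_add_distrib]
    refine sum_congr rfl fun U _ => ?_
    ring
  rw [h2, h]; ring

theorem ip_lapJ (f g : XJ P s → ℝ) :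
    ip (lapJ P s f) g = (1 / 8) * ∑ a ∈ P, ∑ b ∈ P, ∑ U,
      (f U - f (sX P s a b U)) * (g U - g (sX P s a b U)) := by
  unfold ip
  have h1 : ∀ U, lapJ P s f U * g U
      = (1 / 4) * ∑ a ∈ P, ∑ b ∈ P, (f U - f (sX P s a b U)) * g U := by
    intro U
    rw [lapJ_apply, mul_assoc, sum_mul]
    congr 1
    refine sum_congr rfl fun a _ => ?_
    rw [sum_mul]
  simp only [h1]
  rw [← mul_sum, sum_comm]
  have h2 : ∑ a ∈ P, ∑ U, ∑ b ∈ P, (f U - f (sX P s a b U)) * g U
      = ∑ a ∈ P, ∑ b ∈ P, (1 / 2) * ∑ U,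
        (f U - f (sX P s a b U)) * (g U - g (sX P s a b U)) := by
    refine sum_congr rfl fun a _ => ?_
    rw [sum_comm]
    exact sum_congr rfl fun b _ => pair_form a b f g
  rw [h2]
  simp only [← mul_sum]
  ring

theorem lapJ_symm (f g : XJ P s → ℝ) : ip (lapJ P s f) g = ip f (lapJ P s g) := by
  rw [ip_comm f, ip_lapJ, ip_lapJ]
  congr 1
  refine sum_congr rfl fun a _ => sum_congr rfl fun b _ => sum_congr rfl fun U _ => ?_
  ring

/-- connectivity -/
theorem const_of_inv {v : XJ P s → ℝ} (h : ∀ a ∈ P, ∀ b ∈ P, ∀ U, v U = v (sX P s a b U)) :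
    ∀ U W : XJ P s, v U = v W := by
  have main : ∀ (n : ℕ) (U W : XJ P s), (U.1 \ W.1).card = n → v U = v W := by
    intro n
    induction n with
    | zero =>
      intro U W hn
      rw [card_eq_zero, sdiff_eq_empty_iff_subset] at hn
      have : U.1 = W.1 := eq_of_subset_of_card_le hn (by
        rw [(mem_powersetCard.1 U.2).2, (mem_powersetCard.1 W.2).2])
      rw [Subtype.ext this]
    | succ n ih =>
      intro U W hn
      have hUc := (mem_powersetCard.1 U.2).2
      have hWc := (mem_powersetCard.1 W.2).2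
      obtain ⟨x, hx⟩ : (U.1 \ W.1).Nonempty := by rw [← card_pos]; omega
      have hc : (W.1 \ U.1).card = n + 1 := by
        rw [← hn]; exact card_sdiff_comm (by rw [hUc, hWc])
      obtain ⟨y, hy⟩ : (W.1 \ U.1).Nonempty := by rw [← card_pos]; omega
      rw [mem_sdiff] at hx hy
      have hxP := (mem_powersetCard.1 U.2).1 hx.1
      have hyP := (mem_powersetCard.1 W.2).1 hy.1
      rw [h x hxP y hyP U]
      apply ih
      rw [sX_val hxP hyP]
      have : sws x y U.1 \ W.1 = (U.1 \ W.1).erase x := by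
        ext z
        simp only [mem_sdiff, mem_erase, mem_sws]
        by_cases h1 : z = x
        · subst h1
          rw [Equiv.swap_apply_left]
          simp [hy.2]
        by_cases h2 : z = y
        · subst h2
          rw [Equiv.swap_apply_right]
          simp [hy.1]
        rw [Equiv.swap_apply_of_ne_of_ne h1 h2]
        simp [h1]
      rw [this, card_erase_of_mem (mem_sdiff.2 hx), hn]; rfl
  exact fun U W => main _ U W rfl

theorem eig_ge {v : XJ P s → ℝ} {μ : ℝ} (hv : lapJ P s v = μ • v)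
    (hnc : ¬ ∀ U W : XJ P s, v U = v W) : (P.card : ℝ) / 2 ≤ μ := by
  -- the maximal difference
  have hne : (univ ×ˢ (P ×ˢ P) : Finset (XJ P s × α × α)).Nonempty := by
    by_contra hemp
    rw [not_nonempty_iff_eq_empty] at hemp
    apply hnc
    apply const_of_inv
    intro a ha b hb U
    have : ((U, a, b) : XJ P s × α × α) ∈ (univ ×ˢ (P ×ˢ P) : Finset (XJ P s × α × α)) := by
      simp [ha, hb]
    rw [hemp] at this
    exact absurd this (notMem_empty _)
  obtain ⟨⟨U, x, y⟩, hmem, hmax⟩ := Finset.exists_max_image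
    (univ ×ˢ (P ×ˢ P) : Finset (XJ P s × α × α))
    (fun p => v p.1 - v (sX P s p.2.1 p.2.2 p.1)) hne
  simp only [mem_product, mem_univ, true_and] at hmem
  obtain ⟨hx, hy⟩ := hmem
  have hmax' : ∀ (W : XJ P s) (a b : α), a ∈ P → b ∈ P →
      v W - v (sX P s a b W) ≤ v U - v (sX P s x y U) := by
    intro W a b ha hb
    exact hmax (W, a, b) (by simp [ha, hb])
  clear hmax hne
  set m := v U - v (sX P s x y U) with hm
  have hmpos : 0 < m := by
    by_contra hle
    push Not at hle
    apply hnc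
    apply const_of_inv
    intro a ha b hb W
    have h1 := hmax' W a b ha hb
    have h2 := hmax' (sX P s a b W) a b ha hb
    rw [sX_inv] at h2
    linarith
  -- arrange x ∈ U, y ∉ U
  have hxy : ¬ (x ∈ U.1 ↔ y ∈ U.1) := by
    intro h
    have : sX P s x y U = U := Subtype.ext (by rw [sX_val hx hy, sws_fix h])
    rw [this, sub_self] at hm
    linarith
  obtain ⟨x, y, hx, hy, hxU, hyU, hm⟩ : ∃ x y, x ∈ P ∧ y ∈ P ∧ x ∈ U.1 ∧ y ∉ U.1 ∧
      m = v U - v (sX P s x y U) := by
    by_cases h : x ∈ U.1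
    · exact ⟨x, y, hx, hy, h, fun h' => hxy ⟨fun _ => h', fun _ => h⟩, hm⟩
    · refine ⟨y, x, hy, hx, ?_, h, ?_⟩
      · by_contra h'
        exact hxy ⟨fun h'' => absurd h'' h, fun h'' => absurd h'' h'⟩
      · rw [hm]
        have : sX P s x y U = sX P s y x U := Subtype.ext (by
          rw [sX_val hx hy, sX_val hy hx, sws_comm])
        rw [this]
  clear_value m
  have hne : x ≠ y := by rintro rfl; exact hyU hxU
  set U' := sX P s x y U with hU'
  -- the terms
  let T : α → α → ℝ := fun a b => m - (v (sX P s a b U) - v (sX P s a b U'))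
  have hT0 : ∀ a ∈ P, ∀ b ∈ P, 0 ≤ T a b := by
    intro a ha b hb
    have hsw : ∀ z ∈ P, Equiv.swap a b z ∈ P := by
      intro z hz
      by_cases h1 : z = a
      · subst h1; rwa [Equiv.swap_apply_left]
      by_cases h2 : z = b
      · subst h2; rwa [Equiv.swap_apply_right]
      rwa [Equiv.swap_apply_of_ne_of_ne h1 h2]
    have h := hmax' (sX P s a b U) (Equiv.swap a b x) (Equiv.swap a b y) (hsw x hx) (hsw y hy)
    have h2 : sX P s (Equiv.swap a b x) (Equiv.swap a b y) (sX P s a b U) = sX P s a b U' := by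
      apply Subtype.ext
      rw [sX_val (hsw x hx) (hsw y hy), sX_val ha hb, sX_val ha hb, hU', sX_val hx hy]
      exact (sws_conj a b x y U.1).symm
    rw [h2] at h
    show 0 ≤ m - (v (sX P s a b U) - v (sX P s a b U'))
    linarith
  have hTxy : T x y = 2 * m := by
    show m - (v (sX P s x y U) - v (sX P s x y U')) = 2 * m
    rw [hU', sX_inv, ← hU']; linarith
  have hTyx : T y x = 2 * m := by
    have e1 : ∀ W : XJ P s, sX P s y x W = sX P s x y W := fun W => Subtype.ext (by
      rw [sX_val hx hy, sX_val hy hx, sws_comm])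
    show m - (v (sX P s y x U) - v (sX P s y x U')) = 2 * m
    rw [e1, e1, hU', sX_inv, ← hU']; linarith
  have hTb : ∀ b ∈ P, b ≠ x → b ≠ y → T x b + T y b = m := by
    intro b hb hbx hby
    by_cases hbU : b ∈ U.1
    · have h1 : sX P s x b U = U := Subtype.ext (by
        rw [sX_val hx hb, sws_fix (by simp [hxU, hbU])])
      have h2 : sX P s y b U' = U' := Subtype.ext (by
        rw [sX_val hy hb, sws_fix]
        rw [hU', sX_val hx hy, mem_sws, mem_sws, Equiv.swap_apply_right,
          Equiv.swap_apply_of_ne_of_ne hbx hby]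
        simp [hxU, hbU])
      have h3 : sX P s x b U' = sX P s y b U := Subtype.ext (by
        rw [sX_val hx hb, sX_val hy hb, hU', sX_val hx hy]
        ext z
        simp only [mem_sws]
        by_cases z1 : z = x
        · subst z1
          rw [Equiv.swap_apply_left, Equiv.swap_apply_of_ne_of_ne hbx hby,
            Equiv.swap_apply_of_ne_of_ne hne hbx.symm]
          simp [hxU, hbU]
        by_cases z2 : z = y
        · subst z2
          rw [Equiv.swap_apply_of_ne_of_ne hne.symm hby.symm, Equiv.swap_apply_right,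
            Equiv.swap_apply_left]
          simp [hxU, hbU]
        by_cases z3 : z = b
        · subst z3
          rw [Equiv.swap_apply_right, Equiv.swap_apply_left, Equiv.swap_apply_right]
        rw [Equiv.swap_apply_of_ne_of_ne z1 z3, Equiv.swap_apply_of_ne_of_ne z1 z2,
          Equiv.swap_apply_of_ne_of_ne z2 z3])
      show (m - (v (sX P s x b U) - v (sX P s x b U')))
        + (m - (v (sX P s y b U) - v (sX P s y b U'))) = m
      rw [h1, h2, h3]; linarith
    · have h1 : sX P s y b U = U := Subtype.ext (by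
        rw [sX_val hy hb, sws_fix (by simp [hyU, hbU])])
      have h2 : sX P s x b U' = U' := Subtype.ext (by
        rw [sX_val hx hb, sws_fix]
        rw [hU', sX_val hx hy, mem_sws, mem_sws, Equiv.swap_apply_left,
          Equiv.swap_apply_of_ne_of_ne hbx hby]
        simp [hyU, hbU])
      have h3 : sX P s x b U = sX P s y b U' := Subtype.ext (by
        rw [sX_val hx hb, sX_val hy hb, hU', sX_val hx hy]
        ext z
        simp only [mem_sws]
        by_cases z1 : z = x
        · subst z1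
          rw [Equiv.swap_apply_left, Equiv.swap_apply_of_ne_of_ne hne hbx.symm,
            Equiv.swap_apply_left]
          simp [hyU, hbU]
        by_cases z2 : z = y
        · subst z2
          rw [Equiv.swap_apply_left, Equiv.swap_apply_of_ne_of_ne hbx hby,
            Equiv.swap_apply_of_ne_of_ne hne.symm hby.symm]
          simp [hyU, hbU]
        by_cases z3 : z = b
        · subst z3
          rw [Equiv.swap_apply_right, Equiv.swap_apply_right, Equiv.swap_apply_right]
        rw [Equiv.swap_apply_of_ne_of_ne z1 z3, Equiv.swap_apply_of_ne_of_ne z2 z3,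
          Equiv.swap_apply_of_ne_of_ne z1 z2])
      show (m - (v (sX P s x b U) - v (sX P s x b U')))
        + (m - (v (sX P s y b U) - v (sX P s y b U'))) = m
      rw [h1, h2, h3]; linarith
  have hTsymm : ∀ a ∈ P, ∀ b ∈ P, T a b = T b a := by
    intro a ha b hb
    have e1 : ∀ W : XJ P s, sX P s a b W = sX P s b a W := fun W => Subtype.ext (by
      rw [sX_val ha hb, sX_val hb ha, sws_comm])
    show m - (v (sX P s a b U) - v (sX P s a b U')) = m - (v (sX P s b a U) - v (sX P s b a U'))
    rw [e1, e1]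
  -- lower bound for the sum
  have hyE : y ∈ P.erase x := mem_erase.2 ⟨hne.symm, hy⟩
  set Q := (P.erase x).erase y with hQ
  have hQmem : ∀ b ∈ Q, b ∈ P ∧ b ≠ x ∧ b ≠ y := by
    intro b hb
    rw [hQ, mem_erase, mem_erase] at hb
    exact ⟨hb.2.2, hb.2.1, hb.1⟩
  have hsplit : ∀ F : α → ℝ, ∑ b ∈ P, F b = F x + (F y + ∑ b ∈ Q, F b) := by
    intro F
    rw [hQ, add_sum_erase _ F hyE, add_sum_erase _ F hx]
  have hQcard : (Q.card : ℝ) = (P.card : ℝ) - 2 := by
    have h1 : P.card = Q.card + 2 := by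
      rw [hQ, card_erase_of_mem hyE, card_erase_of_mem hx]
      have : 2 ≤ P.card := by
        have := card_pos.2 ⟨y, hyE⟩
        rw [card_erase_of_mem hx] at this
        omega
      omega
    rw [h1]; push_cast; ring
  have hTxx : 0 ≤ T x x := hT0 x hx x hx
  have hTyy : 0 ≤ T y y := hT0 y hy y hy
  have hsum : 2 * (P.card : ℝ) * m ≤ ∑ a ∈ P, ∑ b ∈ P, T a b := by
    rw [hsplit (fun a => ∑ b ∈ P, T a b)]
    have hA : ∑ b ∈ P, T x b + ∑ b ∈ P, T y b
        = (T x x + T y x) + ((T x y + T y y) + (Q.card : ℝ) * m) := by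
      rw [← sum_add_distrib, hsplit (fun b => T x b + T y b)]
      congr 2
      rw [sum_congr rfl (fun b hb => hTb b (hQmem b hb).1 (hQmem b hb).2.1 (hQmem b hb).2.2),
        sum_const, nsmul_eq_mul]
    have hB : (Q.card : ℝ) * m ≤ ∑ a ∈ Q, ∑ b ∈ P, T a b := by
      have : ∀ a ∈ Q, m ≤ ∑ b ∈ P, T a b := by
        intro a ha
        obtain ⟨haP, hax, hay⟩ := hQmem a ha
        rw [hsplit (fun b => T a b)]
        have h1 := hTb a haP hax hay
        rw [hTsymm a haP x hx, hTsymm a haP y hy]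
        have h2 : 0 ≤ ∑ b ∈ Q, T a b := sum_nonneg fun b hb => hT0 a haP b (hQmem b hb).1
        linarith
      calc (Q.card : ℝ) * m = ∑ _a ∈ Q, m := by rw [sum_const, nsmul_eq_mul]
        _ ≤ _ := sum_le_sum this
    have hA' : ∑ b ∈ P, T x b + (∑ b ∈ P, T y b + ∑ a ∈ Q, ∑ b ∈ P, T a b)
        = (∑ b ∈ P, T x b + ∑ b ∈ P, T y b) + ∑ a ∈ Q, ∑ b ∈ P, T a b := by ring
    rw [hA', hA, hTxy, hTyx]
    rw [hQcard] at hB ⊢
    nlinarith
  -- conclusion
  have e1 : lapJ P s v U - lapJ P s v U' = μ * m := by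
    rw [hv, hm]; simp only [Pi.smul_apply, smul_eq_mul]; ring
  have e2 : lapJ P s v U - lapJ P s v U' = (1 / 4) * ∑ a ∈ P, ∑ b ∈ P, T a b := by
    rw [lapJ_apply, lapJ_apply, ← mul_sub, ← sum_sub_distrib]
    congr 1
    refine sum_congr rfl fun a _ => ?_
    rw [← sum_sub_distrib]
    refine sum_congr rfl fun b _ => ?_
    show _ = m - (v (sX P s a b U) - v (sX P s a b U'))
    rw [hm]; ring
  have e3 : (P.card : ℝ) / 2 * m ≤ μ * m := by
    rw [← e1, e2]; linarith
  exact le_of_mul_le_mul_right e3 hmpos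

theorem johnson_poincare {α : Type*} (P : Finset α) (s : ℕ) (f : Finset α → ℝ)
    (h0 : ∑ U ∈ P.powersetCard s, f U = 0) :
    4 * (P.card : ℝ) * ∑ U ∈ P.powersetCard s, f U ^ 2 ≤
      ∑ x ∈ P, ∑ y ∈ P, ∑ U ∈ P.powersetCard s, (f U - f (sws x y U)) ^ 2 := by
  let g : XJ P s → ℝ := fun U => f U.1
  obtain ⟨e, μ, he1, he2, he3⟩ := spectral (lapJ P s) lapJ_symm
  obtain ⟨k1, k2, k3⟩ := spectral_forms (lapJ P s) he1 he2 he3 g
  have hg0 : ∑ U, g U = 0 := by
    rw [← h0, ← sum_coe_sort (P.powersetCard s) f]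
  have hmain : (P.card : ℝ) / 2 * ip g g ≤ ip g (lapJ P s g) := by
    rw [k1, k2, mul_sum]
    apply sum_le_sum
    intro i _
    by_cases hc : ∀ U W : XJ P s, e i U = e i W
    · have : ip (e i) g = 0 := by
        unfold ip
        have h2 : ∑ x, e i x * g x = ∑ x, e i i * g x :=
          sum_congr rfl fun x _ => by rw [hc x i]
        rw [h2, ← mul_sum, hg0, mul_zero]
      rw [this]; simp
    · exact mul_le_mul_of_nonneg_right (eig_ge (he1 i) hc) (sq_nonneg _)
  have e1 : ip g g = ∑ U ∈ P.powersetCard s, f U ^ 2 := by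
    unfold ip
    rw [← sum_coe_sort (P.powersetCard s) (fun U => f U ^ 2)]
    exact sum_congr rfl fun U _ => (sq (f U.1)).symm
  have e2 : ip g (lapJ P s g) = (1 / 8) * ∑ x ∈ P, ∑ y ∈ P, ∑ U ∈ P.powersetCard s,
      (f U - f (sws x y U)) ^ 2 := by
    rw [ip_comm, ip_lapJ]
    congr 1
    refine sum_congr rfl fun a ha => sum_congr rfl fun b hb => ?_
    rw [← sum_coe_sort (P.powersetCard s) (fun U => (f U - f (sws a b U)) ^ 2)]
    refine sum_congr rfl fun U _ => ?_
    show (f U.1 - f (sX P s a b U).1) * (f U.1 - f (sX P s a b U).1) = _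
    rw [sX_val ha hb, sq]
  rw [e1, e2] at hmain
  linarith

end Johnson1

end Vale.Agent.KTV
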