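import Vale.Agent.KTV.Avg

open Finset
open scoped Classical

namespace Vale.Agent.KTV

section JohnsonSep
variable {α : Type*}

/-- indicator of membership -/
noncomputable def jx (U : Finset α) (x : α) : ℝ := if x ∈ U then 1 else 0

/-- indicator of separation -/
noncomputable def jsg (U : Finset α) (x y : α) : ℝ := if ¬ (x ∈ U ↔ y ∈ U) then 1 else 0

theorem jsg_eq (U : Finset α) (x y : α) :
    jsg U x y = jx U x + jx U y - 2 * (jx U x * jx U y) := by
  unfold jsg jx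
  by_cases hx : x ∈ U <;> by_cases hy : y ∈ U <;> simp [hx, hy]; norm_num

theorem jsg_comm (U : Finset α) (x y : α) : jsg U x y = jsg U y x := by
  rw [jsg_eq, jsg_eq]; ring

theorem jsg_self (U : Finset α) (x : α) : jsg U x x = 0 := by
  simp [jsg]

theorem jsg_nonneg (U : Finset α) (x y : α) : 0 ≤ jsg U x y := by
  unfold jsg; split_ifs <;> norm_num

theorem jsg_le_one (U : Finset α) (x y : α) : jsg U x y ≤ 1 := by
  unfold jsg; split_ifs <;> norm_num

/-- `jsg U a b * jsg U a c = (jsg U a b + jsg U a c - jsg U b c) / 2` -/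
theorem jsg_mul (U : Finset α) (a b c : α) :
    jsg U a b * jsg U a c = (jsg U a b + jsg U a c - jsg U b c) / 2 := by
  unfold jsg
  by_cases ha : a ∈ U <;> by_cases hb : b ∈ U <;> by_cases hc : c ∈ U <;>
    simp [ha, hb, hc]

theorem count_AB (P A B : Finset α) (s : ℕ) (hA : A ⊆ P) (hB : B ⊆ P) (hAB : Disjoint A B) :
    ((P.powersetCard s).filter (fun U => A ⊆ U ∧ Disjoint B U)).card =
      if A.card ≤ s then (P.card - A.card - B.card).choose (s - A.card) else 0 := by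
  split_ifs with h
  · have h1 : (P.card - A.card - B.card).choose (s - A.card)
        = ((P \ (A ∪ B)).powersetCard (s - A.card)).card := by
      rw [card_powersetCard, card_sdiff_of_subset (union_subset hA hB),
        card_union_of_disjoint hAB, Nat.sub_sub]
    rw [h1]
    apply card_bij' (fun U _ => U \ A) (fun W _ => W ∪ A)
    · intro U hU
      simp only [mem_filter, mem_powersetCard] at hU
      obtain ⟨⟨hUP, hUs⟩, hAU, hBU⟩ := hU
      simp only [mem_powersetCard]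
      constructor
      · intro z hz
        simp only [mem_sdiff, mem_union] at hz ⊢
        refine ⟨hUP hz.1, ?_⟩
        rintro (h2 | h2)
        · exact hz.2 h2
        · exact (disjoint_left.1 hBU h2) hz.1
      · rw [card_sdiff_of_subset hAU, hUs]
    · intro W hW
      simp only [mem_powersetCard] at hW
      obtain ⟨hWP, hWs⟩ := hW
      have hWA : Disjoint W A := by
        rw [disjoint_left]; intro z hz hzA
        have := hWP hz
        simp only [mem_sdiff, mem_union] at this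
        exact this.2 (Or.inl hzA)
      simp only [mem_filter, mem_powersetCard]
      refine ⟨⟨?_, ?_⟩, subset_union_right, ?_⟩
      · intro z hz
        rcases mem_union.1 hz with h2 | h2
        · exact (mem_sdiff.1 (hWP h2)).1
        · exact hA h2
      · rw [card_union_of_disjoint hWA, hWs]; omega
      · rw [disjoint_left]; intro z hzB hz
        rcases mem_union.1 hz with h2 | h2
        · exact (mem_sdiff.1 (hWP h2)).2 (mem_union_right _ hzB)
        · exact (disjoint_left.1 hAB h2) hzB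
    · intro U hU
      simp only [mem_filter, mem_powersetCard] at hU
      exact sdiff_union_of_subset hU.2.1
    · intro W hW
      simp only [mem_powersetCard] at hW
      obtain ⟨hWP, hWs⟩ := hW
      ext z
      simp only [mem_sdiff, mem_union]
      constructor
      · rintro ⟨h2 | h2, h3⟩
        · exact h2
        · exact absurd h2 h3
      · intro hz
        refine ⟨Or.inl hz, fun h3 => ?_⟩
        exact (mem_sdiff.1 (hWP hz)).2 (mem_union_left _ h3)
  · rw [card_eq_zero, filter_eq_empty_iff]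
    intro U hU h2
    simp only [mem_powersetCard] at hU
    have := card_le_card h2.1
    omega

/-- number of `s`-subsets containing a given `i`-set and avoiding a given `j`-set -/
def jcnt (n s i j : ℕ) : ℕ := if i ≤ s then (n - i - j).choose (s - i) else 0

/-- the indicator of `A ⊆ U`, `B ∩ U = ∅` -/
noncomputable def jAB (A B U : Finset α) : ℝ := if A ⊆ U ∧ Disjoint B U then 1 else 0

theorem sum_jAB (P A B : Finset α) (s : ℕ) (hA : A ⊆ P) (hB : B ⊆ P) (hAB : Disjoint A B) :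
    ∑ U ∈ P.powersetCard s, jAB A B U = (jcnt P.card s A.card B.card : ℝ) := by
  unfold jAB
  rw [← sum_filter, sum_const, count_AB P A B s hA hB hAB]
  simp [jcnt]

theorem jsg_AB (U : Finset α) (a b : α) :
    jsg U a b = jAB {a} {b} U + jAB {b} {a} U := by
  unfold jsg jAB
  by_cases ha : a ∈ U <;> by_cases hb : b ∈ U <;> simp [ha, hb]

theorem jsg_ABCE (U : Finset α) (a b c e : α) :
    jsg U a b * jsg U c e = jAB {a, c} {b, e} U + jAB {a, e} {b, c} U + jAB {b, c} {a, e} U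
      + jAB {b, e} {a, c} U := by
  unfold jsg jAB
  by_cases ha : a ∈ U <;> by_cases hb : b ∈ U <;> by_cases hc : c ∈ U <;> by_cases he : e ∈ U <;>
    simp [ha, hb, hc, he, insert_subset_iff]

theorem sum_jsg (P : Finset α) (s : ℕ) {a b : α} (ha : a ∈ P) (hb : b ∈ P) (hab : a ≠ b) :
    ∑ U ∈ P.powersetCard s, jsg U a b = 2 * (jcnt P.card s 1 1 : ℝ) := by
  simp only [jsg_AB, sum_add_distrib]
  rw [sum_jAB P {a} {b} s (by simpa) (by simpa) (by simpa),
    sum_jAB P {b} {a} s (by simpa) (by simpa) (by simpa using hab.symm)]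
  simp only [card_singleton]; ring

theorem sum_jsg4 (P : Finset α) (s : ℕ) {a b c e : α} (ha : a ∈ P) (hb : b ∈ P) (hc : c ∈ P)
    (he : e ∈ P) (hab : a ≠ b) (hac : a ≠ c) (hae : a ≠ e) (hbc : b ≠ c) (hbe : b ≠ e)
    (hce : c ≠ e) :
    ∑ U ∈ P.powersetCard s, jsg U a b * jsg U c e = 4 * (jcnt P.card s 2 2 : ℝ) := by
  simp only [jsg_ABCE, sum_add_distrib]
  rw [sum_jAB P {a, c} {b, e} s, sum_jAB P {a, e} {b, c} s, sum_jAB P {b, c} {a, e} s,
    sum_jAB P {b, e} {a, c} s]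
  · rw [card_pair hac, card_pair hbe, card_pair hae, card_pair hbc]; ring
  all_goals simp_all [insert_subset_iff, eq_comm]

/-- the four-index formula -/
theorem sum_jsg_formula (P : Finset α) (s : ℕ) (D m4 : ℝ)
    (hD : ∀ a ∈ P, ∀ b ∈ P, a ≠ b → ∑ U ∈ P.powersetCard s, jsg U a b = D)
    (hm : ∀ a ∈ P, ∀ b ∈ P, ∀ c ∈ P, ∀ e ∈ P, a ≠ b → a ≠ c → a ≠ e → b ≠ c → b ≠ e → c ≠ e →
      ∑ U ∈ P.powersetCard s, jsg U a b * jsg U c e = m4)
    {a b c e : α} (ha : a ∈ P) (hb : b ∈ P) (hc : c ∈ P) (he : e ∈ P) (hab : a ≠ b)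
    (hce : c ≠ e) :
    ∑ U ∈ P.powersetCard s, jsg U a b * jsg U c e =
      m4 + (D / 2 - m4) * ((if a = c then 1 else 0) + (if a = e then 1 else 0)
        + (if b = c then 1 else 0) + (if b = e then 1 else 0))
      + m4 * ((if a = c ∧ b = e then 1 else 0) + (if a = e ∧ b = c then 1 else 0)) := by
  have key : ∀ a b c : α, a ∈ P → b ∈ P → c ∈ P → a ≠ b → a ≠ c → b ≠ c →
      ∑ U ∈ P.powersetCard s, jsg U a b * jsg U a c = D / 2 := by
    intro a b c ha hb hc hab hac hbc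
    simp only [jsg_mul]
    rw [← sum_div, sum_sub_distrib, sum_add_distrib, hD a ha b hb hab, hD a ha c hc hac,
      hD b hb c hc hbc]
    ring
  have hsq : ∀ a b : α, a ∈ P → b ∈ P → a ≠ b →
      ∑ U ∈ P.powersetCard s, jsg U a b * jsg U a b = D := by
    intro a b ha hb hab
    rw [← hD a ha b hb hab]
    refine sum_congr rfl (fun U _ => ?_)
    unfold jsg; split_ifs <;> norm_num
  by_cases h1 : a = c
  · subst h1
    have h3 : b ≠ a := hab.symm
    have h4 : ¬ a = e := hce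
    by_cases h2 : b = e
    · subst h2
      rw [hsq a b ha hb hab]
      simp [hab, h3]; ring
    · rw [key a b e ha hb he hab hce h2]
      simp [h2, h3, h4]
  · by_cases h2 : a = e
    · subst h2
      have e1 : ∀ U ∈ P.powersetCard s, jsg U a b * jsg U c a = jsg U a b * jsg U a c :=
        fun U _ => by rw [jsg_comm U c a]
      rw [sum_congr rfl e1]
      have h3 : ¬ b = a := fun h => hab h.symm
      by_cases h4 : b = c
      · subst h4
        rw [hsq a b ha hb hab]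
        simp [hab, h3]; ring
      · rw [key a b c ha hb hc hab h1 h4]
        simp [h1, h3, h4]
    · by_cases h3 : b = c
      · subst h3
        have e1 : ∀ U ∈ P.powersetCard s, jsg U a b * jsg U b e = jsg U b a * jsg U b e :=
          fun U _ => by rw [jsg_comm U a b]
        rw [sum_congr rfl e1, key b a e hb ha he hab.symm hce h2]
        simp [h1, h2, hce]
      · by_cases h4 : b = e
        · subst h4
          have e1 : ∀ U ∈ P.powersetCard s, jsg U a b * jsg U c b = jsg U b a * jsg U b c :=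
            fun U _ => by rw [jsg_comm U a b, jsg_comm U c b]
          rw [sum_congr rfl e1, key b a c hb ha hc hab.symm h3 h1]
          simp [h1, h2, h3]
        · rw [hm a ha b hb c hc e he hab h1 h2 h3 h4 hce]
          simp [h1, h2, h3, h4]

/-- the main quadratic form inequality -/
theorem jform (P : Finset α) (s : ℕ) (D m4 : ℝ)
    (hD : ∀ a ∈ P, ∀ b ∈ P, a ≠ b → ∑ U ∈ P.powersetCard s, jsg U a b = D)
    (hm : ∀ a ∈ P, ∀ b ∈ P, ∀ c ∈ P, ∀ e ∈ P, a ≠ b → a ≠ c → a ≠ e → b ≠ c → b ≠ e → c ≠ e →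
      ∑ U ∈ P.powersetCard s, jsg U a b * jsg U c e = m4)
    (t : α → α → ℝ) (t0 : ∀ a, t a a = 0) (tsym : ∀ a b, t a b = t b a) :
    ∑ U ∈ P.powersetCard s, (∑ a ∈ P, ∑ b ∈ P, jsg U a b * t a b) ^ 2 =
      m4 * (∑ a ∈ P, ∑ b ∈ P, t a b) ^ 2 + (2 * D - 4 * m4) * (∑ a ∈ P, (∑ b ∈ P, t a b) ^ 2)
        + 2 * m4 * ∑ a ∈ P, ∑ b ∈ P, t a b ^ 2 := by
  have h1 : ∑ U ∈ P.powersetCard s, (∑ a ∈ P, ∑ b ∈ P, jsg U a b * t a b) ^ 2
      = ∑ a ∈ P, ∑ b ∈ P, ∑ c ∈ P, ∑ e ∈ P,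
        t a b * t c e * ∑ U ∈ P.powersetCard s, jsg U a b * jsg U c e := by
    have e1 : ∀ U ∈ P.powersetCard s, (∑ a ∈ P, ∑ b ∈ P, jsg U a b * t a b) ^ 2
        = ∑ a ∈ P, ∑ b ∈ P, ∑ c ∈ P, ∑ e ∈ P, t a b * t c e * (jsg U a b * jsg U c e) := by
      intro U _
      rw [sq, sum_mul]
      refine sum_congr rfl (fun a _ => ?_)
      rw [sum_mul]
      refine sum_congr rfl (fun b _ => ?_)
      rw [mul_sum]
      refine sum_congr rfl (fun c _ => ?_)
      rw [mul_sum]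
      refine sum_congr rfl (fun e _ => ?_)
      ring
    rw [sum_congr rfl e1, sum_comm]
    refine sum_congr rfl (fun a _ => ?_)
    rw [sum_comm]
    refine sum_congr rfl (fun b _ => ?_)
    rw [sum_comm]
    refine sum_congr rfl (fun c _ => ?_)
    rw [sum_comm]
    refine sum_congr rfl (fun e _ => ?_)
    rw [mul_sum]
  have h2 : ∀ a ∈ P, ∀ b ∈ P, ∀ c ∈ P, ∀ e ∈ P,
      t a b * t c e * ∑ U ∈ P.powersetCard s, jsg U a b * jsg U c e =
      m4 * (t a b * t c e) + (D / 2 - m4) * ((if a = c then t a b * t c e else 0)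
        + (if a = e then t a b * t c e else 0)
        + (if b = c then t a b * t c e else 0) + (if b = e then t a b * t c e else 0))
      + m4 * ((if a = c then (if b = e then t a b * t c e else 0) else 0)
        + (if a = e then (if b = c then t a b * t c e else 0) else 0)) := by
    intro a ha b hb c hc e he
    by_cases hab : a = b
    · subst hab; simp [t0]
    by_cases hce : c = e
    · subst hce; simp [t0]
    rw [sum_jsg_formula P s D m4 hD hm ha hb hc he hab hce]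
    simp only [ite_and]
    split_ifs <;> ring
  rw [h1]
  have h3 : ∑ a ∈ P, ∑ b ∈ P, ∑ c ∈ P, ∑ e ∈ P,
        t a b * t c e * ∑ U ∈ P.powersetCard s, jsg U a b * jsg U c e =
      ∑ a ∈ P, ∑ b ∈ P, ∑ c ∈ P, ∑ e ∈ P, (m4 * (t a b * t c e)
        + (D / 2 - m4) * ((if a = c then t a b * t c e else 0)
        + (if a = e then t a b * t c e else 0)
        + (if b = c then t a b * t c e else 0) + (if b = e then t a b * t c e else 0))
      + m4 * ((if a = c then (if b = e then t a b * t c e else 0) else 0)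
        + (if a = e then (if b = c then t a b * t c e else 0) else 0))) :=
    sum_congr rfl (fun a ha => sum_congr rfl (fun b hb => sum_congr rfl (fun c hc =>
      sum_congr rfl (fun e he => h2 a ha b hb c hc e he))))
  rw [h3]
  simp only [sum_add_distrib, ← mul_sum]
  -- individual sums
  have S0 : ∑ a ∈ P, ∑ b ∈ P, t a b * (∑ c ∈ P, ∑ e ∈ P, t c e) =
      (∑ a ∈ P, ∑ b ∈ P, t a b) ^ 2 := by
    rw [sq, sum_mul]
    refine sum_congr rfl (fun a _ => ?_)
    rw [sum_mul]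
  have S1 : ∑ a ∈ P, ∑ b ∈ P, ∑ c ∈ P, ∑ e ∈ P, (if a = c then t a b * t c e else 0) =
      ∑ a ∈ P, (∑ b ∈ P, t a b) ^ 2 := by
    refine sum_congr rfl (fun a ha => ?_)
    rw [sq, sum_mul]
    refine sum_congr rfl (fun b _ => ?_)
    rw [sum_comm, mul_sum]
    refine sum_congr rfl (fun e _ => ?_)
    rw [sum_ite_eq, if_pos ha]
  have S2 : ∑ a ∈ P, ∑ b ∈ P, ∑ c ∈ P, ∑ e ∈ P, (if a = e then t a b * t c e else 0) =
      ∑ a ∈ P, (∑ b ∈ P, t a b) ^ 2 := by
    refine sum_congr rfl (fun a ha => ?_)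
    rw [sq, sum_mul]
    refine sum_congr rfl (fun b _ => ?_)
    rw [mul_sum]
    refine sum_congr rfl (fun c _ => ?_)
    rw [sum_ite_eq, if_pos ha, tsym c a]
  have S3 : ∑ a ∈ P, ∑ b ∈ P, ∑ c ∈ P, ∑ e ∈ P, (if b = c then t a b * t c e else 0) =
      ∑ a ∈ P, (∑ b ∈ P, t a b) ^ 2 := by
    rw [sum_comm]
    refine sum_congr rfl (fun b hb => ?_)
    rw [sq, sum_mul]
    refine sum_congr rfl (fun a _ => ?_)
    rw [sum_comm, mul_sum]
    refine sum_congr rfl (fun e _ => ?_)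
    rw [sum_ite_eq, if_pos hb, tsym a b]
  have S4 : ∑ a ∈ P, ∑ b ∈ P, ∑ c ∈ P, ∑ e ∈ P, (if b = e then t a b * t c e else 0) =
      ∑ a ∈ P, (∑ b ∈ P, t a b) ^ 2 := by
    rw [sum_comm]
    refine sum_congr rfl (fun b hb => ?_)
    rw [sq, sum_mul]
    refine sum_congr rfl (fun a _ => ?_)
    rw [mul_sum]
    refine sum_congr rfl (fun c _ => ?_)
    rw [sum_ite_eq, if_pos hb, tsym a b, tsym c b]
  have S5 : ∑ a ∈ P, ∑ b ∈ P, ∑ c ∈ P, ∑ e ∈ P,
      (if a = c then (if b = e then t a b * t c e else 0) else 0) =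
      ∑ a ∈ P, ∑ b ∈ P, t a b ^ 2 := by
    refine sum_congr rfl (fun a ha => ?_)
    refine sum_congr rfl (fun b hb => ?_)
    rw [sum_comm]
    simp only [sum_ite_eq, if_pos ha, if_pos hb]
    ring
  have S6 : ∑ a ∈ P, ∑ b ∈ P, ∑ c ∈ P, ∑ e ∈ P,
      (if a = e then (if b = c then t a b * t c e else 0) else 0) =
      ∑ a ∈ P, ∑ b ∈ P, t a b ^ 2 := by
    refine sum_congr rfl (fun a ha => ?_)
    refine sum_congr rfl (fun b hb => ?_)
    simp only [sum_ite_eq, if_pos ha, if_pos hb]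
    rw [tsym b a]; ring
  rw [S0, S1, S2, S3, S4, S5, S6]
  ring

theorem jR_le (P : Finset α) (hP : 3 ≤ P.card) (t : α → α → ℝ) (t0 : ∀ a, t a a = 0)
    (tsym : ∀ a b, t a b = t b a) (hT : ∑ a ∈ P, ∑ b ∈ P, t a b = 0) :
    2 * ∑ a ∈ P, (∑ b ∈ P, t a b) ^ 2 ≤ ((P.card : ℝ) - 2) * ∑ a ∈ P, ∑ b ∈ P, t a b ^ 2 := by
  set S : α → ℝ := fun a => ∑ b ∈ P, t a b with hS
  set n : ℝ := (P.card : ℝ) with hn
  have hn3 : (3 : ℝ) ≤ n := by rw [hn]; exact_mod_cast hP
  have hn2 : 0 < n - 2 := by linarith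
  set c : ℝ := 1 / (n - 2) with hc
  have h0 : 0 ≤ ∑ a ∈ P, ∑ b ∈ P, (if a = b then 0 else (t a b - c * (S a + S b)) ^ 2) := by
    refine sum_nonneg (fun a _ => sum_nonneg (fun b _ => ?_))
    split_ifs
    · exact le_refl 0
    · positivity
  have h1 : ∀ a ∈ P, ∀ b ∈ P, (if a = b then 0 else (t a b - c * (S a + S b)) ^ 2) =
      t a b ^ 2 - 2 * c * (t a b * S a) - 2 * c * (t a b * S b)
        + c ^ 2 * S a ^ 2 + c ^ 2 * S b ^ 2 + 2 * c ^ 2 * (S a * S b)
        - (if a = b then 4 * c ^ 2 * S a ^ 2 else 0) := by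
    intro a _ b _
    split_ifs with h
    · subst h; rw [t0]; ring
    · ring
  have h2 : ∑ a ∈ P, ∑ b ∈ P, (if a = b then 0 else (t a b - c * (S a + S b)) ^ 2) =
      ∑ a ∈ P, ∑ b ∈ P, (t a b ^ 2 - 2 * c * (t a b * S a) - 2 * c * (t a b * S b)
        + c ^ 2 * S a ^ 2 + c ^ 2 * S b ^ 2 + 2 * c ^ 2 * (S a * S b)
        - (if a = b then 4 * c ^ 2 * S a ^ 2 else 0)) :=
    sum_congr rfl (fun a ha => sum_congr rfl (fun b hb => h1 a ha b hb))
  rw [h2] at h0
  simp only [sum_add_distrib, sum_sub_distrib, ← mul_sum] at h0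
  have e1 : ∑ a ∈ P, ∑ b ∈ P, t a b * S a = ∑ a ∈ P, S a ^ 2 := by
    refine sum_congr rfl (fun a _ => ?_)
    rw [← sum_mul, sq]
  have e2 : ∑ a ∈ P, ∑ b ∈ P, t a b * S b = ∑ a ∈ P, S a ^ 2 := by
    rw [sum_comm]
    refine sum_congr rfl (fun b _ => ?_)
    rw [← sum_mul, sq]
    congr 1
    exact sum_congr rfl (fun a _ => tsym a b)
  have e3 : ∑ a ∈ P, ∑ b ∈ P, c ^ 2 * S a ^ 2 = n * (c ^ 2 * ∑ a ∈ P, S a ^ 2) := by
    rw [mul_sum, mul_sum]
    refine sum_congr rfl (fun a _ => ?_)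
    rw [sum_const, nsmul_eq_mul]
  have e4 : ∑ a ∈ P, ∑ b ∈ P, c ^ 2 * S b ^ 2 = n * (c ^ 2 * ∑ a ∈ P, S a ^ 2) := by
    rw [sum_const, nsmul_eq_mul, ← mul_sum]
  have e5 : ∑ a ∈ P, ∑ b ∈ P, S a * S b = 0 := by
    simp only [← mul_sum]
    have : ∑ b ∈ P, S b = 0 := hT
    simp [this]
  have e6 : ∑ a ∈ P, ∑ b ∈ P, (if a = b then 4 * c ^ 2 * S a ^ 2 else 0)
      = 4 * c ^ 2 * ∑ a ∈ P, S a ^ 2 := by
    rw [mul_sum]
    refine sum_congr rfl (fun a ha => ?_)
    rw [sum_ite_eq, if_pos ha]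
  simp only [← mul_sum] at e3 e4
  rw [e1, e2, e6, e3, e4] at h0
  have e7 : ∑ i ∈ P, S i * ∑ i ∈ P, S i = 0 := by
    have h7 : ∑ b ∈ P, S b = 0 := hT
    simp [h7]
  rw [e7] at h0
  have hcn : c * (n - 2) = 1 := by rw [hc]; field_simp
  set R : ℝ := ∑ a ∈ P, S a ^ 2 with hR
  set Q : ℝ := ∑ a ∈ P, ∑ b ∈ P, t a b ^ 2 with hQ
  have h8 : 0 ≤ Q - 2 * c * R := by
    have h9 : Q - 2 * c * R - 2 * c * R + n * (c ^ 2 * R) + n * (c ^ 2 * R) + 2 * c ^ 2 * 0
        - 4 * c ^ 2 * R = Q - 4 * c * R + 2 * c * (c * (n - 2)) * R := by ring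
    rw [h9, hcn] at h0
    linarith
  have h10 : 0 ≤ (n - 2) * (Q - 2 * c * R) := mul_nonneg hn2.le h8
  have h11 : (n - 2) * (Q - 2 * c * R) = (n - 2) * Q - 2 * (c * (n - 2)) * R := by ring
  rw [h11, hcn] at h10
  have h12 : ∑ a ∈ P, (∑ b ∈ P, t a b) ^ 2 = R := rfl
  linarith

theorem jR_le' (P : Finset α) (t : α → α → ℝ) (t0 : ∀ a, t a a = 0) :
    ∑ a ∈ P, (∑ b ∈ P, t a b) ^ 2 ≤ ((P.card : ℝ) - 1) * ∑ a ∈ P, ∑ b ∈ P, t a b ^ 2 := by
  rw [mul_sum]
  refine sum_le_sum (fun a ha => ?_)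
  rw [← add_sum_erase P (fun b => t a b) ha, ← add_sum_erase P (fun b => t a b ^ 2) ha]
  simp only [t0, zero_add]
  have h := sq_sum_le_card_mul_sum_sq (s := P.erase a) (f := fun b => t a b)
  rw [card_erase_of_mem ha] at h
  have h1 : 1 ≤ P.card := card_pos.2 ⟨a, ha⟩
  rw [Nat.cast_sub h1] at h
  simpa using h

theorem jnum (n D m4 R Q : ℝ) (hD0 : 0 ≤ D) (hm0 : 0 ≤ m4) (hmD : m4 ≤ D) (hR0 : 0 ≤ R)
    (hQ0 : 0 ≤ Q)
    (h : (3 ≤ n ∧ 2 * R ≤ (n - 2) * Q) ∨ (n ≤ 2 ∧ m4 = 0 ∧ R ≤ (n - 1) * Q)) :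
    (2 * D - 4 * m4) * R + 2 * m4 * Q ≤ n * D * Q := by
  rcases h with ⟨hn, h1⟩ | ⟨hn, rfl, h1⟩
  · by_cases h2 : 2 * m4 ≤ D
    · have h3 : (2 * D - 4 * m4) * R ≤ (D - 2 * m4) * ((n - 2) * Q) := by
        have := mul_le_mul_of_nonneg_left h1 (by linarith : 0 ≤ D - 2 * m4)
        linarith
      have h4 : 0 ≤ D * Q := by positivity
      have h5 : 0 ≤ m4 * Q := by positivity
      have h6 := mul_nonneg h5 (by linarith : (0:ℝ) ≤ n - 3)
      have h7 : (D - 2 * m4) * ((n - 2) * Q) + 2 * m4 * Q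
          = n * D * Q - 2 * (D * Q) - 2 * (m4 * Q * (n - 3)) := by ring
      linarith
    · push Not at h2
      have h3 : (2 * D - 4 * m4) * R ≤ 0 :=
        mul_nonpos_of_nonpos_of_nonneg (by linarith) hR0
      have h4 : m4 * Q ≤ D * Q := mul_le_mul_of_nonneg_right hmD hQ0
      have h5 : 0 ≤ D * Q := by positivity
      have h6 : n * D * Q = (n - 3) * (D * Q) + 3 * (D * Q) := by ring
      have h7 : 0 ≤ (n - 3) * (D * Q) := mul_nonneg (by linarith) h5
      linarith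
  · have h2 := mul_le_mul_of_nonneg_left h1 hD0
    have h3 : 0 ≤ (2 - n) * (D * Q) := mul_nonneg (by linarith) (by positivity)
    linarith

theorem johnson_tot (P : Finset α) (s : ℕ) (f : Finset α → ℝ)
    (h0 : ∑ U ∈ P.powersetCard s, f U = 0) :
    ∑ a ∈ P, ∑ b ∈ P, ∑ U ∈ P.powersetCard s, f U * jsg U a b = 0 := by
  have e1 : ∑ a ∈ P, ∑ b ∈ P, ∑ U ∈ P.powersetCard s, f U * jsg U a b
      = ∑ U ∈ P.powersetCard s, f U * ∑ a ∈ P, ∑ b ∈ P, jsg U a b := by
    simp only [mul_sum]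
    have e2 : ∀ a ∈ P, ∑ b ∈ P, ∑ U ∈ P.powersetCard s, f U * jsg U a b
        = ∑ U ∈ P.powersetCard s, ∑ b ∈ P, f U * jsg U a b := fun a _ => sum_comm
    rw [sum_congr rfl e2, sum_comm]
  have e3 : ∀ U ∈ P.powersetCard s, f U * ∑ a ∈ P, ∑ b ∈ P, jsg U a b
      = f U * (2 * P.card * s - 2 * s * s) := by
    intro U hU
    congr 1
    rw [mem_powersetCard] at hU
    have e4 : ∑ a ∈ P, jx U a = s := by
      unfold jx
      rw [← sum_filter, sum_const, filter_mem_eq_inter, inter_eq_right.2 hU.1, hU.2]; simp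
    simp only [jsg_eq, sum_add_distrib, sum_sub_distrib, ← mul_sum, ← sum_mul, e4, sum_const,
      nsmul_eq_mul]
    ring
  rw [e1, sum_congr rfl e3, ← sum_mul, h0, zero_mul]

theorem johnson_exD (P : Finset α) (s : ℕ) :
    ∃ D m4 : ℝ, 0 ≤ m4 ∧ m4 ≤ D ∧ (P.card < 3 → m4 = 0) ∧
      (∀ a ∈ P, ∀ b ∈ P, a ≠ b → ∑ U ∈ P.powersetCard s, jsg U a b = D) ∧
      ∀ a ∈ P, ∀ b ∈ P, ∀ c ∈ P, ∀ e ∈ P, a ≠ b → a ≠ c → a ≠ e → b ≠ c → b ≠ e → c ≠ e →
      ∑ U ∈ P.powersetCard s, jsg U a b * jsg U c e = m4 := by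
  have hD : ∀ a ∈ P, ∀ b ∈ P, a ≠ b →
      ∑ U ∈ P.powersetCard s, jsg U a b = 2 * (jcnt P.card s 1 1 : ℝ) :=
    fun a ha b hb hab => sum_jsg P s ha hb hab
  by_cases hex : ∃ a ∈ P, ∃ b ∈ P, ∃ c ∈ P, ∃ e ∈ P,
    a ≠ b ∧ a ≠ c ∧ a ≠ e ∧ b ≠ c ∧ b ≠ e ∧ c ≠ e
  · obtain ⟨a, ha, b, hb, c, hc, e, he, h1, h2, h3, h4, h5, h6⟩ := hex
    refine ⟨2 * (jcnt P.card s 1 1 : ℝ), 4 * (jcnt P.card s 2 2 : ℝ), by positivity, ?_, ?_, hD,
      fun a ha b hb c hc e he => sum_jsg4 P s ha hb hc he⟩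
    · rw [← sum_jsg4 P s ha hb hc he h1 h2 h3 h4 h5 h6, ← hD a ha b hb h1]
      refine sum_le_sum (fun U _ => ?_)
      have := jsg_nonneg U a b
      have := jsg_le_one U c e
      nlinarith
    · intro h3'
      exfalso
      have h7 : ({a, b, c, e} : Finset α).card ≤ P.card :=
        card_le_card (by simp [insert_subset_iff, ha, hb, hc, he])
      have h8 : ({a, b, c, e} : Finset α).card = 4 := by
        rw [card_insert_of_notMem (by simp [h1, h2, h3]), card_insert_of_notMem (by simp [h4, h5]),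
          card_pair h6]
      omega
  · refine ⟨2 * (jcnt P.card s 1 1 : ℝ), 0, le_refl 0, by positivity, fun _ => rfl, hD, ?_⟩
    intro a ha b hb c hc e he h1 h2 h3 h4 h5 h6
    exact absurd ⟨a, ha, b, hb, c, hc, e, he, h1, h2, h3, h4, h5, h6⟩ hex

theorem johnson_QH (P : Finset α) (s : ℕ) (f : Finset α → ℝ) (t : α → α → ℝ)
    (ht : t = fun x y => ∑ U ∈ P.powersetCard s, f U * jsg U x y) :
    ∑ a ∈ P, ∑ b ∈ P, t a b ^ 2
      = ∑ U ∈ P.powersetCard s, f U * ∑ a ∈ P, ∑ b ∈ P, jsg U a b * t a b := by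
  have e1 : ∀ a ∈ P, ∀ b ∈ P, t a b ^ 2
      = ∑ U ∈ P.powersetCard s, f U * (jsg U a b * t a b) := by
    intro a _ b _
    rw [sq]
    nth_rewrite 1 [ht]
    simp only
    rw [sum_mul]
    exact sum_congr rfl (fun U _ => by ring)
  rw [sum_congr rfl (fun a ha => sum_congr rfl (fun b hb => e1 a ha b hb))]
  have e2 : ∀ a ∈ P, ∑ b ∈ P, ∑ U ∈ P.powersetCard s, f U * (jsg U a b * t a b)
        = ∑ U ∈ P.powersetCard s, ∑ b ∈ P, f U * (jsg U a b * t a b) := fun a _ => sum_comm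
  rw [sum_congr rfl e2, sum_comm]
  simp only [mul_sum]

theorem johnson_sep (P : Finset α) (s : ℕ) (f : Finset α → ℝ)
    (h0 : ∑ U ∈ P.powersetCard s, f U = 0) :
    ∑ x ∈ P, ∑ y ∈ P.erase x, (∑ U ∈ sep P s x y, f U) ^ 2 / ((sep P s x y).card : ℝ) ≤
      (P.card : ℝ) * ∑ U ∈ P.powersetCard s, f U ^ 2 := by
  obtain ⟨t, ht⟩ : ∃ t : α → α → ℝ, t = fun x y => ∑ U ∈ P.powersetCard s, f U * jsg U x y :=
    ⟨_, rfl⟩
  have ht' : ∀ x y, ∑ U ∈ sep P s x y, f U = t x y := by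
    intro x y
    simp only [ht, sep, sum_filter]
    refine sum_congr rfl (fun U _ => ?_)
    unfold jsg; split_ifs <;> simp
  have t0 : ∀ a, t a a = 0 := by intro a; simp [ht, jsg_self]
  have tsym : ∀ a b, t a b = t b a := by
    intro a b; simp only [ht]
    exact sum_congr rfl (fun U _ => by rw [jsg_comm])
  obtain ⟨D, m4, hm0, hmD, hm4, hD, hm⟩ := johnson_exD P s
  have hD0 : 0 ≤ D := hm0.trans hmD
  have hcard : ∀ a ∈ P, ∀ b ∈ P, a ≠ b → ((sep P s a b).card : ℝ) = D := by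
    intro a ha b hb hab
    rw [← hD a ha b hb hab]
    unfold sep jsg
    rw [← sum_filter, sum_const]; simp
  have hform := jform P s D m4 hD hm t t0 tsym
  have hT : ∑ a ∈ P, ∑ b ∈ P, t a b = 0 := by rw [ht]; exact johnson_tot P s f h0
  have hQH := johnson_QH P s f t ht
  have hR2 := jR_le' P t t0
  have hR1 := fun h3 => jR_le P h3 t t0 tsym hT
  rw [hT] at hform
  have hR0 : 0 ≤ ∑ a ∈ P, (∑ b ∈ P, t a b) ^ 2 := sum_nonneg (fun a _ => sq_nonneg _)
  have hQ0 : 0 ≤ ∑ a ∈ P, ∑ b ∈ P, t a b ^ 2 :=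
    sum_nonneg (fun a _ => sum_nonneg (fun b _ => sq_nonneg _))
  have hL : ∑ x ∈ P, ∑ y ∈ P.erase x, (∑ U ∈ sep P s x y, f U) ^ 2 / ((sep P s x y).card : ℝ)
      = (∑ a ∈ P, ∑ b ∈ P, t a b ^ 2) / D := by
    rw [sum_div]
    refine sum_congr rfl (fun x hx => ?_)
    rw [← add_sum_erase P (fun y => t x y ^ 2) hx, t0]
    simp only [ne_eq, OfNat.ofNat_ne_zero, not_false_eq_true, zero_pow, zero_add]
    rw [sum_div]
    refine sum_congr rfl (fun y hy => ?_)
    rw [mem_erase] at hy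
    rw [ht', hcard x hx y hy.2 hy.1.symm]
  have hCS : (∑ a ∈ P, ∑ b ∈ P, t a b ^ 2) ^ 2 ≤ (∑ U ∈ P.powersetCard s, f U ^ 2) *
      ∑ U ∈ P.powersetCard s, (∑ a ∈ P, ∑ b ∈ P, jsg U a b * t a b) ^ 2 := by
    rw [hQH]; exact sum_mul_sq_le_sq_mul_sq _ _ _
  have hF0 : 0 ≤ ∑ U ∈ P.powersetCard s, f U ^ 2 := sum_nonneg (fun U _ => sq_nonneg _)
  rw [hL]
  generalize (∑ a ∈ P, ∑ b ∈ P, t a b ^ 2) = Q at *
  generalize (∑ a ∈ P, (∑ b ∈ P, t a b) ^ 2) = R at *
  generalize (∑ U ∈ P.powersetCard s, (∑ a ∈ P, ∑ b ∈ P, jsg U a b * t a b) ^ 2) = H at *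
  generalize (∑ U ∈ P.powersetCard s, f U ^ 2) = F at *
  have hHle : H ≤ (P.card : ℝ) * D * Q := by
    have := jnum (P.card : ℝ) D m4 R Q hD0 hm0 hmD hR0 hQ0 (by
      by_cases hP : 3 ≤ P.card
      · exact Or.inl ⟨by exact_mod_cast hP, hR1 hP⟩
      · have h3 : P.card < 3 := by omega
        have h4 : P.card ≤ 2 := by omega
        exact Or.inr ⟨by exact_mod_cast h4, hm4 h3, hR2⟩)
    rw [hform]; linarith
  rcases hD0.eq_or_lt with hD0' | hDpos
  · rw [← hD0', div_zero]; positivity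
  · rw [div_le_iff₀ hDpos]
    rcases hQ0.eq_or_lt with hQ0' | hQpos
    · rw [← hQ0']; positivity
    · have h1 : Q * Q ≤ ((P.card : ℝ) * F * D) * Q := by
        calc Q * Q = Q ^ 2 := by ring
          _ ≤ F * H := hCS
          _ ≤ F * ((P.card : ℝ) * D * Q) := mul_le_mul_of_nonneg_left hHle hF0
          _ = _ := by ring
      exact le_of_mul_le_mul_right h1 hQpos

end JohnsonSep

end Vale.Agent.KTV
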