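import Vale.Agent.KTV.Disjoint
import Vale.Agent.KTV.Johnson1
import Vale.Agent.KTV.Johnson2

open Finset
open scoped Classical

namespace Vale.Agent.KTV

theorem sum_change_on {V : Type*} [Fintype V] {f g : V → ℕ} (P : Finset V)
    (h : ∀ b, b ∉ P → f b = g b) (h2 : ∑ b ∈ P, f b = ∑ b ∈ P, g b) :
    ∑ b, f b = ∑ b, g b := by
  rw [← sum_add_sum_compl P f, ← sum_add_sum_compl P g, h2]
  congr 1
  exact sum_congr rfl fun b hb => h b (by simpa using hb)

section GJ
variable {V : Type*} [Fintype V] {d : V → ℕ}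

/-- columns on which the rows `u`, `v` differ -/
noncomputable def PS (u v : V) (B : Om d) : Finset V :=
  univ.filter (fun x => x ≠ u ∧ x ≠ v ∧ B.adj u x ≠ B.adj v x)

/-- columns on which row `u` has a one and row `v` a zero -/
noncomputable def US (u v : V) (B : Om d) : Finset V :=
  (PS u v B).filter (fun x => B.adj u x = true)

theorem mem_PS {u v x : V} {B : Om d} :
    x ∈ PS u v B ↔ x ≠ u ∧ x ≠ v ∧ B.adj u x ≠ B.adj v x := by simp [PS]

theorem mem_US {u v x : V} {B : Om d} :
    x ∈ US u v B ↔ x ∈ PS u v B ∧ B.adj u x = true := by simp [US]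

theorem US_subset (u v : V) (B : Om d) : US u v B ⊆ PS u v B := filter_subset _ _

theorem pr_col {u v : V} (huv : u ≠ v) {A B : Om d} (h : pr u v A B) {c : V} (hcu : c ≠ u)
    (hcv : c ≠ v) : (A.adj u c).toNat + (A.adj v c).toNat =
      (B.adj u c).toNat + (B.adj v c).toNat := by
  have := pr_colsum huv h hcu hcv
  rwa [A.symm c u, A.symm c v, B.symm c u, B.symm c v] at this

theorem bool_ne {a b c e : Bool} (h : a.toNat + b.toNat = c.toNat + e.toNat) :
    (a ≠ b ↔ c ≠ e) := by
  revert a b c e; decide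

theorem PS_congr {u v : V} (huv : u ≠ v) {A B : Om d} (h : pr u v A B) :
    PS u v B = PS u v A := by
  ext x
  rw [mem_PS, mem_PS]
  constructor
  · rintro ⟨h1, h2, h3⟩
    exact ⟨h1, h2, (bool_ne (pr_col huv h h1 h2)).2 h3⟩
  · rintro ⟨h1, h2, h3⟩
    exact ⟨h1, h2, (bool_ne (pr_col huv h h1 h2)).1 h3⟩

/-- off the columns in `PS` the row `u` is unchanged -/
theorem row_eq_of_not_mem {u v : V} (huv : u ≠ v) {A B : Om d} (h : pr u v A B) {b : V}
    (hb : b ∉ PS u v A) : B.adj u b = A.adj u b ∧ B.adj v b = A.adj v b := by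
  by_cases hbu : b = u
  · subst hbu
    exact ⟨(h b b (by tauto)).symm, (h v b (by tauto)).symm⟩
  · by_cases hbv : b = v
    · subst hbv
      exact ⟨(h u b (by tauto)).symm, (h b b (by tauto)).symm⟩
    · have hc := pr_col huv h hbu hbv
      have he : A.adj u b = A.adj v b := by
        by_contra hne
        exact hb (mem_PS.2 ⟨hbu, hbv, hne⟩)
      have := bool_two hc he
      exact ⟨this.1, this.2.trans he⟩

theorem card_US_eq {u v : V} (B : Om d) :
    (US u v B).card = ∑ b ∈ PS u v B, (B.adj u b).toNat := by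
  unfold US
  rw [card_filter]
  refine sum_congr rfl fun b _ => ?_
  cases B.adj u b <;> simp

theorem US_card {u v : V} (huv : u ≠ v) {A B : Om d} (h : pr u v A B) :
    (US u v B).card = (US u v A).card := by
  rw [card_US_eq, card_US_eq, PS_congr huv h]
  have h1 := B.deg u
  have h2 := A.deg u
  rw [← sum_add_sum_compl (PS u v A)] at h1 h2
  have h3 : ∑ b ∈ (PS u v A)ᶜ, (B.adj u b).toNat = ∑ b ∈ (PS u v A)ᶜ, (A.adj u b).toNat := by
    refine sum_congr rfl fun b hb => ?_
    rw [(row_eq_of_not_mem huv h (by simpa using hb)).1]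
  omega

theorem US_mem_powersetCard {u v : V} (huv : u ≠ v) {A B : Om d} (h : pr u v A B) :
    US u v B ∈ (PS u v A).powersetCard (US u v A).card := by
  rw [mem_powersetCard]
  refine ⟨?_, US_card huv h⟩
  rw [← PS_congr huv h]
  exact US_subset u v B

/-- entries of row `u` and `v` on the columns in `PS` -/
theorem row_of_mem {u v : V} (huv : u ≠ v) {A B : Om d} (h : pr u v A B) {b : V}
    (hb : b ∈ PS u v A) : B.adj u b = decide (b ∈ US u v B) ∧
      B.adj v b = !decide (b ∈ US u v B) := by
  have hb' : b ∈ PS u v B := by rw [PS_congr huv h]; exact hb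
  have hne := (mem_PS.1 hb').2.2
  have e1 : B.adj u b = decide (b ∈ US u v B) := by
    by_cases hu : B.adj u b = true
    · have : b ∈ US u v B := mem_US.2 ⟨hb', hu⟩
      rw [hu]; simp [this]
    · have : b ∉ US u v B := fun hc => hu (mem_US.1 hc).2
      simp [this]
      simpa using hu
  refine ⟨e1, ?_⟩
  rw [← e1]
  revert hne
  generalize B.adj u b = p
  generalize B.adj v b = q
  revert p q
  decide

theorem US_inj {u v : V} (huv : u ≠ v) {A B C : Om d} (hB : pr u v A B) (hC : pr u v A C)
    (h : US u v B = US u v C) : B = C := by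
  have rows : ∀ b, B.adj u b = C.adj u b ∧ B.adj v b = C.adj v b := by
    intro b
    by_cases hb : b ∈ PS u v A
    · have h1 := row_of_mem huv hB hb
      have h2 := row_of_mem huv hC hb
      rw [h1.1, h1.2, h2.1, h2.2, h]
      exact ⟨rfl, rfl⟩
    · have h1 := row_eq_of_not_mem huv hB hb
      have h2 := row_eq_of_not_mem huv hC hb
      rw [h1.1, h1.2, h2.1, h2.2]
      exact ⟨rfl, rfl⟩
  apply Om.ext
  funext a b
  by_cases ha : a = u ∨ a = v
  · rcases ha with rfl | rfl
    · exact (rows b).1
    · exact (rows b).2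
  · by_cases hb : b = u ∨ b = v
    · rw [B.symm a b, C.symm a b]
      rcases hb with rfl | rfl
      · exact (rows a).1
      · exact (rows a).2
    · rw [← hB a b (by tauto), ← hC a b (by tauto)]

/-- adjacency matrix with prescribed set `US` -/
noncomputable def mkAdj (u v : V) (A : Om d) (U : Finset V) : V → V → Bool := fun a b =>
  if a = u ∧ b ∈ PS u v A then decide (b ∈ U)
  else if a = v ∧ b ∈ PS u v A then !decide (b ∈ U)
  else if b = u ∧ a ∈ PS u v A then decide (a ∈ U)
  else if b = v ∧ a ∈ PS u v A then !decide (a ∈ U)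
  else A.adj a b

theorem u_not_PS {u v : V} {A : Om d} : u ∉ PS u v A := fun h => (mem_PS.1 h).1 rfl
theorem v_not_PS {u v : V} {A : Om d} : v ∉ PS u v A := fun h => (mem_PS.1 h).2.1 rfl

theorem mkAdj_u {u v : V} (huv : u ≠ v) (A : Om d) (U : Finset V) (b : V) :
    mkAdj u v A U u b = if b ∈ PS u v A then decide (b ∈ U) else A.adj u b := by
  unfold mkAdj
  by_cases hb : b ∈ PS u v A
  · simp [hb]
  · simp [hb, u_not_PS]

theorem mkAdj_v {u v : V} (huv : u ≠ v) (A : Om d) (U : Finset V) (b : V) :
    mkAdj u v A U v b = if b ∈ PS u v A then !decide (b ∈ U) else A.adj v b := by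
  unfold mkAdj
  by_cases hb : b ∈ PS u v A
  · simp [hb, huv.symm]
  · simp [hb, v_not_PS]

theorem mkAdj_symm {u v : V} (huv : u ≠ v) (A : Om d) (U : Finset V) (a b : V) :
    mkAdj u v A U a b = mkAdj u v A U b a := by
  unfold mkAdj
  have e1 : ¬ (u = v) := huv
  have e2 : ¬ (v = u) := huv.symm
  have hu : u ∉ PS u v A := u_not_PS
  have hv : v ∉ PS u v A := v_not_PS
  by_cases ha : a = u
  · subst ha
    by_cases hb : b ∈ PS a v A
    · have hbu : ¬ b = a := fun h => hu (h ▸ hb)
      have hbv : ¬ b = v := fun h => hv (h ▸ hb)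
      simp [hb, hbu, hbv]
    · simp only [hb, hu, and_false, if_false]
      exact A.symm _ _
  · by_cases ha' : a = v
    · subst ha'
      by_cases hb : b ∈ PS u a A
      · have hbu : ¬ b = u := fun h => hu (h ▸ hb)
        have hbv : ¬ b = a := fun h => hv (h ▸ hb)
        simp [hb, hbu, hbv, ha]
      · simp only [hb, hv, and_false, if_false]
        exact A.symm _ _
    · by_cases hb : b = u
      · subst hb
        by_cases haP : a ∈ PS b v A
        · simp [haP, ha, ha']
        · simp only [hu, haP, and_false, if_false]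
          exact A.symm _ _
      · by_cases hb' : b = v
        · subst hb'
          by_cases haP : a ∈ PS u b A
          · simp [haP, ha, ha', hb]
          · simp only [hv, haP, and_false, if_false]
            exact A.symm _ _
        · simp only [ha, ha', hb, hb', false_and, if_false]
          exact A.symm _ _

theorem mkAdj_off {u v : V} (A : Om d) (U : Finset V) {a b : V}
    (hab : (a = u ∨ a = v) ↔ (b = u ∨ b = v)) : mkAdj u v A U a b = A.adj a b := by
  have hu : u ∉ PS u v A := u_not_PS
  have hv : v ∉ PS u v A := v_not_PS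
  unfold mkAdj
  rw [if_neg, if_neg, if_neg, if_neg]
  · rintro ⟨rfl, h⟩
    rcases hab.2 (Or.inr rfl) with rfl | rfl
    · exact hu h
    · exact hv h
  · rintro ⟨rfl, h⟩
    rcases hab.2 (Or.inl rfl) with rfl | rfl
    · exact hu h
    · exact hv h
  · rintro ⟨rfl, h⟩
    rcases hab.1 (Or.inr rfl) with rfl | rfl
    · exact hu h
    · exact hv h
  · rintro ⟨rfl, h⟩
    rcases hab.1 (Or.inl rfl) with rfl | rfl
    · exact hu h
    · exact hv h

theorem mkAdj_deg {u v : V} (huv : u ≠ v) (A : Om d) {U : Finset V}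
    (hU : U ∈ (PS u v A).powersetCard (US u v A).card) (a : V) :
    ∑ b, (mkAdj u v A U a b).toNat = d a := by
  rw [mem_powersetCard] at hU
  rw [← A.deg a]
  have hcU : ∑ b ∈ PS u v A, (decide (b ∈ U)).toNat = U.card := by
    have : ∀ b, (decide (b ∈ U)).toNat = if b ∈ U then 1 else 0 := by
      intro b; by_cases h : b ∈ U <;> simp [h]
    simp only [this]
    rw [← card_filter]
    congr 1
    ext b
    rw [mem_filter]
    exact ⟨fun h => h.2, fun h => ⟨hU.1 h, h⟩⟩
  have hcU' : ∑ b ∈ PS u v A, (!decide (b ∈ U)).toNat + U.card = (PS u v A).card := by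
    rw [← hcU, ← sum_add_distrib, card_eq_sum_ones]
    refine sum_congr rfl fun b _ => ?_
    by_cases h : b ∈ U <;> simp [h]
  have hcA := card_US_eq (u := u) (v := v) A
  have hcA' : ∑ b ∈ PS u v A, (A.adj v b).toNat + (US u v A).card = (PS u v A).card := by
    rw [hcA, ← sum_add_distrib, card_eq_sum_ones]
    refine sum_congr rfl fun b hb => ?_
    have := (mem_PS.1 hb).2.2
    revert this
    generalize A.adj u b = p
    generalize A.adj v b = q
    revert p q; decide
  by_cases ha : a = u
  · subst ha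
    apply sum_change_on (PS a v A)
    · intro b hb
      rw [mkAdj_u huv, if_neg hb]
    · have : ∀ b ∈ PS a v A, (mkAdj a v A U a b).toNat = (decide (b ∈ U)).toNat := by
        intro b hb; rw [mkAdj_u huv, if_pos hb]
      rw [sum_congr rfl this, hcU, hU.2, hcA]
  · by_cases ha' : a = v
    · subst ha'
      apply sum_change_on (PS u a A)
      · intro b hb
        rw [mkAdj_v huv, if_neg hb]
      · have : ∀ b ∈ PS u a A, (mkAdj u a A U a b).toNat = (!decide (b ∈ U)).toNat := by
          intro b hb; rw [mkAdj_v huv, if_pos hb]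
        rw [sum_congr rfl this]
        have := hU.2
        omega
    · apply sum_two_change huv
      · intro b hb hb'
        rw [mkAdj_off]
        constructor
        · rintro (h | h)
          exacts [absurd h ha, absurd h ha']
        · rintro (h | h)
          exacts [absurd h hb, absurd h hb']
      · rw [mkAdj_symm huv A U a u, mkAdj_symm huv A U a v, mkAdj_u huv, mkAdj_v huv]
        rw [A.symm a u, A.symm a v]
        by_cases haP : a ∈ PS u v A
        · rw [if_pos haP, if_pos haP]
          have := (mem_PS.1 haP).2.2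
          revert this
          generalize A.adj u a = p
          generalize A.adj v a = q
          generalize decide (a ∈ U) = r
          revert p q r; decide
        · rw [if_neg haP, if_neg haP]

/-- the element of the class of `A` with prescribed set `US` -/
noncomputable def mkOm (u v : V) (A : Om d) (U : Finset V) : Om d :=
  if h : u ≠ v ∧ U ∈ (PS u v A).powersetCard (US u v A).card then
    { adj := mkAdj u v A U
      symm := mkAdj_symm h.1 A U
      irrefl := fun a => by
        rw [mkAdj_off A U Iff.rfl]; exact A.irrefl a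
      deg := mkAdj_deg h.1 A h.2 }
  else A

theorem mkOm_adj {u v : V} (huv : u ≠ v) (A : Om d) {U : Finset V}
    (hU : U ∈ (PS u v A).powersetCard (US u v A).card) : (mkOm u v A U).adj = mkAdj u v A U := by
  unfold mkOm
  rw [dif_pos ⟨huv, hU⟩]

theorem mkOm_pr {u v : V} (huv : u ≠ v) (A : Om d) {U : Finset V}
    (hU : U ∈ (PS u v A).powersetCard (US u v A).card) : pr u v A (mkOm u v A U) := by
  intro a b hab
  rw [mkOm_adj huv A hU, mkAdj_off A U hab]

theorem US_mkOm {u v : V} (huv : u ≠ v) (A : Om d) {U : Finset V}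
    (hU : U ∈ (PS u v A).powersetCard (US u v A).card) : US u v (mkOm u v A U) = U := by
  ext b
  rw [mem_US, PS_congr huv (mkOm_pr huv A hU), mkOm_adj huv A hU, mkAdj_u huv]
  rw [mem_powersetCard] at hU
  constructor
  · rintro ⟨h1, h2⟩
    rw [if_pos h1] at h2
    simpa using h2
  · intro h
    refine ⟨hU.1 h, ?_⟩
    rw [if_pos (hU.1 h)]
    simpa using h

theorem mkOm_US {u v : V} (huv : u ≠ v) {A B : Om d} (h : pr u v A B) :
    mkOm u v A (US u v B) = B :=
  US_inj huv (mkOm_pr huv A (US_mem_powersetCard huv h)) h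
    (US_mkOm huv A (US_mem_powersetCard huv h))

/-- the class is in bijection with the subsets -/
theorem sum_cls {u v : V} (huv : u ≠ v) (A : Om d) (F : Om d → ℝ) :
    ∑ B ∈ cls (pr u v) A, F B =
      ∑ U ∈ (PS u v A).powersetCard (US u v A).card, F (mkOm u v A U) := by
  refine sum_nbij' (US u v) (mkOm u v A) ?_ ?_ ?_ ?_ ?_
  · intro B hB
    exact US_mem_powersetCard huv (mem_cls.1 hB)
  · intro U hU
    exact mem_cls.2 (mkOm_pr huv A hU)
  · intro B hB
    exact mkOm_US huv (mem_cls.1 hB)
  · intro U hU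
    exact US_mkOm huv A hU
  · intro B hB
    rw [mkOm_US huv (mem_cls.1 hB)]


/-! ### the switch in terms of subsets -/

theorem gj_mem_sws {α : Type*} {x y z : α} {U : Finset α} :
    z ∈ sws x y U ↔ Equiv.swap x y z ∈ U := by
  unfold sws
  rw [mem_image]
  constructor
  · rintro ⟨a, ha, rfl⟩
    rwa [Equiv.swap_apply_self]
  · intro h
    exact ⟨_, h, Equiv.swap_apply_self _ _ _⟩

theorem gj_sws_self {α : Type*} (x : α) (U : Finset α) : sws x x U = U := by
  ext z; rw [gj_mem_sws]; simp

theorem gj_sws_of_iff {α : Type*} {x y : α} {U : Finset α} (h : x ∈ U ↔ y ∈ U) :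
    sws x y U = U := by
  ext z
  rw [gj_mem_sws]
  by_cases hx : z = x
  · subst hx; rw [Equiv.swap_apply_left]; exact h.symm
  · by_cases hy : z = y
    · subst hy; rw [Equiv.swap_apply_right]; exact h
    · rw [Equiv.swap_apply_of_ne_of_ne hx hy]

theorem dist4_of_PS {u v x y : V} (huv : u ≠ v) {A : Om d} (hx : x ∈ PS u v A)
    (hy : y ∈ PS u v A) (hxy : x ≠ y) : Dist4 u v x y :=
  ⟨huv, (mem_PS.1 hx).1.symm, (mem_PS.1 hy).1.symm, (mem_PS.1 hx).2.1.symm,
    (mem_PS.1 hy).2.1.symm, hxy⟩

theorem alt_mem_PS {u v x y : V} (hd : Dist4 u v x y) {B : Om d} (h : Alt u v x y B) :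
    x ∈ PS u v B ∧ y ∈ PS u v B := by
  obtain ⟨h1, h2, h3, h4, h5, h6⟩ := hd
  obtain ⟨k1, k2, k3⟩ := h
  rw [mem_PS, mem_PS]
  refine ⟨⟨h2.symm, h4.symm, ?_⟩, ⟨h3.symm, h5.symm, ?_⟩⟩
  · rw [← k2]; exact k3
  · rw [← k1]; exact k3.symm

theorem alt_iff {u v x y : V} {B : Om d} (hx : x ∈ PS u v B) (hy : y ∈ PS u v B) :
    Alt u v x y B ↔ ¬ (x ∈ US u v B ↔ y ∈ US u v B) := by
  have e1 : x ∈ US u v B ↔ B.adj u x = true := by rw [mem_US]; simp [hx]
  have e2 : y ∈ US u v B ↔ B.adj u y = true := by rw [mem_US]; simp [hy]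
  rw [e1, e2]
  have n1 := (mem_PS.1 hx).2.2
  have n2 := (mem_PS.1 hy).2.2
  unfold Alt
  revert n1 n2
  generalize B.adj u x = p
  generalize B.adj u y = q
  generalize B.adj v x = r
  generalize B.adj v y = s
  revert p q r s
  decide

theorem US_tau {u v x y : V} (huv : u ≠ v) {B : Om d} (hx : x ∈ PS u v B)
    (hy : y ∈ PS u v B) (hxy : x ≠ y) : US u v (tau u v x y B) = sws x y (US u v B) := by
  have hd := dist4_of_PS huv hx hy hxy
  by_cases hA : Alt u v x y B
  · have hiff := (alt_iff hx hy).1 hA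
    have e1 : x ∈ US u v B ↔ B.adj u x = true := by rw [mem_US]; simp [hx]
    have e2 : y ∈ US u v B ↔ B.adj u y = true := by rw [mem_US]; simp [hy]
    have hP : PS u v (tau u v x y B) = PS u v B := PS_congr huv (tau_prs hd B).1
    ext z
    rw [gj_mem_sws, mem_US, hP, tau_adj hd hA]
    by_cases hzx : z = x
    · subst hzx
      rw [Equiv.swap_apply_left]
      have : flipAdj u v z y B.adj u z = !B.adj u z := by simp [flipAdj]
      rw [this]
      rw [e1, e2] at hiff
      rw [e2]
      simp only [hx, true_and]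
      revert hiff
      generalize B.adj u z = p
      generalize B.adj u y = q
      revert p q; decide
    · by_cases hzy : z = y
      · subst hzy
        rw [Equiv.swap_apply_right]
        have : flipAdj u v x z B.adj u z = !B.adj u z := by simp [flipAdj]
        rw [this]
        rw [e1, e2] at hiff
        rw [e1]
        simp only [hy, true_and]
        revert hiff
        generalize B.adj u x = p
        generalize B.adj u z = q
        revert p q; decide
      · rw [Equiv.swap_apply_of_ne_of_ne hzx hzy, mem_US]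
        have hu1 : ¬ (u = x) := fun h => (mem_PS.1 hx).1 h.symm
        have hu2 : ¬ (u = y) := fun h => (mem_PS.1 hy).1 h.symm
        have : flipAdj u v x y B.adj u z = B.adj u z := by
          unfold flipAdj
          rw [if_neg]
          rintro (⟨_, h | h⟩ | ⟨h | h, _⟩)
          exacts [hzx h, hzy h, hu1 h, hu2 h]
        rw [this]
  · have hiff : x ∈ US u v B ↔ y ∈ US u v B := by
      by_contra hc
      exact hA ((alt_iff hx hy).2 hc)
    rw [tau_not hA, gj_sws_of_iff hiff]

theorem tau_of_not_dist {u v x y : V} {B : Om d} (h : ¬ Dist4 u v x y) :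
    tau u v x y B = B := by
  unfold tau
  rw [dif_neg (fun h' => h h'.1)]

/-- the switch of `mkOm A U` -/
theorem tau_mkOm {u v x y : V} (huv : u ≠ v) (A : Om d) {U : Finset V}
    (hU : U ∈ (PS u v A).powersetCard (US u v A).card) (hx : x ∈ PS u v A)
    (hy : y ∈ PS u v A) : tau u v x y (mkOm u v A U) = mkOm u v A (sws x y U) := by
  by_cases hxy : x = y
  · subst hxy
    rw [gj_sws_self, tau_of_not_dist]
    rintro ⟨_, _, _, _, _, h⟩
    exact h rfl
  · have hpr := mkOm_pr huv A hU
    have hP : PS u v (mkOm u v A U) = PS u v A := PS_congr huv hpr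
    have hx' : x ∈ PS u v (mkOm u v A U) := by rw [hP]; exact hx
    have hy' : y ∈ PS u v (mkOm u v A U) := by rw [hP]; exact hy
    have hd := dist4_of_PS huv hx hy hxy
    have h1 := US_tau huv hx' hy' hxy
    rw [US_mkOm huv A hU] at h1
    have h2 : pr u v A (tau u v x y (mkOm u v A U)) := pr_trans hpr (tau_prs hd _).1
    rw [← h1, mkOm_US huv h2]

theorem tau_not_PS {u v x y : V} (huv : u ≠ v) {A B : Om d} (hB : pr u v A B)
    (h : ¬ (x ∈ PS u v A ∧ y ∈ PS u v A)) : tau u v x y B = B := by
  by_cases hd : Dist4 u v x y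
  · apply tau_not
    intro hA
    have := alt_mem_PS hd hA
    rw [PS_congr huv hB] at this
    exact h this
  · exact tau_of_not_dist hd

theorem sum_Mq {u v : V} (huv : u ≠ v) (A : Om d) (f : Om d → ℝ) :
    ∑ B ∈ cls (pr u v) A, ∑ x, ∑ y, Mq u v x y f B * Mq u v x y f B =
      (1 / 4) * ∑ x ∈ PS u v A, ∑ y ∈ PS u v A,
        ∑ U ∈ (PS u v A).powersetCard (US u v A).card,
          (f (mkOm u v A U) - f (mkOm u v A (sws x y U))) ^ 2 := by
  rw [sum_cls huv]
  have key : ∀ U ∈ (PS u v A).powersetCard (US u v A).card,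
      ∑ x, ∑ y, Mq u v x y f (mkOm u v A U) * Mq u v x y f (mkOm u v A U) =
      ∑ x ∈ PS u v A, ∑ y ∈ PS u v A,
        (1 / 4) * (f (mkOm u v A U) - f (mkOm u v A (sws x y U))) ^ 2 := by
    intro U hU
    have hpr := mkOm_pr huv A hU
    rw [← sum_subset (subset_univ (PS u v A))]
    · refine sum_congr rfl fun x hx => ?_
      rw [← sum_subset (subset_univ (PS u v A))]
      · refine sum_congr rfl fun y hy => ?_
        unfold Mq
        rw [tau_mkOm huv A hU hx hy]
        ring
      · intro y _ hy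
        unfold Mq
        rw [tau_not_PS huv hpr (fun h => hy h.2)]
        ring
    · intro x _ hx
      refine sum_eq_zero fun y _ => ?_
      unfold Mq
      rw [tau_not_PS huv hpr (fun h => hx h.1)]
      ring
  rw [sum_congr rfl key, sum_comm, mul_sum]
  refine sum_congr rfl fun x _ => ?_
  rw [sum_comm, mul_sum]
  refine sum_congr rfl fun y _ => ?_
  rw [mul_sum]

/-- deviation from the class average -/
noncomputable def dev (u v : V) (A : Om d) (f : Om d → ℝ) (U : Finset V) : ℝ :=
  f (mkOm u v A U) - avg (pr u v) f A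

theorem sum_dev {u v : V} (huv : u ≠ v) (A : Om d) (f : Om d → ℝ) :
    ∑ U ∈ (PS u v A).powersetCard (US u v A).card, dev u v A f U = 0 := by
  have h1 := card_mul_avg (pr_equiv u v) f A
  have h2 := sum_cls huv A (fun _ => (1 : ℝ))
  simp only [sum_const, nsmul_eq_mul, mul_one] at h2
  rw [sum_cls huv] at h1
  unfold dev
  rw [sum_sub_distrib, sum_const, nsmul_eq_mul, ← h2, h1, sub_self]

theorem sum_Lp {u v : V} (huv : u ≠ v) (A : Om d) (f : Om d → ℝ) :
    ∑ B ∈ cls (pr u v) A, Lp u v f B * Lp u v f B =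
      ∑ U ∈ (PS u v A).powersetCard (US u v A).card, dev u v A f U ^ 2 := by
  rw [sum_cls huv]
  refine sum_congr rfl fun U hU => ?_
  unfold Lp dev
  rw [← avg_congr (pr_equiv u v) f (mkOm_pr huv A hU)]
  ring

theorem sum_Mq' {u v : V} (huv : u ≠ v) (A : Om d) (f : Om d → ℝ) :
    ∑ B ∈ cls (pr u v) A, ∑ x, ∑ y, Mq u v x y f B * Mq u v x y f B =
      (1 / 4) * ∑ x ∈ PS u v A, ∑ y ∈ PS u v A,
        ∑ U ∈ (PS u v A).powersetCard (US u v A).card,
          (dev u v A f U - dev u v A f (sws x y U)) ^ 2 := by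
  rw [sum_Mq huv]
  congr 1
  refine sum_congr rfl fun x _ => sum_congr rfl fun y _ => sum_congr rfl fun U _ => ?_
  unfold dev
  ring

/-- the classes of `prs` at alternating elements -/
theorem sum_cls_prs {u v x y : V} (huv : u ≠ v) {A B : Om d} (hB : pr u v A B)
    (hd : Dist4 u v x y) (hA : Alt u v x y B) (F : Om d → ℝ) :
    ∑ C ∈ cls (prs u v x y) B, F C =
      ∑ U ∈ sep (PS u v A) (US u v A).card x y, F (mkOm u v A U) := by
  have hxy := alt_mem_PS hd hA
  have hPB := PS_congr huv hB
  have hiffB := (alt_iff hxy.1 hxy.2).1 hA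
  refine sum_nbij' (US u v) (mkOm u v A) ?_ ?_ ?_ ?_ ?_
  · intro C hC
    have hC' := mem_cls.1 hC
    have hAC : pr u v A C := pr_trans hB hC'.1
    unfold sep
    rw [mem_filter]
    refine ⟨US_mem_powersetCard huv hAC, ?_⟩
    have hPC : PS u v C = PS u v B := PS_congr huv hC'.1
    have hxC : x ∈ PS u v C := by rw [hPC]; exact hxy.1
    have hyC : y ∈ PS u v C := by rw [hPC]; exact hxy.2
    rw [← alt_iff hxC hyC]
    obtain ⟨k1, k2, k3⟩ := hA
    unfold Alt
    rcases hC'.2 with h | h
    · rw [(h u).1, (h u).2, (h v).1, (h v).2]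
      exact ⟨k1, k2, k3⟩
    · have e1 := h u
      have e2 := h v
      rw [Equiv.swap_apply_left] at e1
      rw [Equiv.swap_apply_right] at e2
      rw [e1.1, e1.2, e2.1, e2.2]
      refine ⟨k2.symm, k1.symm, ?_⟩
      rw [← k1, ← k2]
      exact k3.symm
  · intro U hU
    unfold sep at hU
    rw [mem_filter] at hU
    obtain ⟨hU, hsep⟩ := hU
    rw [mem_cls]
    set C := mkOm u v A U with hC
    have hAC : pr u v A C := mkOm_pr huv A hU
    have hBC : pr u v B C := pr_trans (pr_symm hB) hAC
    refine ⟨hBC, ?_⟩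
    have hUC : US u v C = U := US_mkOm huv A hU
    have hPC : PS u v C = PS u v B := PS_congr huv hBC
    have hxC : x ∈ PS u v C := by rw [hPC]; exact hxy.1
    have hyC : y ∈ PS u v C := by rw [hPC]; exact hxy.2
    have hAltC : Alt u v x y C := by rw [alt_iff hxC hyC, hUC]; exact hsep
    obtain ⟨h1, h2, h3, h4, h5, h6⟩ := hd
    have hoff : ∀ a, a ≠ u → a ≠ v → C.adj a x = B.adj a x ∧ C.adj a y = B.adj a y := by
      intro a hu hv
      have ha : ¬ (a = u ∨ a = v) := by push Not; exact ⟨hu, hv⟩
      have hxx : ¬ (x = u ∨ x = v) := by push Not; exact ⟨h2.symm, h4.symm⟩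
      have hyy : ¬ (y = u ∨ y = v) := by push Not; exact ⟨h3.symm, h5.symm⟩
      exact ⟨(hBC a x (by tauto)).symm, (hBC a y (by tauto)).symm⟩
    obtain ⟨k1, k2, k3⟩ := hA
    obtain ⟨l1, l2, l3⟩ := hAltC
    by_cases hsame : C.adj u x = B.adj u x
    · left
      have e2 : C.adj u y = B.adj u y := by
        revert k3 l3 hsame
        generalize B.adj u x = p
        generalize B.adj u y = q
        generalize C.adj u x = r
        generalize C.adj u y = s
        revert p q r s
        decide
      intro a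
      by_cases ha : a = u
      · rw [ha]; exact ⟨hsame, e2⟩
      · by_cases ha' : a = v
        · rw [ha', ← l1, ← l2, ← k1, ← k2]; exact ⟨e2, hsame⟩
        · exact hoff a ha ha'
    · right
      have e1 : C.adj u x = B.adj u y := by
        revert k3 l3 hsame
        generalize B.adj u x = p
        generalize B.adj u y = q
        generalize C.adj u x = r
        generalize C.adj u y = s
        revert p q r s
        decide
      have e2 : C.adj u y = B.adj u x := by
        revert k3 l3 hsame
        generalize B.adj u x = p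
        generalize B.adj u y = q
        generalize C.adj u x = r
        generalize C.adj u y = s
        revert p q r s
        decide
      intro a
      by_cases ha : a = u
      · rw [ha, Equiv.swap_apply_left, ← k1, ← k2]; exact ⟨e1, e2⟩
      · by_cases ha' : a = v
        · rw [ha', Equiv.swap_apply_right, ← l1, ← l2]; exact ⟨e2, e1⟩
        · rw [Equiv.swap_apply_of_ne_of_ne ha ha']
          exact hoff a ha ha'
  · intro C hC
    exact mkOm_US huv (pr_trans hB (mem_cls.1 hC).1)
  · intro U hU
    unfold sep at hU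
    rw [mem_filter] at hU
    exact US_mkOm huv A hU.1
  · intro C hC
    rw [mkOm_US huv (pr_trans hB (mem_cls.1 hC).1)]

theorem Kq_eq {u v x y : V} (huv : u ≠ v) {A B : Om d} (hB : pr u v A B)
    (hd : Dist4 u v x y) (hA : Alt u v x y B) (f : Om d → ℝ) :
    Kq u v x y f B = (∑ U ∈ sep (PS u v A) (US u v A).card x y, dev u v A f U) /
      ((sep (PS u v A) (US u v A).card x y).card : ℝ) := by
  have h1 := sum_cls_prs huv hB hd hA f
  have h2 := sum_cls_prs huv hB hd hA (fun _ => (1 : ℝ))
  simp only [sum_const, nsmul_eq_mul, mul_one] at h2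
  have hpos : (0 : ℝ) < ((cls (prs u v x y) B).card : ℝ) := by
    exact_mod_cast cls_card_pos (prs_equiv hd) B
  rw [h2] at hpos
  unfold Kq
  rw [← avg_congr (pr_equiv u v) f hB]
  unfold avg at *
  rw [h1, h2]
  unfold dev
  rw [sum_sub_distrib, sum_const, nsmul_eq_mul]
  unfold avg
  field_simp


/-- the integrand on the left of `graph_sep` -/
noncomputable def Gs (u v : V) (f : Om d → ℝ) (B : Om d) : ℝ :=
  ∑ x, ∑ y, if Dist4 u v x y then (if Alt u v x y B then Kq u v x y f B ^ 2 else 0) else 0

theorem Gs_mkOm {u v : V} (huv : u ≠ v) (A : Om d) (f : Om d → ℝ) {U : Finset V}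
    (hU : U ∈ (PS u v A).powersetCard (US u v A).card) :
    Gs u v f (mkOm u v A U) = ∑ x ∈ PS u v A, ∑ y ∈ (PS u v A).erase x,
      if ¬ (x ∈ U ↔ y ∈ U) then
        ((∑ U ∈ sep (PS u v A) (US u v A).card x y, dev u v A f U) /
          ((sep (PS u v A) (US u v A).card x y).card : ℝ)) ^ 2 else 0 := by
  have hpr := mkOm_pr huv A hU
  have hP : PS u v (mkOm u v A U) = PS u v A := PS_congr huv hpr
  unfold Gs
  rw [← sum_subset (subset_univ (PS u v A))]
  · refine sum_congr rfl fun x hx => ?_
    rw [← sum_subset (subset_univ ((PS u v A).erase x))]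
    · refine sum_congr rfl fun y hy => ?_
      have hy' := mem_of_mem_erase hy
      have hxy : x ≠ y := (ne_of_mem_erase hy).symm
      have hd := dist4_of_PS huv hx hy' hxy
      rw [if_pos hd]
      have hx1 : x ∈ PS u v (mkOm u v A U) := by rw [hP]; exact hx
      have hy1 : y ∈ PS u v (mkOm u v A U) := by rw [hP]; exact hy'
      have hiff := alt_iff hx1 hy1
      rw [US_mkOm huv A hU] at hiff
      by_cases hA : Alt u v x y (mkOm u v A U)
      · rw [if_pos hA, if_pos (hiff.1 hA), Kq_eq huv hpr hd hA]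
      · rw [if_neg hA, if_neg (fun h => hA (hiff.2 h))]
    · intro y _ hy
      by_cases hd : Dist4 u v x y
      · rw [if_pos hd, if_neg]
        intro hA
        have := alt_mem_PS hd hA
        rw [hP] at this
        apply hy
        rw [mem_erase]
        exact ⟨hd.2.2.2.2.2.symm, this.2⟩
      · rw [if_neg hd]
  · intro x _ hx
    refine sum_eq_zero fun y _ => ?_
    by_cases hd : Dist4 u v x y
    · rw [if_pos hd, if_neg]
      intro hA
      have := alt_mem_PS hd hA
      rw [hP] at this
      exact hx this.1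
    · rw [if_neg hd]

theorem sum_Gs {u v : V} (huv : u ≠ v) (A : Om d) (f : Om d → ℝ) :
    ∑ B ∈ cls (pr u v) A, Gs u v f B = ∑ x ∈ PS u v A, ∑ y ∈ (PS u v A).erase x,
      (∑ U ∈ sep (PS u v A) (US u v A).card x y, dev u v A f U) ^ 2 /
        ((sep (PS u v A) (US u v A).card x y).card : ℝ) := by
  rw [sum_cls huv, sum_congr rfl (fun U hU => Gs_mkOm huv A f hU), sum_comm]
  refine sum_congr rfl fun x _ => ?_
  rw [sum_comm]
  refine sum_congr rfl fun y _ => ?_
  rw [← sum_filter, sum_const, nsmul_eq_mul]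
  have h : ((PS u v A).powersetCard (US u v A).card).filter (fun U => ¬ (x ∈ U ↔ y ∈ U)) =
    sep (PS u v A) (US u v A).card x y := rfl
  rw [h]
  rcases Nat.eq_zero_or_pos (sep (PS u v A) (US u v A).card x y).card with h0 | h0
  · rw [h0]; simp
  · have : ((sep (PS u v A) (US u v A).card x y).card : ℝ) ≠ 0 := by
      exact_mod_cast h0.ne'
    field_simp

theorem small_case {α : Type*} (P : Finset α) (s : ℕ) (f : Finset α → ℝ)
    (h0 : ∑ U ∈ P.powersetCard s, f U = 0) (hP : P.card < 2) :
    ∑ U ∈ P.powersetCard s, f U ^ 2 = 0 := by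
  have hc : (P.powersetCard s).card ≤ 1 := by
    rw [card_powersetCard]
    interval_cases P.card
    · rcases s with _ | s <;> simp
    · rcases s with _ | _ | s
      · simp
      · simp
      · simp [Nat.choose_eq_zero_of_lt]
  rcases Finset.card_le_one_iff_subset_singleton.1 hc with ⟨U, hU⟩
  rcases Finset.subset_singleton_iff.1 hU with h | h
  · rw [h]; simp
  · rw [h] at h0 ⊢
    rw [sum_singleton] at h0 ⊢
    rw [h0]; ring


theorem graph_poincare {u v : V} (huv : u ≠ v) (f : Om d → ℝ) :
    ip (Lp u v f) (Lp u v f) ≤ (1 / 2) * ∑ x, ∑ y, ip (Mq u v x y f) (Mq u v x y f) := by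
  have hR : (1 / 2) * ∑ x, ∑ y, ip (Mq u v x y f) (Mq u v x y f) =
      ∑ B, (1 / 2) * ∑ x, ∑ y, Mq u v x y f B * Mq u v x y f B := by
    rw [← mul_sum]
    congr 1
    unfold ip
    rw [sum_comm]
    have : ∀ x : V, ∑ y, ∑ B, Mq u v x y f B * Mq u v x y f B =
        ∑ B, ∑ y, Mq u v x y f B * Mq u v x y f B := fun x => sum_comm
    rw [sum_comm]
    simp only [this]
    rw [sum_comm]
  rw [hR]
  unfold ip
  refine sum_le_sum_of_cls (pr_equiv u v) fun A => ?_
  rw [← mul_sum, sum_Lp huv, sum_Mq' huv]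
  have h0 := sum_dev huv A f
  have hJ := johnson_poincare (PS u v A) (US u v A).card (dev u v A f) h0
  have hpos : 0 ≤ ∑ x ∈ PS u v A, ∑ y ∈ PS u v A,
      ∑ U ∈ (PS u v A).powersetCard (US u v A).card,
        (dev u v A f U - dev u v A f (sws x y U)) ^ 2 :=
    sum_nonneg fun x _ => sum_nonneg fun y _ => sum_nonneg fun U _ => sq_nonneg _
  by_cases hc : (PS u v A).card < 2
  · rw [small_case _ _ _ h0 hc]
    positivity
  · push Not at hc
    have hc' : (2 : ℝ) ≤ ((PS u v A).card : ℝ) := by exact_mod_cast hc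
    have hs : 0 ≤ ∑ U ∈ (PS u v A).powersetCard (US u v A).card, dev u v A f U ^ 2 :=
      sum_nonneg fun U _ => sq_nonneg _
    nlinarith

theorem graph_sep {u v : V} (huv : u ≠ v) (f : Om d → ℝ) :
    (∑ x, ∑ y, if Dist4 u v x y then
        ∑ A ∈ univ.filter (fun A => Alt u v x y A), Kq u v x y f A ^ 2 else 0)
      ≤ ∑ x, ∑ y, ip (Mq u v x y f) (Mq u v x y f) := by
  have hL : (∑ x, ∑ y, if Dist4 u v x y then
        ∑ A ∈ univ.filter (fun A => Alt u v x y A), Kq u v x y f A ^ 2 else 0) =
      ∑ B, Gs u v f B := by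
    unfold Gs
    rw [sum_comm]
    have e1 : ∀ x y : V, (if Dist4 u v x y then
        ∑ A ∈ univ.filter (fun A => Alt u v x y A), Kq u v x y f A ^ 2 else 0) =
        ∑ B, if Dist4 u v x y then (if Alt u v x y B then Kq u v x y f B ^ 2 else 0) else 0 := by
      intro x y
      by_cases hd : Dist4 u v x y
      · simp only [hd, if_true]
        rw [sum_filter]
      · simp only [hd, if_false, sum_const_zero]
    simp only [e1]
    rw [sum_comm]
    have e2 : ∀ x : V, ∑ y, ∑ B : Om d,
        (if Dist4 u v x y then (if Alt u v x y B then Kq u v x y f B ^ 2 else 0) else 0) =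
        ∑ B : Om d, ∑ y,
        (if Dist4 u v x y then (if Alt u v x y B then Kq u v x y f B ^ 2 else 0) else 0) :=
      fun x => sum_comm
    simp only [e2]
    rw [sum_comm]
  have hR : ∑ x, ∑ y, ip (Mq u v x y f) (Mq u v x y f) =
      ∑ B, ∑ x, ∑ y, Mq u v x y f B * Mq u v x y f B := by
    unfold ip
    rw [sum_comm]
    have : ∀ x : V, ∑ y, ∑ B, Mq u v x y f B * Mq u v x y f B =
        ∑ B, ∑ y, Mq u v x y f B * Mq u v x y f B := fun x => sum_comm
    rw [sum_comm]
    simp only [this]
    rw [sum_comm]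
  rw [hL, hR]
  refine sum_le_sum_of_cls (pr_equiv u v) fun A => ?_
  rw [sum_Gs huv, sum_Mq' huv]
  have h0 := sum_dev huv A f
  have hJ := johnson_poincare (PS u v A) (US u v A).card (dev u v A f) h0
  have hS := johnson_sep (PS u v A) (US u v A).card (dev u v A f) h0
  linarith

end GJ

end Vale.Agent.KTV
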