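import Mathlib

open Finset
open scoped Classical

namespace Vale.Agent.KTV

section Gen

variable {Ω ι : Type*} [Fintype Ω]

/-- lazy average of the maps `σ z`, `z ∈ T` -/
noncomputable def Pop (T : Finset ι) (σ : ι → Ω → Ω) (f : Ω → ℝ) (x : Ω) : ℝ :=
  3 / 4 * f x + 1 / 4 * ((1 / (T.card : ℝ)) * ∑ z ∈ T, f (σ z x))

theorem sum_comp_inv {τ : Ω → Ω} (hτ : Function.Involutive τ) (g : Ω → ℝ) :
    ∑ x, g (τ x) = ∑ x, g x :=
  Equiv.sum_comp (Function.Involutive.toPerm τ hτ) g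

theorem sum_Pop {T : Finset ι} (hT : T.Nonempty) {σ : ι → Ω → Ω}
    (hσ : ∀ z ∈ T, Function.Involutive (σ z)) (f : Ω → ℝ) :
    ∑ x, Pop T σ f x = ∑ x, f x := by
  have hc : (T.card : ℝ) ≠ 0 := by
    have := card_pos.2 hT; positivity
  unfold Pop
  rw [sum_add_distrib, ← mul_sum, ← mul_sum, ← mul_sum, sum_comm,
    sum_congr rfl (fun z hz => sum_comp_inv (hσ z hz) f), sum_const, nsmul_eq_mul]
  field_simp
  ring

theorem Pop_sq_le {T : Finset ι} (hT : T.Nonempty) {σ : ι → Ω → Ω}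
    (hσ : ∀ z ∈ T, Function.Involutive (σ z)) {γ : ℝ} (hγ : 0 ≤ γ) (f : Ω → ℝ)
    (hgap : 8 * (T.card : ℝ) * γ * ∑ x, f x ^ 2 ≤ ∑ z ∈ T, ∑ x, (f x - f (σ z x)) ^ 2) :
    ∑ x, Pop T σ f x ^ 2 ≤ (1 - γ) * ∑ x, f x ^ 2 := by
  have hc : 0 < (T.card : ℝ) := by
    have := card_pos.2 hT; positivity
  set N2 := ∑ x, f x ^ 2 with hN2
  have hN20 : 0 ≤ N2 := sum_nonneg (fun x _ => sq_nonneg _)
  set B := ∑ z ∈ T, ∑ x, f x * f (σ z x) with hB
  have h1 : ∑ z ∈ T, ∑ x, (f x - f (σ z x)) ^ 2 = 2 * (T.card : ℝ) * N2 - 2 * B := by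
    have : ∀ z ∈ T, ∑ x, (f x - f (σ z x)) ^ 2 = 2 * N2 - 2 * ∑ x, f x * f (σ z x) := by
      intro z hz
      have e1 : ∑ x, (f x - f (σ z x)) ^ 2
          = ∑ x, f x ^ 2 + ∑ x, f (σ z x) ^ 2 - 2 * ∑ x, f x * f (σ z x) := by
        rw [mul_sum, ← sum_add_distrib, ← sum_sub_distrib]
        exact sum_congr rfl (fun x _ => by ring)
      rw [e1, sum_comp_inv (hσ z hz) (fun y => f y ^ 2), ← hN2]
      ring
    rw [sum_congr rfl this, sum_sub_distrib, sum_const, nsmul_eq_mul, ← mul_sum, ← hB]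
    ring
  rw [h1] at hgap
  have h2 : ∑ x, Pop T σ f x ^ 2 ≤ 9 / 16 * N2 + 6 / 16 * ((1 / (T.card : ℝ)) * B)
      + 1 / 16 * N2 := by
    have e2 : ∀ x, Pop T σ f x ^ 2 ≤ 9 / 16 * f x ^ 2
        + 6 / 16 * ((1 / (T.card : ℝ)) * ∑ z ∈ T, f x * f (σ z x))
        + 1 / 16 * ((1 / (T.card : ℝ)) * ∑ z ∈ T, f (σ z x) ^ 2) := by
      intro x
      have h3 := sq_sum_le_card_mul_sum_sq (s := T) (f := fun z => f (σ z x))
      have h4 : ((1 / (T.card : ℝ)) * ∑ z ∈ T, f (σ z x)) ^ 2 ≤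
          (1 / (T.card : ℝ)) * ∑ z ∈ T, f (σ z x) ^ 2 := by
        rw [mul_pow]
        calc (1 / (T.card : ℝ)) ^ 2 * (∑ z ∈ T, f (σ z x)) ^ 2
            ≤ (1 / (T.card : ℝ)) ^ 2 * ((T.card : ℝ) * ∑ z ∈ T, f (σ z x) ^ 2) := by gcongr
          _ = (1 / (T.card : ℝ)) * ∑ z ∈ T, f (σ z x) ^ 2 := by field_simp
      unfold Pop
      rw [← mul_sum T _ (f x)]
      nlinarith
    calc ∑ x, Pop T σ f x ^ 2 ≤ ∑ x, (9 / 16 * f x ^ 2
        + 6 / 16 * ((1 / (T.card : ℝ)) * ∑ z ∈ T, f x * f (σ z x))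
        + 1 / 16 * ((1 / (T.card : ℝ)) * ∑ z ∈ T, f (σ z x) ^ 2)) :=
          sum_le_sum (fun x _ => e2 x)
      _ = 9 / 16 * N2 + 6 / 16 * ((1 / (T.card : ℝ)) * B) + 1 / 16 * N2 := by
        rw [sum_add_distrib, sum_add_distrib, ← mul_sum, ← mul_sum, ← mul_sum, ← mul_sum,
          ← mul_sum, sum_comm (s := univ) (t := T), sum_comm (s := univ) (t := T),
          sum_congr rfl (fun z hz => sum_comp_inv (hσ z hz) (fun y => f y ^ 2)), sum_const,
          nsmul_eq_mul, ← hB, ← hN2]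
        field_simp
  have h5 : (1 / (T.card : ℝ)) * B ≤ (1 - 4 * γ) * N2 := by
    rw [one_div, inv_mul_le_iff₀ hc]
    nlinarith
  nlinarith [mul_nonneg hγ hN20]

theorem pow_row {T : Finset ι} {σ : ι → Ω → Ω}
    (hσ : ∀ z ∈ T, Function.Involutive (σ z)) {P : Matrix Ω Ω ℝ}
    (hP : ∀ G H, P G H = 3 / 4 * (if G = H then 1 else 0) +
      1 / 4 * ((1 / (T.card : ℝ)) * ∑ z ∈ T, if σ z G = H then 1 else 0)) (t : ℕ) (G H : Ω) :
    (P ^ (t + 1)) G H = Pop T σ (fun K => (P ^ t) G K) H := by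
  rw [pow_succ, Matrix.mul_apply]
  unfold Pop
  simp only [hP, mul_add, sum_add_distrib]
  congr 1
  · have : ∀ K, (P ^ t) G K * (3 / 4 * (if K = H then (1 : ℝ) else 0)) =
        if K = H then 3 / 4 * (P ^ t) G K else 0 := by
      intro K; split_ifs <;> ring
    rw [sum_congr rfl (fun K _ => this K), sum_ite_eq' univ H, if_pos (mem_univ H)]
  · have e1 : ∀ K, (P ^ t) G K * (1 / 4 * (1 / (T.card : ℝ) *
        ∑ z ∈ T, if σ z K = H then (1 : ℝ) else 0)) =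
        1 / 4 * (1 / (T.card : ℝ) * ∑ z ∈ T, (P ^ t) G K * if σ z K = H then (1 : ℝ) else 0) := by
      intro K
      rw [← mul_sum]
      ring
    rw [sum_congr rfl (fun K _ => e1 K), ← mul_sum, ← mul_sum, sum_comm]
    congr 2
    refine sum_congr rfl (fun z hz => ?_)
    have e2 : ∀ K, (P ^ t) G K * (if σ z K = H then (1 : ℝ) else 0) =
        if K = σ z H then (P ^ t) G K else 0 := by
      intro K
      have : σ z K = H ↔ K = σ z H := by
        constructor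
        · rintro rfl; rw [hσ z hz]
        · rintro rfl; rw [hσ z hz]
      simp only [this]
      split_ifs <;> ring
    rw [sum_congr rfl (fun K _ => e2 K), sum_ite_eq' univ (σ z H), if_pos (mem_univ _)]

theorem l2_decay [Nonempty Ω] {T : Finset ι} (hT : T.Nonempty) {σ : ι → Ω → Ω}
    (hσ : ∀ z ∈ T, Function.Involutive (σ z)) {P : Matrix Ω Ω ℝ}
    (hP : ∀ G H, P G H = 3 / 4 * (if G = H then 1 else 0) +
      1 / 4 * ((1 / (T.card : ℝ)) * ∑ z ∈ T, if σ z G = H then 1 else 0))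
    {γ : ℝ} (hγ : 0 ≤ γ) (hγ1 : γ ≤ 1)
    (hgap : ∀ f : Ω → ℝ, ∑ x, f x = 0 →
      8 * (T.card : ℝ) * γ * ∑ x, f x ^ 2 ≤ ∑ z ∈ T, ∑ x, (f x - f (σ z x)) ^ 2)
    (G : Ω) (t : ℕ) :
    (∑ H, ((P ^ t) G H - 1 / (Fintype.card Ω : ℝ)) = 0) ∧
    ∑ H, ((P ^ t) G H - 1 / (Fintype.card Ω : ℝ)) ^ 2 ≤ (1 - γ) ^ t := by
  have hc : (T.card : ℝ) ≠ 0 := by
    have := card_pos.2 hT; positivity
  have hN : (0 : ℝ) < Fintype.card Ω := by
    have := Fintype.card_pos (α := Ω); positivity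
  induction t with
  | zero =>
    have h1 : ∀ H, (P ^ 0) G H = if G = H then (1 : ℝ) else 0 := by
      intro H; rw [pow_zero, Matrix.one_apply]
    simp only [h1]
    constructor
    · rw [sum_sub_distrib, sum_ite_eq univ G, if_pos (mem_univ G), sum_const, card_univ,
        nsmul_eq_mul]
      field_simp
      ring
    · have h2 : ∀ H, ((if G = H then (1 : ℝ) else 0) - 1 / (Fintype.card Ω : ℝ)) ^ 2 =
          (if G = H then (1 - 2 / (Fintype.card Ω : ℝ)) else 0)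
            + (1 / (Fintype.card Ω : ℝ)) ^ 2 := by
        intro H; split_ifs <;> ring
      rw [sum_congr rfl (fun H _ => h2 H), sum_add_distrib, sum_ite_eq univ G,
        if_pos (mem_univ G), sum_const, card_univ, nsmul_eq_mul, pow_zero]
      have h3 : (Fintype.card Ω : ℝ) * (1 / (Fintype.card Ω : ℝ)) ^ 2
          = 1 / (Fintype.card Ω : ℝ) := by field_simp
      rw [h3]
      have h4 : 0 ≤ 1 / (Fintype.card Ω : ℝ) := by positivity
      have h5 : 2 / (Fintype.card Ω : ℝ) = 2 * (1 / (Fintype.card Ω : ℝ)) := by ring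
      rw [h5]
      linarith
  | succ t ih =>
    obtain ⟨ih1, ih2⟩ := ih
    have h1 : ∀ H, (P ^ (t + 1)) G H - 1 / (Fintype.card Ω : ℝ) =
        Pop T σ (fun K => (P ^ t) G K - 1 / (Fintype.card Ω : ℝ)) H := by
      intro H
      rw [pow_row hσ hP]
      unfold Pop
      rw [sum_sub_distrib, sum_const, nsmul_eq_mul]
      field_simp
      ring
    simp only [h1]
    constructor
    · rw [sum_Pop hT hσ, ih1]
    · refine (Pop_sq_le hT hσ hγ _ (hgap _ ih1)).trans ?_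
      rw [pow_succ, mul_comm]
      exact mul_le_mul_of_nonneg_right ih2 (by linarith)

theorem l1_small [Nonempty Ω] {T : Finset ι} (hT : T.Nonempty) {σ : ι → Ω → Ω}
    (hσ : ∀ z ∈ T, Function.Involutive (σ z)) {P : Matrix Ω Ω ℝ}
    (hP : ∀ G H, P G H = 3 / 4 * (if G = H then 1 else 0) +
      1 / 4 * ((1 / (T.card : ℝ)) * ∑ z ∈ T, if σ z G = H then 1 else 0))
    {γ : ℝ} (hγ : 0 ≤ γ) (hγ1 : γ ≤ 1)
    (hgap : ∀ f : Ω → ℝ, ∑ x, f x = 0 →
      8 * (T.card : ℝ) * γ * ∑ x, f x ^ 2 ≤ ∑ z ∈ T, ∑ x, (f x - f (σ z x)) ^ 2)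
    (G : Ω) (t : ℕ) (hsmall : (Fintype.card Ω : ℝ) * (1 - γ) ^ t ≤ 1 / 4) :
    (1 / 2) * ∑ H, |(P ^ t) G H - 1 / (Fintype.card Ω : ℝ)| ≤ 1 / 4 := by
  obtain ⟨-, h2⟩ := l2_decay hT hσ hP hγ hγ1 hgap G t
  have h3 := sq_sum_le_card_mul_sum_sq (s := (univ : Finset Ω))
    (f := fun H => |(P ^ t) G H - 1 / (Fintype.card Ω : ℝ)|)
  simp only [sq_abs, card_univ] at h3
  have h4 : (∑ H, |(P ^ t) G H - 1 / (Fintype.card Ω : ℝ)|) ^ 2 ≤ (1 / 2) ^ 2 := by
    calc _ ≤ _ := h3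
      _ ≤ (Fintype.card Ω : ℝ) * (1 - γ) ^ t := by gcongr
      _ ≤ 1 / 4 := hsmall
      _ = (1 / 2) ^ 2 := by norm_num
  have h5 := abs_le_of_sq_le_sq h4 (by norm_num)
  have h6 := (abs_le.1 h5).2
  linarith

end Gen

theorem numeric_small (n : ℕ) (hn : 4 ≤ n) (t : ℕ) (ht : n ^ 6 ≤ t) (N : ℕ)
    (hN : N ≤ 2 ^ (n ^ 2)) :
    (N : ℝ) * (1 - 1 / (12 * (n.choose 4 : ℝ))) ^ t ≤ 1 / 4 := by
  have hn' : (4 : ℝ) ≤ n := by exact_mod_cast hn
  have hch : 0 < n.choose 4 := Nat.choose_pos hn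
  have hch' : (1 : ℝ) ≤ n.choose 4 := by exact_mod_cast hch
  have hch0 : (0 : ℝ) < n.choose 4 := by linarith
  have hle : (n.choose 4 : ℝ) ≤ (n : ℝ) ^ 4 / 24 := by
    have := Nat.choose_le_pow_div (α := ℝ) 4 n
    norm_num [Nat.factorial] at this
    exact this
  set γ : ℝ := 1 / (12 * (n.choose 4 : ℝ)) with hγ
  have hγ0 : 0 < γ := by positivity
  have hγ1 : γ ≤ 1 := by
    rw [hγ, div_le_one (by positivity)]; linarith
  have h1 : (1 - γ) ^ t ≤ Real.exp (-(2 * (n : ℝ) ^ 2)) := by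
    calc (1 - γ) ^ t ≤ (Real.exp (-γ)) ^ t := by
          apply pow_le_pow_left₀ (by linarith)
          have := Real.add_one_le_exp (-γ)
          linarith
      _ = Real.exp (-(γ * t)) := by
          rw [← Real.exp_nat_mul]; ring_nf
      _ ≤ Real.exp (-(2 * (n : ℝ) ^ 2)) := by
          apply Real.exp_le_exp.2
          have ht' : (n : ℝ) ^ 6 ≤ t := by exact_mod_cast ht
          have h2 : 2 * (n : ℝ) ^ 2 ≤ γ * t := by
            rw [hγ, one_div, inv_mul_eq_div, le_div_iff₀ (by positivity)]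
            calc 2 * (n : ℝ) ^ 2 * (12 * (n.choose 4 : ℝ))
                ≤ 2 * (n : ℝ) ^ 2 * (12 * ((n : ℝ) ^ 4 / 24)) := by gcongr
              _ = (n : ℝ) ^ 6 := by ring
              _ ≤ t := ht'
          linarith
  have h2 : (N : ℝ) ≤ Real.exp ((n : ℝ) ^ 2) := by
    calc (N : ℝ) ≤ 2 ^ (n ^ 2) := by exact_mod_cast hN
      _ ≤ (Real.exp 1) ^ (n ^ 2) := by
          apply pow_le_pow_left₀ (by norm_num)
          have := Real.add_one_le_exp (1 : ℝ)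
          linarith
      _ = Real.exp ((n : ℝ) ^ 2) := by
          rw [← Real.exp_nat_mul]; push_cast; ring_nf
  calc (N : ℝ) * (1 - γ) ^ t ≤ Real.exp ((n : ℝ) ^ 2) * Real.exp (-(2 * (n : ℝ) ^ 2)) := by
        apply mul_le_mul h2 h1 (pow_nonneg (by linarith) _) (Real.exp_pos _).le
    _ = Real.exp (-((n : ℝ) ^ 2)) := by rw [← Real.exp_add]; ring_nf
    _ ≤ 1 / 4 := by
        have h3 : (16 : ℝ) ≤ (n : ℝ) ^ 2 := by nlinarith
        rw [Real.exp_neg, ← one_div]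
        apply one_div_le_one_div_of_le (by norm_num)
        have := Real.add_one_le_exp ((n : ℝ) ^ 2)
        linarith

end Vale.Agent.KTV
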