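import Vale.Agent.KTV.MixSwitch
import Vale.Agent.KTV.MixAnalysis

open Finset
open scoped Classical

namespace Vale.Agent.KTV

variable {n : ℕ} {d : Fin n → ℕ}

theorem Mt_comm (u x v y : Fin n) : Mt u x v y = Mt u x y v := by
  unfold Mt; rw [Sym2.eq_swap (a := v)]

theorem exists_four {S : Finset (Fin n)} (hS : S.card = 4) :
    ∃ a b c e : Fin n, Dist4 a b c e ∧ S = {a, b, c, e} := by
  obtain ⟨a, t, hat, rfl, ht⟩ := Finset.card_eq_succ.1 hS
  obtain ⟨b, c, e, hbc, hbe, hce, rfl⟩ := Finset.card_eq_three.1 ht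
  simp only [mem_insert, mem_singleton, not_or] at hat
  exact ⟨a, b, c, e, ⟨hat.1, hat.2.1, hat.2.2, hbc, hbe, hce⟩, rfl⟩

theorem Mt_ne {a b c e : Fin n} (h : Dist4 a b c e) : Mt a b c e ≠ Mt a c b e := by
  obtain ⟨d1, d2, d3, d4, d5, d6⟩ := h
  intro heq
  have : s(a, b) ∈ Mt a c b e := by rw [← heq]; simp [Mt]
  simp only [Mt, mem_insert, mem_singleton, Sym2.eq_iff] at this
  rcases this with (⟨-, h⟩ | ⟨h, -⟩) | (⟨h, -⟩ | ⟨h, -⟩)
  · exact d4 h
  · exact d2 h
  · exact d1 h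
  · exact d3 h

theorem card_pm {S : Finset (Fin n)} (hS : S.card = 4) : (perfectMatchings S).card = 3 := by
  obtain ⟨a, b, c, e, h, rfl⟩ := exists_four hS
  rw [pm_four h]
  obtain ⟨d1, d2, d3, d4, d5, d6⟩ := h
  rw [Finset.card_eq_three]
  refine ⟨Mt a b c e, Mt a c b e, Mt a e b c, Mt_ne ⟨d1, d2, d3, d4, d5, d6⟩, ?_, ?_, rfl⟩
  · rw [Mt_comm a b c e, Mt_comm a e b c, Mt_comm a b e c, Mt_comm a e c b]
    rw [Mt_comm a b c e]
    exact Mt_ne ⟨d1, d3, d2, d5, d4, d6.symm⟩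
  · rw [Mt_comm a c b e, Mt_comm a e b c]
    exact Mt_ne ⟨d2, d3, d1, d6, d4.symm, d5.symm⟩

theorem pair_class {S : Finset (Fin n)} (hS : S.card = 4) {F F' : Finset (Sym2 (Fin n))}
    (hF : F ∈ perfectMatchings S) (hF' : F' ∈ perfectMatchings S) (hne : F ≠ F') :
    ∃ u v x y : Fin n, Dist4 u v x y ∧ F = Mt u x v y ∧ F' = Mt u y v x := by
  obtain ⟨a, b, c, e, h, rfl⟩ := exists_four hS
  rw [pm_four h] at hF hF'
  obtain ⟨d1, d2, d3, d4, d5, d6⟩ := h
  simp only [mem_insert, mem_singleton] at hF hF'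
  rcases hF with rfl | rfl | rfl <;> rcases hF' with rfl | rfl | rfl
  · exact absurd rfl hne
  · exact ⟨a, e, b, c, ⟨d3, d1, d2, d5.symm, d6.symm, d4⟩, Mt_comm _ _ _ _, Mt_comm _ _ _ _⟩
  · exact ⟨a, c, b, e, ⟨d2, d1, d3, d4.symm, d6, d5⟩, rfl, Mt_comm _ _ _ _⟩
  · exact ⟨a, e, c, b, ⟨d3, d2, d1, d6.symm, d5.symm, d4.symm⟩, Mt_comm _ _ _ _, Mt_comm _ _ _ _⟩
  · exact absurd rfl hne
  · exact ⟨a, b, c, e, ⟨d1, d2, d3, d4, d5, d6⟩, rfl, rfl⟩
  · exact ⟨a, c, e, b, ⟨d2, d3, d1, d6, d4.symm, d5.symm⟩, Mt_comm _ _ _ _, rfl⟩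
  · exact ⟨a, b, e, c, ⟨d1, d3, d2, d5, d4, d6.symm⟩, rfl, rfl⟩
  · exact absurd rfl hne

/-- index type of the moves -/
abbrev Idx (n : ℕ) : Type :=
  (_ : Finset (Fin n)) × (Finset (Sym2 (Fin n)) × Finset (Sym2 (Fin n)))

/-- the set of moves -/
noncomputable def moves (n : ℕ) : Finset (Idx n) :=
  ((univ : Finset (Fin n)).powersetCard 4).sigma (fun S => (perfectMatchings S).offDiag)

theorem mem_moves {z : Idx n} : z ∈ moves n ↔
    z.1.card = 4 ∧ z.2.1 ∈ perfectMatchings z.1 ∧ z.2.2 ∈ perfectMatchings z.1 ∧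
      z.2.1 ≠ z.2.2 := by
  unfold moves
  rw [mem_sigma, mem_powersetCard, mem_offDiag]
  simp

theorem card_moves : (moves n).card = n.choose 4 * 6 := by
  unfold moves
  rw [card_sigma, sum_congr rfl (g := fun _ => 6), sum_const, card_powersetCard, card_univ,
    Fintype.card_fin, smul_eq_mul]
  intro S hS
  rw [mem_powersetCard] at hS
  rw [offDiag_card, card_pm hS.2]

theorem moves_class {z : Idx n} (hz : z ∈ moves n) :
    ∃ q : Fin n × Fin n × Fin n × Fin n, Dist4 q.1 q.2.1 q.2.2.1 q.2.2.2 ∧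
      z.2.1 = Mt q.1 q.2.2.1 q.2.1 q.2.2.2 ∧ z.2.2 = Mt q.1 q.2.2.2 q.2.1 q.2.2.1 := by
  rw [mem_moves] at hz
  obtain ⟨u, v, x, y, h1, h2, h3⟩ := pair_class hz.1 hz.2.1 hz.2.2.1 hz.2.2.2
  exact ⟨(u, v, x, y), h1, h2, h3⟩

/-- the involution attached to a move -/
noncomputable def sig (d : Fin n → ℕ) (z : Idx n) : Realization n d → Realization n d :=
  if h : z ∈ moves n then
    tauR (moves_class h).choose.1 (moves_class h).choose.2.1 (moves_class h).choose.2.2.1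
      (moves_class h).choose.2.2.2
  else id

theorem sig_invol {z : Idx n} (hz : z ∈ moves n) : Function.Involutive (sig d z) := by
  unfold sig
  rw [dif_pos hz]
  exact tauR_invol _ _ _ _

theorem sig_pair {z : Idx n} (hz : z ∈ moves n) (G H : Realization n d) :
    (if switchStep G.1 z.2.1 z.2.2 = H.1 then (1 : ℝ) else 0) +
      (if switchStep G.1 z.2.2 z.2.1 = H.1 then (1 : ℝ) else 0) =
    (if G = H then (1 : ℝ) else 0) + (if sig d z G = H then (1 : ℝ) else 0) := by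
  have hs := (moves_class hz).choose_spec
  unfold sig
  rw [dif_pos hz]
  generalize (moves_class hz).choose = q at hs
  obtain ⟨h1, h2, h3⟩ := hs
  rw [h2, h3]
  exact switch_pair h1 G H

theorem sum_offDiag_swap {α : Type*} (s : Finset α) (φ : α → α → ℝ) :
    ∑ p ∈ s.offDiag, φ p.1 p.2 = ∑ p ∈ s.offDiag, φ p.2 p.1 := by
  apply Finset.sum_nbij' Prod.swap Prod.swap
  · intro p hp
    rw [mem_offDiag] at hp ⊢
    exact ⟨hp.2.1, hp.1, hp.2.2.symm⟩
  · intro p hp
    rw [mem_offDiag] at hp ⊢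
    exact ⟨hp.2.1, hp.1, hp.2.2.symm⟩
  · intro p _; rfl
  · intro p _; rfl
  · intro p _; rfl

theorem switchMatrix_eq (hn : 4 ≤ n) (G H : Realization n d) :
    switchMatrix n d G H = 3 / 4 * (if G = H then 1 else 0) +
      1 / 4 * ((1 / ((moves n).card : ℝ)) * ∑ z ∈ moves n, if sig d z G = H then 1 else 0) := by
  have hC : (0 : ℝ) < n.choose 4 := by exact_mod_cast Nat.choose_pos hn
  set X : ℝ := ∑ z ∈ moves n, if switchStep G.1 z.2.1 z.2.2 = H.1 then (1 : ℝ) else 0 with hX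
  set Y : ℝ := ∑ z ∈ moves n, if sig d z G = H then (1 : ℝ) else 0 with hY
  have hX' : X = ∑ S ∈ (univ : Finset (Fin n)).powersetCard 4,
      ∑ FF ∈ (perfectMatchings S).offDiag,
        if switchStep G.1 FF.1 FF.2 = H.1 then (1 : ℝ) else 0 := by
    rw [hX]; unfold moves; rw [sum_sigma]
  have hX2 : X = ∑ z ∈ moves n, if switchStep G.1 z.2.2 z.2.1 = H.1 then (1 : ℝ) else 0 := by
    rw [hX']
    unfold moves
    rw [sum_sigma]
    refine sum_congr rfl (fun S _ => ?_)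
    exact sum_offDiag_swap _ (fun a b => if switchStep G.1 a b = H.1 then (1 : ℝ) else 0)
  have h2X : X + X = (moves n).card * (if G = H then (1 : ℝ) else 0) + Y := by
    nth_rw 2 [hX2]
    rw [hX, hY, ← sum_add_distrib, sum_congr rfl (fun z hz => sig_pair hz G H),
      sum_add_distrib, sum_const, nsmul_eq_mul]
  have hcard : ((moves n).card : ℝ) = n.choose 4 * 6 := by rw [card_moves]; push_cast; ring
  unfold switchMatrix
  have h1 : ∑ S ∈ (univ : Finset (Fin n)).powersetCard 4,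
      (1 / 6 : ℝ) * ∑ FF ∈ (perfectMatchings S).offDiag,
        (if switchStep G.1 FF.1 FF.2 = H.1 then (1 : ℝ) else 0) = 1 / 6 * X := by
    rw [hX', mul_sum]
  rw [h1, hcard]
  rw [hcard] at h2X
  have h3 : X = ((n.choose 4 : ℝ) * 6 * (if G = H then (1 : ℝ) else 0) + Y) / 2 := by linarith
  rw [h3]
  field_simp
  ring

/-- the move attached to a quadruple -/
noncomputable def zq (q : Fin n × Fin n × Fin n × Fin n) : Idx n :=
  ⟨{q.1, q.2.2.1, q.2.1, q.2.2.2}, (Mt q.1 q.2.2.1 q.2.1 q.2.2.2, Mt q.1 q.2.2.2 q.2.1 q.2.2.1)⟩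

theorem zq_mem {q : Fin n × Fin n × Fin n × Fin n} (h : Dist4 q.1 q.2.1 q.2.2.1 q.2.2.2) :
    zq q ∈ moves n := by
  obtain ⟨u, v, x, y⟩ := q
  rw [mem_moves]
  have h' := h
  obtain ⟨d1, d2, d3, d4, d5, d6⟩ := h
  simp only at d1 d2 d3 d4 d5 d6
  refine ⟨?_, ?_, ?_, ?_⟩
  · show ({u, x, v, y} : Finset (Fin n)).card = 4
    rw [card_insert_of_notMem, card_insert_of_notMem, card_insert_of_notMem, card_singleton]
    · simpa using d5
    · simp only [mem_insert, mem_singleton, not_or]; exact ⟨d4.symm, d6⟩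
    · simp only [mem_insert, mem_singleton, not_or]; exact ⟨d2, d1, d3⟩
  · exact Mt_mem h'
  · show Mt u y v x ∈ perfectMatchings ({u, x, v, y} : Finset (Fin n))
    have : ({u, x, v, y} : Finset (Fin n)) = {u, y, v, x} := by ext; simp; tauto
    rw [this]
    exact Mt_mem ⟨d1, d3, d2, d5, d4, d6.symm⟩
  · show Mt u x v y ≠ Mt u y v x
    rw [Mt_comm u x v y, Mt_comm u y v x]
    exact Mt_ne ⟨d2, d3, d1, d6, d4.symm, d5.symm⟩

theorem sig_zq {q : Fin n × Fin n × Fin n × Fin n} (h : Dist4 q.1 q.2.1 q.2.2.1 q.2.2.2)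
    (G : Realization n d) : sig d (zq q) G = tauR q.1 q.2.1 q.2.2.1 q.2.2.2 G := by
  have h1 := sig_pair (zq_mem h) G (tauR q.1 q.2.1 q.2.2.1 q.2.2.2 G)
  have h2 := switch_pair h G (tauR q.1 q.2.1 q.2.2.1 q.2.2.2 G)
  have h3 : (if sig d (zq q) G = tauR q.1 q.2.1 q.2.2.1 q.2.2.2 G then (1 : ℝ) else 0) =
      (if tauR q.1 q.2.1 q.2.2.1 q.2.2.2 G = tauR q.1 q.2.1 q.2.2.1 q.2.2.2 G
        then (1 : ℝ) else 0) := by
    have h4 := h1.symm.trans h2
    exact add_left_cancel h4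
  rw [if_pos rfl] at h3
  by_contra hne
  rw [if_neg hne] at h3
  norm_num at h3

theorem fiber_card (z : Idx n) (hz : z ∈ moves n) :
    ((univ.filter (fun q : Fin n × Fin n × Fin n × Fin n =>
      Dist4 q.1 q.2.1 q.2.2.1 q.2.2.2)).filter (fun q => zq q = z)).card ≤ 4 := by
  rw [← (mem_moves.1 hz).1]
  apply Finset.card_le_card_of_injOn (fun q => q.1)
  · intro q hq
    simp only [coe_filter, mem_filter, mem_univ, true_and, Set.mem_ofPred_eq] at hq
    rw [← hq.2]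
    simp [zq]
  · rintro ⟨u, v, x, y⟩ hq ⟨u', v', x', y'⟩ hq' huu
    simp only [coe_filter, mem_filter, mem_univ, true_and, Set.mem_ofPred_eq] at hq hq'
    obtain ⟨⟨d1, d2, d3, d4, d5, d6⟩, hz1⟩ := hq
    obtain ⟨⟨e1, e2, e3, e4, e5, e6⟩, hz2⟩ := hq'
    simp only at huu
    subst huu
    have hzz : zq (u, v, x, y) = zq (u, v', x', y') := hz1.trans hz2.symm
    have hF : Mt u x v y = Mt u x' v' y' := by
      have := congrArg (fun w : Idx n => w.2.1) hzz
      exact this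
    have hF' : Mt u y v x = Mt u y' v' x' := by
      have := congrArg (fun w : Idx n => w.2.2) hzz
      exact this
    have hx : x' = x := by
      have : s(u, x') ∈ Mt u x v y := by rw [hF]; simp [Mt]
      simp only [Mt, mem_insert, mem_singleton, Sym2.eq_iff] at this
      rcases this with (⟨-, h⟩ | ⟨h, -⟩) | (⟨h, -⟩ | ⟨h, -⟩)
      · exact h
      · exact absurd h d2
      · exact absurd h d1
      · exact absurd h d3
    have hy : y' = y := by
      have : s(u, y') ∈ Mt u y v x := by rw [hF']; simp [Mt]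
      simp only [Mt, mem_insert, mem_singleton, Sym2.eq_iff] at this
      rcases this with (⟨-, h⟩ | ⟨h, -⟩) | (⟨h, -⟩ | ⟨h, -⟩)
      · exact h
      · exact absurd h d3
      · exact absurd h d1
      · exact absurd h d2
    subst hx hy
    have hv : v' = v := by
      have : s(v', y') ∈ Mt u x' v y' := by rw [hF]; simp [Mt]
      simp only [Mt, mem_insert, mem_singleton, Sym2.eq_iff] at this
      rcases this with (⟨-, h⟩ | ⟨-, h⟩) | (⟨h, -⟩ | ⟨-, h⟩)
      · exact absurd h.symm d6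
      · exact absurd h.symm d3
      · exact h
      · exact absurd h.symm d5
    rw [hv]

theorem gap_moves (hn : 4 ≤ n)
    (hmain : ∀ f : Om d → ℝ, ∑ A, f A = 0 →
      16 * ∑ A, f A ^ 2 ≤ ∑ u, ∑ v, ∑ x, ∑ y, ∑ A, (f A - f (tau u v x y A)) ^ 2)
    (f : Realization n d → ℝ) (hf : ∑ G, f G = 0) :
    4 * ∑ G, f G ^ 2 ≤ ∑ z ∈ moves n, ∑ G, (f G - f (sig d z G)) ^ 2 := by
  have e1 : ∀ g : Realization n d → ℝ, ∑ A : Om d, g (ofOm A) = ∑ G, g G := fun g =>
    Equiv.sum_comp (eqv (d := d)).symm g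
  have h1 := hmain (fun A => f (ofOm A)) (by rw [e1 f]; exact hf)
  rw [e1 (fun G => f G ^ 2)] at h1
  have h2 : ∀ u v x y : Fin n, ∑ A : Om d, (f (ofOm A) - f (ofOm (tau u v x y A))) ^ 2 =
      ∑ G, (f G - f (tauR u v x y G)) ^ 2 := by
    intro u v x y
    rw [← e1 (fun G => (f G - f (tauR u v x y G)) ^ 2)]
    refine sum_congr rfl (fun A _ => ?_)
    unfold tauR
    rw [toOm_ofOm]
  simp only [h2] at h1
  set E : Fin n × Fin n × Fin n × Fin n → ℝ := fun q =>
    ∑ G, (f G - f (tauR q.1 q.2.1 q.2.2.1 q.2.2.2 G)) ^ 2 with hE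
  have h3 : ∑ u, ∑ v, ∑ x, ∑ y, ∑ G, (f G - f (tauR u v x y G)) ^ 2 = ∑ q, E q := by
    rw [Fintype.sum_prod_type]
    refine sum_congr rfl (fun u _ => ?_)
    rw [Fintype.sum_prod_type]
    refine sum_congr rfl (fun v _ => ?_)
    rw [Fintype.sum_prod_type]
  rw [h3] at h1
  have h4 : ∑ q, E q = ∑ q ∈ univ.filter (fun q : Fin n × Fin n × Fin n × Fin n =>
      Dist4 q.1 q.2.1 q.2.2.1 q.2.2.2), E q := by
    symm
    apply sum_subset (filter_subset _ _)
    intro q _ hq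
    simp only [mem_filter, mem_univ, true_and] at hq
    rw [hE]
    apply sum_eq_zero
    intro G _
    have : tauR q.1 q.2.1 q.2.2.1 q.2.2.2 G = G := by
      unfold tauR
      rw [tau_of_not' (fun h => hq h.1), ofOm_toOm]
    rw [this]
    ring
  have h5 : ∑ q ∈ univ.filter (fun q : Fin n × Fin n × Fin n × Fin n =>
      Dist4 q.1 q.2.1 q.2.2.1 q.2.2.2), E q ≤
      ∑ z ∈ moves n, 4 * ∑ G, (f G - f (sig d z G)) ^ 2 := by
    rw [← sum_fiberwise_of_maps_to (t := moves n) (g := zq)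
      (fun q hq => zq_mem (by simpa using hq))]
    apply sum_le_sum
    intro z hz
    have h6 : ∀ q ∈ (univ.filter (fun q : Fin n × Fin n × Fin n × Fin n =>
        Dist4 q.1 q.2.1 q.2.2.1 q.2.2.2)).filter (fun q => zq q = z),
        E q = ∑ G, (f G - f (sig d z G)) ^ 2 := by
      intro q hq
      simp only [mem_filter, mem_univ, true_and] at hq
      rw [hE]
      refine sum_congr rfl (fun G _ => ?_)
      rw [← hq.2, sig_zq hq.1]
    rw [sum_congr rfl h6, sum_const, nsmul_eq_mul]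
    apply mul_le_mul_of_nonneg_right _ (sum_nonneg (fun G _ => sq_nonneg _))
    exact_mod_cast fiber_card z hz
  rw [← mul_sum] at h5
  rw [h4] at h1
  linarith

theorem mixing_bound (n : ℕ) (hn : 4 ≤ n) (d : Fin n → ℕ) (hd : Graphical n d)
    (hmain : ∀ f : Om d → ℝ, ∑ A, f A = 0 →
      16 * ∑ A, f A ^ 2 ≤ ∑ u, ∑ v, ∑ x, ∑ y, ∑ A, (f A - f (tau u v x y A)) ^ 2) (t : ℕ)
      (ht : n ^ 6 ≤ t) : MixedAt n d t := by
  intro G
  have hC : (0 : ℝ) < n.choose 4 := by exact_mod_cast Nat.choose_pos hn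
  have hC1 : (1 : ℝ) ≤ n.choose 4 := by exact_mod_cast Nat.choose_pos hn
  have : Nonempty (Realization n d) := hd
  have hT : (moves n).Nonempty := by
    rw [← card_pos, card_moves]
    have := Nat.choose_pos hn
    positivity
  have hcard : ((moves n).card : ℝ) = n.choose 4 * 6 := by rw [card_moves]; push_cast; ring
  unfold tvDist
  apply l1_small (T := moves n) (σ := sig d) hT (fun z hz => sig_invol hz)
    (fun G H => switchMatrix_eq hn G H) (γ := 1 / (12 * (n.choose 4 : ℝ))) (by positivity)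
  · rw [div_le_one (by positivity)]
    linarith
  · intro f hf
    have h1 := gap_moves hn hmain f hf
    rw [hcard]
    have h2 : 8 * ((n.choose 4 : ℝ) * 6) * (1 / (12 * (n.choose 4 : ℝ))) = 4 := by
      field_simp
      ring
    rw [h2]
    exact h1
  · exact numeric_small n hn t ht _ card_realization_le

end Vale.Agent.KTV
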