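import Vale.Agent.KTV.Avg
import Vale.Agent.KTV.Coupling

open Finset
open scoped Classical

namespace Vale.Agent.KTV

theorem fin3_eq : ∀ {i j k l : Fin 3}, i ≠ j → i ≠ k → j ≠ k → l ≠ j → l ≠ k → l = i := by
  intro i j k l h1 h2 h3 h4 h5
  fin_cases i <;> fin_cases j <;> fin_cases k <;> fin_cases l <;> simp_all

theorem fin3_third : ∀ i j : Fin 3, i ≠ j → ∃ k : Fin 3, i ≠ k ∧ j ≠ k := by decide

theorem sameRow_equiv {C : Type*} [Fintype C] {r : Fin 3 → ℕ} {c : C → ℕ} (i : Fin 3) :
    Equivalence (sameRow i : X3 C r c → X3 C r c → Prop) :=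
  ⟨fun _ => rfl, fun h => Eq.symm h, fun h h' => Eq.trans h h'⟩

theorem abs_avg_le {Ω : Type*} [Fintype Ω] {r : Ω → Ω → Prop} (hr : Equivalence r)
    {w : Ω → ℝ} {m : ℝ} (h : ∀ x, |w x| ≤ m) (x : Ω) : |avg r w x| ≤ m := by
  have hc : (0 : ℝ) < ((cls r x).card : ℝ) := by
    have := cls_card_pos hr x; exact_mod_cast this
  unfold avg
  rw [abs_div, abs_of_pos hc, div_le_iff₀ hc]
  calc |∑ y ∈ cls r x, w y| ≤ ∑ y ∈ cls r x, |w y| := abs_sum_le_sum_abs _ _
    _ ≤ ∑ _y ∈ cls r x, m := sum_le_sum (fun y _ => h y)
    _ = m * (cls r x).card := by rw [sum_const, nsmul_eq_mul, mul_comm]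

section X3
variable {C : Type*} [Fintype C] {r : Fin 3 → ℕ} {c : C → ℕ}

/-- swap two columns with equal column sums -/
noncomputable def colSwap (a b : C) (h : c a = c b) (M : X3 C r c) : X3 C r c where
  m := fun i x => M.m i (Equiv.swap a b x)
  row := fun i => by
    rw [Equiv.sum_comp (Equiv.swap a b) (fun x => (M.m i x).toNat)]
    exact M.row i
  col := fun x => by
    rw [M.col]
    by_cases hx : x = a
    · subst hx; rw [Equiv.swap_apply_left]; exact h.symm
    · by_cases hx' : x = b
      · subst hx'; rw [Equiv.swap_apply_right]; exact h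
      · rw [Equiv.swap_apply_of_ne_of_ne hx hx']

theorem colSwap_invol (a b : C) (h : c a = c b) (M : X3 C r c) :
    colSwap a b h (colSwap a b h M) = M := by
  apply X3.ext
  funext i x
  simp [colSwap]

theorem colSwap_inj (a b : C) (h : c a = c b) :
    Function.Injective (colSwap a b h : X3 C r c → X3 C r c) := by
  intro M N hMN
  rw [← colSwap_invol a b h M, hMN, colSwap_invol]

theorem sameRow_colSwap (i : Fin 3) (a b : C) (h : c a = c b) (M N : X3 C r c) :
    sameRow i (colSwap a b h M) (colSwap a b h N) ↔ sameRow i M N := by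
  unfold sameRow colSwap
  constructor
  · intro hh
    funext x
    have := congrFun hh (Equiv.swap a b x)
    simpa using this
  · intro hh
    funext x
    have := congrFun hh (Equiv.swap a b x)
    simpa using this

theorem avg_colSwap (i : Fin 3) (a b : C) (h : c a = c b) (v : X3 C r c → ℝ) (M : X3 C r c) :
    avg (sameRow i) (fun N => v (colSwap a b h N)) M = avg (sameRow i) v (colSwap a b h M) := by
  apply avg_transfer (colSwap a b h) (colSwap_inj a b h)
  intro A
  constructor
  · intro hA
    refine ⟨colSwap a b h A, ?_, colSwap_invol a b h A⟩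
    rw [← sameRow_colSwap i a b h, colSwap_invol]
    exact hA
  · rintro ⟨N, hN, rfl⟩
    rw [sameRow_colSwap]; exact hN

theorem toNat_eq_one_iff (b : Bool) : b.toNat = 1 ↔ b = true := by cases b <;> simp

/-- STEP 1 -/
theorem step1 {v : X3 C r c → ℝ} {lam : ℝ} (hlam : 2 < lam)
    (hS : ∀ M, ∑ i, avg (sameRow i) v M = lam * v M) (a b : C) (h : c a = c b)
    (M : X3 C r c) : v (colSwap a b h M) = v M := by
  set w : X3 C r c → ℝ := fun N => v (colSwap a b h N) - v N with hw
  have hSw : ∀ N, ∑ i, avg (sameRow i) w N = lam * w N := by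
    intro N
    have : ∀ i, avg (sameRow i) w N
        = avg (sameRow i) v (colSwap a b h N) - avg (sameRow i) v N := by
      intro i
      rw [← avg_colSwap]
      exact congrFun (avg_sub (r := sameRow i) (fun N => v (colSwap a b h N)) v) N
    rw [Fintype.sum_congr _ _ this, sum_sub_distrib, hS, hS]
    simp only [hw]
    ring
  have hanti : ∀ N, w (colSwap a b h N) = - w N := by
    intro N; simp only [hw, colSwap_invol]; ring
  have : Nonempty (X3 C r c) := ⟨M⟩
  obtain ⟨M0, hM0⟩ := Finite.exists_max (fun N => |w N|)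
  -- a row on which the columns agree
  have hk : ∃ k, M0.m k a = M0.m k b := by
    by_contra hcon
    push Not at hcon
    have ha := M0.col a
    have hb := M0.col b
    rw [Fin.sum_univ_three] at ha hb
    have h0 := hcon 0
    have h1 := hcon 1
    have h2 := hcon 2
    rw [h] at ha
    revert ha hb h0 h1 h2
    cases M0.m 0 a <;> cases M0.m 0 b <;> cases M0.m 1 a <;> cases M0.m 1 b <;>
      cases M0.m 2 a <;> cases M0.m 2 b <;> simp <;> omega
  obtain ⟨k, hk⟩ := hk
  have hzero : avg (sameRow k) w M0 = 0 := by
    have hinv : ∀ N ∈ cls (sameRow k) M0, colSwap a b h N ∈ cls (sameRow k) M0 := by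
      intro N hN
      rw [mem_cls] at hN ⊢
      unfold sameRow at hN ⊢
      funext x
      simp only [colSwap]
      rw [← hN]
      by_cases hx : x = a
      · subst hx; rw [Equiv.swap_apply_left]; exact hk
      · by_cases hx' : x = b
        · subst hx'; rw [Equiv.swap_apply_right]; exact hk.symm
        · rw [Equiv.swap_apply_of_ne_of_ne hx hx']
    have hs : ∑ N ∈ cls (sameRow k) M0, w N = - ∑ N ∈ cls (sameRow k) M0, w N := by
      rw [← sum_neg_distrib]
      refine sum_bij' (fun N _ => colSwap a b h N) (fun N _ => colSwap a b h N) hinv hinv ?_ ?_ ?_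
      · intro N _; exact colSwap_invol a b h N
      · intro N _; exact colSwap_invol a b h N
      · intro N _; rw [hanti]; ring
    have hs0 : ∑ N ∈ cls (sameRow k) M0, w N = 0 := by linarith
    unfold avg; rw [hs0, zero_div]
  have hle : lam * |w M0| ≤ 2 * |w M0| := by
    have h1 : |lam * w M0| ≤ 2 * |w M0| := by
      rw [← hSw M0, ← Finset.add_sum_erase univ _ (mem_univ k), hzero, zero_add]
      calc |∑ i ∈ univ.erase k, avg (sameRow i) w M0|
          ≤ ∑ i ∈ univ.erase k, |avg (sameRow i) w M0| := abs_sum_le_sum_abs _ _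
        _ ≤ ∑ _i ∈ univ.erase k, |w M0| :=
            sum_le_sum (fun i _ => abs_avg_le (sameRow_equiv i) hM0 M0)
        _ = 2 * |w M0| := by
            rw [sum_const, card_erase_of_mem (mem_univ k)]; simp
    rwa [abs_mul, abs_of_pos (by linarith)] at h1
  have hw0 : |w M0| = 0 := by
    have := abs_nonneg (w M0)
    nlinarith
  have hwM : |w M| ≤ 0 := by rw [← hw0]; exact hM0 M
  have : w M = 0 := abs_eq_zero.1 (le_antisymm hwM (abs_nonneg _))
  simp only [hw] at this
  linarith

/-- mixed move -/
def Mixed (i j : Fin 3) (a b : C) (M M' : X3 C r c) : Prop :=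
  i ≠ j ∧ c a = 1 ∧ c b = 2 ∧ M.m i a = true ∧ M.m i b = false ∧ M'.m j a = true ∧
    M'.m j b = false ∧ ∀ l x, x ≠ a → x ≠ b → M'.m l x = M.m l x

theorem Mixed.symm {i j : Fin 3} {a b : C} {M M' : X3 C r c} (h : Mixed i j a b M M') :
    Mixed j i a b M' M := by
  obtain ⟨h1, h2, h3, h4, h5, h6, h7, h8⟩ := h
  exact ⟨h1.symm, h2, h3, h6, h7, h4, h5, fun l x hx hx' => (h8 l x hx hx').symm⟩

theorem col_one {M : X3 C r c} {a : C} (ha : c a = 1) {i j : Fin 3} (hij : i ≠ j)
    (h : M.m i a = true) : M.m j a = false := by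
  have := M.col a
  rw [ha, Fin.sum_univ_three] at this
  fin_cases i <;> fin_cases j <;> simp_all <;> revert this <;>
    cases M.m 0 a <;> cases M.m 1 a <;> cases M.m 2 a <;> simp_all

theorem col_two {M : X3 C r c} {a : C} (ha : c a = 2) {i j : Fin 3} (hij : i ≠ j)
    (h : M.m i a = false) : M.m j a = true := by
  have := M.col a
  rw [ha, Fin.sum_univ_three] at this
  fin_cases i <;> fin_cases j <;> simp_all <;> revert this <;>
    cases M.m 0 a <;> cases M.m 1 a <;> cases M.m 2 a <;> simp_all

theorem sum_toNat (P : Finset C) (g : C → Bool) :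
    ∑ x ∈ P, (g x).toNat = (P.filter (fun x => g x = true)).card := by
  rw [card_eq_sum_ones, sum_filter]
  exact sum_congr rfl (fun x _ => by cases g x <;> simp)

/-- private columns of the rows `j, k` -/
noncomputable def priv (M : X3 C r c) (j k : Fin 3) : Finset C :=
  univ.filter (fun x => M.m j x ≠ M.m k x)

/-- number of ones of row `j` on private columns -/
noncomputable def scount (M : X3 C r c) (j k : Fin 3) : ℕ :=
  ((priv M j k).filter (fun x => M.m j x = true)).card

noncomputable def asgFun (M : X3 C r c) (j k : Fin 3) (U : Finset C) (l : Fin 3) (x : C) : Bool :=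
  if x ∈ priv M j k then (if l = j then decide (x ∈ U) else if l = k then !decide (x ∈ U)
    else M.m l x) else M.m l x

theorem mem_priv {M : X3 C r c} {j k : Fin 3} {x : C} : x ∈ priv M j k ↔ M.m j x ≠ M.m k x := by
  simp [priv]

theorem asgFun_row (M : X3 C r c) {j k : Fin 3} (hjk : j ≠ k) {U : Finset C}
    (hU : U ⊆ priv M j k) (hc : U.card = scount M j k) (l : Fin 3) :
    ∑ x, (asgFun M j k U l x).toNat = r l := by
  rw [← M.row l, ← Finset.sum_add_sum_compl (priv M j k),
    ← Finset.sum_add_sum_compl (priv M j k) (fun x => (M.m l x).toNat)]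
  congr 1
  · by_cases hl : l = j
    · subst hl
      have h1 : ∑ x ∈ priv M l k, (asgFun M l k U l x).toNat
          = ∑ x ∈ priv M l k, (decide (x ∈ U)).toNat :=
        sum_congr rfl (fun x hx => by simp [asgFun, hx])
      rw [h1, sum_toNat, sum_toNat, ← scount, ← hc]
      congr 1
      ext x; simp only [mem_filter, decide_eq_true_eq]
      exact ⟨fun h => h.2, fun h => ⟨hU h, h⟩⟩
    · by_cases hl' : l = k
      · subst hl'
        have h1 : ∑ x ∈ priv M j l, (asgFun M j l U l x).toNat
            = ∑ x ∈ priv M j l, (!decide (x ∈ U)).toNat :=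
          sum_congr rfl (fun x hx => by simp [asgFun, hx, hl])
        have h2 : ∑ x ∈ priv M j l, (M.m l x).toNat
            = ∑ x ∈ priv M j l, (!(M.m j x)).toNat :=
          sum_congr rfl (fun x hx => by
            rw [mem_priv] at hx
            cases hj : M.m j x <;> cases hk : M.m l x <;> simp_all)
        rw [h1, h2, sum_toNat, sum_toNat]
        have e1 := Finset.card_filter_add_card_filter_not (s := priv M j l)
          (fun x => x ∈ U)
        have e2 := Finset.card_filter_add_card_filter_not (s := priv M j l)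
          (fun x => M.m j x = true)
        have e3 : ((priv M j l).filter (fun x => x ∈ U)).card = U.card := by
          congr 1
          ext x; simp only [mem_filter]
          exact ⟨fun h => h.2, fun h => ⟨hU h, h⟩⟩
        have e4 : ((priv M j l).filter (fun x => (!decide (x ∈ U)) = true)).card
            = ((priv M j l).filter (fun x => ¬ x ∈ U)).card := by
          congr 1; ext x; simp
        have e5 : ((priv M j l).filter (fun x => (!(M.m j x)) = true)).card
            = ((priv M j l).filter (fun x => ¬ M.m j x = true)).card := by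
          congr 1; ext x; simp
        rw [e4, e5]
        unfold scount at hc
        omega
      · exact sum_congr rfl (fun x hx => by simp [asgFun, hx, hl, hl'])
  · refine sum_congr rfl (fun x hx => ?_)
    rw [mem_compl] at hx
    simp [asgFun, hx]

theorem asgFun_col (M : X3 C r c) {j k : Fin 3} (hjk : j ≠ k) (U : Finset C) (x : C) :
    ∑ l, (asgFun M j k U l x).toNat = c x := by
  rw [← M.col x]
  by_cases hx : x ∈ priv M j k
  · have hx' := mem_priv.1 hx
    have h1 : ∀ l, asgFun M j k U l x = if l = j then decide (x ∈ U) else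
        if l = k then !decide (x ∈ U) else M.m l x := by
      intro l; simp [asgFun, hx]
    simp only [h1]
    rw [Fin.sum_univ_three, Fin.sum_univ_three]
    fin_cases j <;> fin_cases k <;> simp at hjk hx' ⊢ <;> by_cases hxU : x ∈ U <;>
      simp [hxU] <;> revert hx' <;> cases M.m 0 x <;> cases M.m 1 x <;> cases M.m 2 x <;> simp
  · exact sum_congr rfl (fun l _ => by simp [asgFun, hx])

/-- reassign the private columns of rows `j,k` -/
noncomputable def asg (M : X3 C r c) (j k : Fin 3) (U : Finset C) : X3 C r c :=
  if h : j ≠ k ∧ U ⊆ priv M j k ∧ U.card = scount M j k then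
    { m := asgFun M j k U
      row := asgFun_row M h.1 h.2.1 h.2.2
      col := asgFun_col M h.1 U }
  else M

theorem asg_m (M : X3 C r c) {j k : Fin 3} (hjk : j ≠ k) {U : Finset C}
    (hU : U ∈ (priv M j k).powersetCard (scount M j k)) :
    (asg M j k U).m = asgFun M j k U := by
  rw [mem_powersetCard] at hU
  unfold asg; rw [dif_pos ⟨hjk, hU.1, hU.2⟩]

/-- the class of `M` for `sameRow i` is parametrized by subsets -/
theorem cls_eq_image (M : X3 C r c) {i j k : Fin 3} (hij : i ≠ j) (hik : i ≠ k) (hjk : j ≠ k) :
    cls (sameRow i) M = ((priv M j k).powersetCard (scount M j k)).image (asg M j k) := by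
  ext N
  rw [mem_cls, mem_image]
  constructor
  · intro hN
    have hN' : ∀ x, N.m i x = M.m i x := fun x => congrFun hN.symm x
    have hcol : ∀ x, (N.m j x).toNat + (N.m k x).toNat = (M.m j x).toNat + (M.m k x).toNat := by
      intro x
      have h1 := N.col x
      have h2 := M.col x
      have h3 := hN' x
      rw [Fin.sum_univ_three] at h1 h2
      fin_cases i <;> fin_cases j <;> fin_cases k <;> simp at hij hik hjk h3 ⊢ <;>
        rw [h3] at h1 <;> omega
    have hoff : ∀ x, x ∉ priv M j k → N.m j x = M.m j x ∧ N.m k x = M.m k x := by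
      intro x hx
      rw [mem_priv, not_not] at hx
      have := hcol x
      revert this hx
      cases N.m j x <;> cases N.m k x <;> cases M.m j x <;> cases M.m k x <;> simp
    have hon : ∀ x, x ∈ priv M j k → N.m k x = !(N.m j x) := by
      intro x hx
      rw [mem_priv] at hx
      have := hcol x
      revert this hx
      cases N.m j x <;> cases N.m k x <;> cases M.m j x <;> cases M.m k x <;> simp
    refine ⟨(priv M j k).filter (fun x => N.m j x = true), ?_, ?_⟩
    · rw [mem_powersetCard]
      refine ⟨filter_subset _ _, ?_⟩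
      unfold scount
      rw [← sum_toNat, ← sum_toNat]
      have h1 := N.row j
      have h2 := M.row j
      rw [← Finset.sum_add_sum_compl (priv M j k)] at h1 h2
      have h3 : ∑ x ∈ (priv M j k)ᶜ, (N.m j x).toNat = ∑ x ∈ (priv M j k)ᶜ, (M.m j x).toNat :=
        sum_congr rfl (fun x hx => by
          rw [mem_compl] at hx
          rw [(hoff x hx).1])
      omega
    · have hmem : (priv M j k).filter (fun x => N.m j x = true)
          ∈ (priv M j k).powersetCard (scount M j k) := by
        rw [mem_powersetCard]
        refine ⟨filter_subset _ _, ?_⟩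
        unfold scount
        rw [← sum_toNat, ← sum_toNat]
        have h1 := N.row j
        have h2 := M.row j
        rw [← Finset.sum_add_sum_compl (priv M j k)] at h1 h2
        have h3 : ∑ x ∈ (priv M j k)ᶜ, (N.m j x).toNat = ∑ x ∈ (priv M j k)ᶜ, (M.m j x).toNat :=
          sum_congr rfl (fun x hx => by
            rw [mem_compl] at hx
            rw [(hoff x hx).1])
        omega
      apply X3.ext
      rw [asg_m M hjk hmem]
      funext l x
      unfold asgFun
      by_cases hx : x ∈ priv M j k
      · rw [if_pos hx]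
        by_cases hl : l = j
        · subst hl
          rw [if_pos rfl]
          cases hh : N.m l x <;> simp [hx, hh]
        · rw [if_neg hl]
          by_cases hl' : l = k
          · subst hl'
            rw [if_pos rfl, hon x hx]
            cases hh : N.m j x <;> simp [hx, hh]
          · rw [if_neg hl']
            have : l = i := fin3_eq hij hik hjk hl hl'
            rw [this]; exact (hN' x).symm
      · rw [if_neg hx]
        by_cases hl : l = j
        · rw [hl]; exact (hoff x hx).1.symm
        · by_cases hl' : l = k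
          · rw [hl']; exact (hoff x hx).2.symm
          · have : l = i := by
              fin_cases i <;> fin_cases j <;> fin_cases k <;> fin_cases l <;> simp_all
            rw [this]; exact (hN' x).symm
  · rintro ⟨U, hU, rfl⟩
    unfold sameRow
    rw [asg_m M hjk hU]
    funext x
    unfold asgFun
    split_ifs <;> rfl

theorem asg_injOn (M : X3 C r c) {j k : Fin 3} (hjk : j ≠ k) :
    Set.InjOn (asg M j k) ((priv M j k).powersetCard (scount M j k)) := by
  intro U hU W hW hUW
  have h1 := asg_m M hjk hU
  have h2 := asg_m M hjk hW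
  have h3 : asgFun M j k U = asgFun M j k W := by rw [← h1, ← h2, hUW]
  have hU' := (mem_powersetCard.1 hU).1
  have hW' := (mem_powersetCard.1 hW).1
  ext x
  by_cases hx : x ∈ priv M j k
  · have := congrFun (congrFun h3 j) x
    simp only [asgFun, hx, if_true, decide_eq_decide] at this
    exact this
  · exact ⟨fun h => absurd (hU' h) hx, fun h => absurd (hW' h) hx⟩

theorem avg_eq_param (M : X3 C r c) {i j k : Fin 3} (hij : i ≠ j) (hik : i ≠ k) (hjk : j ≠ k)
    (v : X3 C r c → ℝ) :
    avg (sameRow i) v M = (∑ U ∈ (priv M j k).powersetCard (scount M j k), v (asg M j k U)) /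
      (((priv M j k).powersetCard (scount M j k)).card : ℝ) := by
  unfold avg
  rw [cls_eq_image M hij hik hjk, sum_image (asg_injOn M hjk), card_image_of_injOn (asg_injOn M hjk)]

theorem asg_apply (M : X3 C r c) {j k : Fin 3} (hjk : j ≠ k) {U : Finset C}
    (hU : U ∈ (priv M j k).powersetCard (scount M j k)) (l : Fin 3) (x : C) :
    (asg M j k U).m l x = if x ∈ priv M j k then
      (if l = j then decide (x ∈ U) else if l = k then !decide (x ∈ U) else M.m l x)
      else M.m l x := by
  rw [asg_m M hjk hU]; rfl

theorem priv_col {M : X3 C r c} {i j k : Fin 3} (hij : i ≠ j) (hik : i ≠ k) (hjk : j ≠ k) {x : C}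
    (hx : x ∈ priv M j k) : c x = 1 + (M.m i x).toNat := by
  rw [mem_priv] at hx
  have := M.col x
  rw [← this, Fin.sum_univ_three]
  fin_cases i <;> fin_cases j <;> fin_cases k <;> simp at hij hik hjk hx ⊢ <;> revert hx <;>
    cases M.m 0 x <;> cases M.m 1 x <;> cases M.m 2 x <;> simp

/-- facts about a mixed move -/
theorem Mixed.facts {i j k : Fin 3} (hik : i ≠ k) (hjk : j ≠ k) {a b : C}
    {M M' : X3 C r c} (h : Mixed i j a b M M') :
    a ≠ b ∧ M.m j a = false ∧ M.m k a = false ∧ M.m j b = true ∧ M.m k b = true ∧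
      M'.m i a = false ∧ M'.m k a = false ∧ M'.m i b = true ∧ M'.m k b = true := by
  obtain ⟨h1, h2, h3, h4, h5, h6, h7, h8⟩ := h
  refine ⟨?_, col_one h2 h1 h4, col_one h2 hik h4, col_two h3 h1 h5, col_two h3 hik h5,
    col_one h2 h1.symm h6, col_one h2 hjk h6, col_two h3 h1.symm h7, col_two h3 hjk h7⟩
  rintro rfl
  rw [h4] at h5; exact absurd h5 (by simp)

theorem Mixed.priv_eq {i j k : Fin 3} (hij : i ≠ j) (hik : i ≠ k) (hjk : j ≠ k) {a b : C}
    {M M' : X3 C r c} (h : Mixed i j a b M M') :
    a ∉ priv M j k ∧ b ∉ priv M j k ∧ priv M' j k = insert a (insert b (priv M j k)) ∧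
      scount M' j k = scount M j k + 1 := by
  obtain ⟨f0, f1, f2, f3, f4, f5, f6, f7, f8⟩ := h.facts hik hjk
  obtain ⟨h1, h2, h3, h4, h5, h6, h7, h8⟩ := h
  have ha : a ∉ priv M j k := by rw [mem_priv, f1, f2]; simp
  have hb : b ∉ priv M j k := by rw [mem_priv, f3, f4]; simp
  have hP : priv M' j k = insert a (insert b (priv M j k)) := by
    ext x
    rw [mem_insert, mem_insert, mem_priv, mem_priv]
    by_cases hxa : x = a
    · subst hxa; rw [h6, f6]; simp
    · by_cases hxb : x = b
      · subst hxb; rw [h7, f8]; simp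
      · rw [h8 _ _ hxa hxb, h8 _ _ hxa hxb]; simp [hxa, hxb]
  refine ⟨ha, hb, hP, ?_⟩
  unfold scount
  rw [← sum_toNat, ← sum_toNat, hP, sum_insert, sum_insert hb, h6, h7]
  · have : ∑ x ∈ priv M j k, (M'.m j x).toNat = ∑ x ∈ priv M j k, (M.m j x).toNat :=
      sum_congr rfl (fun x hx => by
        rw [h8 j x (fun h => ha (h ▸ hx)) (fun h => hb (h ▸ hx))])
    rw [this]; simp [add_comm]
  · rw [mem_insert]; push Not; exact ⟨f0, ha⟩

/-- the key estimate -/
theorem key_claim {v : X3 C r c → ℝ} {m : ℝ}
    (hsym : ∀ (a b : C) (h : c a = c b) (M : X3 C r c), v (colSwap a b h M) = v M)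
    (hmix : ∀ (i j : Fin 3) (a b : C) (M M' : X3 C r c), Mixed i j a b M M' → v M' ≤ v M + m)
    {i j : Fin 3} {a b : C} {M M' : X3 C r c} (hM : Mixed i j a b M M') :
    avg (sameRow i) v M' ≤ avg (sameRow i) v M + m := by
  have hij := hM.1
  obtain ⟨k, hik, hjk⟩ := fin3_third i j hij
  obtain ⟨f0, f1, f2, f3, f4, f5, f6, f7, f8⟩ := hM.facts hik hjk
  obtain ⟨ha, hb, hP, hs⟩ := hM.priv_eq hij hik hjk
  have hM2 := hM
  obtain ⟨-, h2, h3, h4, h5, h6, h7, h8⟩ := hM
  rw [avg_eq_param M hij hik hjk, avg_eq_param M' hij hik hjk, hP, hs]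
  have hmemP' : ∀ x, x ∈ priv M' j k ↔ x = a ∨ x = b ∨ x ∈ priv M j k := by
    intro x; rw [hP, mem_insert, mem_insert]
  have hi' : ∀ x, x ≠ a → x ≠ b → ∀ l, M'.m l x = M.m l x := fun x hx hx' l => h8 l x hx hx'
  have hxP : ∀ x, x ∈ priv M j k → x ≠ a ∧ x ≠ b :=
    fun x hx => ⟨fun h => ha (h ▸ hx), fun h => hb (h ▸ hx)⟩
  have hcx : ∀ x, x ∈ priv M j k → c x = 1 + (M.m i x).toNat := fun x hx =>
    priv_col hij hik hjk hx
  -- membership in the big powerset
  have hbig : ∀ U, U ⊆ insert a (insert b (priv M j k)) → U.card = scount M j k + 1 →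
      U ∈ (priv M' j k).powersetCard (scount M' j k) := by
    intro U h1 h2
    rw [hP, hs, mem_powersetCard]; exact ⟨h1, h2⟩
  apply subset_coupling (priv M j k) a b ha hb f0 (scount M j k)
  · unfold scount; exact card_filter_le _ _
  · -- insert a U
    intro U hU
    have hU' := mem_powersetCard.1 hU
    apply hmix i j a b
    have haU : a ∉ U := fun h => ha (hU'.1 h)
    have hbU : b ∉ U := fun h => hb (hU'.1 h)
    have hbig' := hbig (insert a U)
      (insert_subset_insert _ (hU'.1.trans (subset_insert _ _)))
      (by rw [card_insert_of_notMem haU, hU'.2])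
    refine ⟨hij, h2, h3, ?_, ?_, ?_, ?_, ?_⟩
    · rw [asg_apply M hjk hU, if_neg ha]; exact h4
    · rw [asg_apply M hjk hU, if_neg hb]; exact h5
    · rw [asg_apply M' hjk hbig', if_pos ((hmemP' a).2 (Or.inl rfl)), if_pos rfl]; simp
    · rw [asg_apply M' hjk hbig', if_pos ((hmemP' b).2 (Or.inr (Or.inl rfl))), if_pos rfl]
      simp [f0.symm, hbU]
    · intro l x hxa hxb
      rw [asg_apply M' hjk hbig', asg_apply M hjk hU, hi' x hxa hxb]
      simp only [hmemP', hxa, hxb, false_or, mem_insert]
  · -- insert b U
    intro U hU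
    have hU' := mem_powersetCard.1 hU
    apply hmix i k a b
    have haU : a ∉ U := fun h => ha (hU'.1 h)
    have hbU : b ∉ U := fun h => hb (hU'.1 h)
    have hbig' := hbig (insert b U)
      ((insert_subset_insert _ hU'.1).trans (subset_insert _ _))
      (by rw [card_insert_of_notMem hbU, hU'.2])
    refine ⟨hik, h2, h3, ?_, ?_, ?_, ?_, ?_⟩
    · rw [asg_apply M hjk hU, if_neg ha]; exact h4
    · rw [asg_apply M hjk hU, if_neg hb]; exact h5
    · rw [asg_apply M' hjk hbig', if_pos ((hmemP' a).2 (Or.inl rfl)), if_neg hjk.symm, if_pos rfl]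
      simp [f0, haU]
    · rw [asg_apply M' hjk hbig', if_pos ((hmemP' b).2 (Or.inr (Or.inl rfl))), if_neg hjk.symm,
        if_pos rfl]
      simp
    · intro l x hxa hxb
      rw [asg_apply M' hjk hbig', asg_apply M hjk hU, hi' x hxa hxb]
      simp only [hmemP', hxa, hxb, false_or, mem_insert]
  · -- W with s + 1 elements
    intro W hW e heW
    have hW' := mem_powersetCard.1 hW
    have haW : a ∉ W := fun h => ha (hW'.1 h)
    have hbW : b ∉ W := fun h => hb (hW'.1 h)
    have heP := hW'.1 heW
    obtain ⟨hea, heb⟩ := hxP e heP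
    have hbig' := hbig W (hW'.1.trans ((subset_insert _ _).trans (subset_insert _ _))) hW'.2
    have hU : W.erase e ∈ (priv M j k).powersetCard (scount M j k) := by
      rw [mem_powersetCard, card_erase_of_mem heW, hW'.2]
      exact ⟨(erase_subset _ _).trans hW'.1, by simp⟩
    have hce := hcx e heP
    by_cases hie : M.m i e = false
    · -- type 1
      have hc1 : c a = c e := by rw [h2, hce, hie]; simp
      rw [← hsym a e hc1]
      apply hmix i j a b
      refine ⟨hij, h2, h3, ?_, ?_, ?_, ?_, ?_⟩
      · rw [asg_apply M hjk hU, if_neg ha]; exact h4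
      · rw [asg_apply M hjk hU, if_neg hb]; exact h5
      · show (asg M' j k W).m j (Equiv.swap a e a) = true
        rw [Equiv.swap_apply_left, asg_apply M' hjk hbig',
          if_pos ((hmemP' e).2 (Or.inr (Or.inr heP))), if_pos rfl]
        simp [heW]
      · show (asg M' j k W).m j (Equiv.swap a e b) = false
        rw [Equiv.swap_apply_of_ne_of_ne f0.symm (Ne.symm heb), asg_apply M' hjk hbig',
          if_pos ((hmemP' b).2 (Or.inr (Or.inl rfl))), if_pos rfl]
        simp [hbW]
      · intro l x hxa hxb
        show (asg M' j k W).m l (Equiv.swap a e x) = _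
        by_cases hxe : x = e
        · subst hxe
          rw [Equiv.swap_apply_right, asg_apply M' hjk hbig', asg_apply M hjk hU,
            if_pos ((hmemP' a).2 (Or.inl rfl)), if_pos heP]
          by_cases hl : l = j
          · rw [if_pos hl, if_pos hl]; simp [haW]
          · by_cases hl' : l = k
            · rw [if_neg hl, if_neg hl, if_pos hl', if_pos hl']; simp [haW]
            · have hli : l = i := fin3_eq hij hik hjk hl hl'
              rw [if_neg hl, if_neg hl, if_neg hl', if_neg hl', hli, f5, hie]
        · rw [Equiv.swap_apply_of_ne_of_ne hxa hxe, asg_apply M' hjk hbig', asg_apply M hjk hU,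
            hi' x hxa hxb]
          simp only [hmemP', hxa, hxb, false_or, mem_erase, hxe, ne_eq, not_false_eq_true,
            true_and]
    · -- type 2
      have hie' : M.m i e = true := by simpa using hie
      have hc1 : c b = c e := by rw [h3, hce, hie']; simp
      rw [← hsym b e hc1]
      apply hmix i k a b
      refine ⟨hik, h2, h3, ?_, ?_, ?_, ?_, ?_⟩
      · rw [asg_apply M hjk hU, if_neg ha]; exact h4
      · rw [asg_apply M hjk hU, if_neg hb]; exact h5
      · show (asg M' j k W).m k (Equiv.swap b e a) = true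
        rw [Equiv.swap_apply_of_ne_of_ne f0 (Ne.symm hea), asg_apply M' hjk hbig',
          if_pos ((hmemP' a).2 (Or.inl rfl)), if_neg hjk.symm, if_pos rfl]
        simp [haW]
      · show (asg M' j k W).m k (Equiv.swap b e b) = false
        rw [Equiv.swap_apply_left, asg_apply M' hjk hbig',
          if_pos ((hmemP' e).2 (Or.inr (Or.inr heP))), if_neg hjk.symm, if_pos rfl]
        simp [heW]
      · intro l x hxa hxb
        show (asg M' j k W).m l (Equiv.swap b e x) = _
        by_cases hxe : x = e
        · subst hxe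
          rw [Equiv.swap_apply_right, asg_apply M' hjk hbig', asg_apply M hjk hU,
            if_pos ((hmemP' b).2 (Or.inr (Or.inl rfl))), if_pos heP]
          by_cases hl : l = j
          · rw [if_pos hl, if_pos hl]; simp [hbW]
          · by_cases hl' : l = k
            · rw [if_neg hl, if_neg hl, if_pos hl', if_pos hl']; simp [hbW]
            · have hli : l = i := fin3_eq hij hik hjk hl hl'
              rw [if_neg hl, if_neg hl, if_neg hl', if_neg hl', hli, f7, hie']
        · rw [Equiv.swap_apply_of_ne_of_ne hxb hxe, asg_apply M' hjk hbig', asg_apply M hjk hU,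
            hi' x hxa hxb]
          simp only [hmemP', hxa, hxb, false_or, mem_erase, hxe, ne_eq, not_false_eq_true,
            true_and]
  · -- W with s - 1 elements
    intro W hWP hWc e he
    rw [mem_sdiff] at he
    obtain ⟨heP, heW⟩ := he
    have haW : a ∉ W := fun h => ha (hWP h)
    have hbW : b ∉ W := fun h => hb (hWP h)
    obtain ⟨hea, heb⟩ := hxP e heP
    have haW2 : a ∉ insert b W := by rw [mem_insert]; push Not; exact ⟨f0, haW⟩
    have hbig' := hbig (insert a (insert b W))
      (insert_subset_insert _ (insert_subset_insert _ hWP))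
      (by rw [card_insert_of_notMem haW2, card_insert_of_notMem hbW, hWc])
    have hU : insert e W ∈ (priv M j k).powersetCard (scount M j k) := by
      rw [mem_powersetCard, card_insert_of_notMem heW]
      exact ⟨insert_subset heP hWP, hWc⟩
    have hce := hcx e heP
    have heIn : e ∉ insert a (insert b W) := by
      rw [mem_insert, mem_insert]; push Not; exact ⟨hea, heb, heW⟩
    by_cases hie : M.m i e = false
    · have hc1 : c a = c e := by rw [h2, hce, hie]; simp
      rw [← hsym a e hc1]
      apply hmix i k a b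
      refine ⟨hik, h2, h3, ?_, ?_, ?_, ?_, ?_⟩
      · rw [asg_apply M hjk hU, if_neg ha]; exact h4
      · rw [asg_apply M hjk hU, if_neg hb]; exact h5
      · show (asg M' j k _).m k (Equiv.swap a e a) = true
        rw [Equiv.swap_apply_left, asg_apply M' hjk hbig',
          if_pos ((hmemP' e).2 (Or.inr (Or.inr heP))), if_neg hjk.symm, if_pos rfl]
        simp [heIn]
      · show (asg M' j k _).m k (Equiv.swap a e b) = false
        rw [Equiv.swap_apply_of_ne_of_ne f0.symm (Ne.symm heb), asg_apply M' hjk hbig',
          if_pos ((hmemP' b).2 (Or.inr (Or.inl rfl))), if_neg hjk.symm, if_pos rfl]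
        simp
      · intro l x hxa hxb
        show (asg M' j k _).m l (Equiv.swap a e x) = _
        by_cases hxe : x = e
        · subst hxe
          rw [Equiv.swap_apply_right, asg_apply M' hjk hbig', asg_apply M hjk hU,
            if_pos ((hmemP' a).2 (Or.inl rfl)), if_pos heP]
          by_cases hl : l = j
          · rw [if_pos hl, if_pos hl]; simp
          · by_cases hl' : l = k
            · rw [if_neg hl, if_neg hl, if_pos hl', if_pos hl']; simp
            · have hli : l = i := fin3_eq hij hik hjk hl hl'
              rw [if_neg hl, if_neg hl, if_neg hl', if_neg hl', hli, f5, hie]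
        · rw [Equiv.swap_apply_of_ne_of_ne hxa hxe, asg_apply M' hjk hbig', asg_apply M hjk hU,
            hi' x hxa hxb]
          simp only [hmemP', hxa, hxb, false_or, mem_insert, hxe]
    · have hie' : M.m i e = true := by simpa using hie
      have hc1 : c b = c e := by rw [h3, hce, hie']; simp
      rw [← hsym b e hc1]
      apply hmix i j a b
      refine ⟨hij, h2, h3, ?_, ?_, ?_, ?_, ?_⟩
      · rw [asg_apply M hjk hU, if_neg ha]; exact h4
      · rw [asg_apply M hjk hU, if_neg hb]; exact h5
      · show (asg M' j k _).m j (Equiv.swap b e a) = true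
        rw [Equiv.swap_apply_of_ne_of_ne f0 (Ne.symm hea), asg_apply M' hjk hbig',
          if_pos ((hmemP' a).2 (Or.inl rfl)), if_pos rfl]
        simp
      · show (asg M' j k _).m j (Equiv.swap b e b) = false
        rw [Equiv.swap_apply_left, asg_apply M' hjk hbig',
          if_pos ((hmemP' e).2 (Or.inr (Or.inr heP))), if_pos rfl]
        simp [heIn]
      · intro l x hxa hxb
        show (asg M' j k _).m l (Equiv.swap b e x) = _
        by_cases hxe : x = e
        · subst hxe
          rw [Equiv.swap_apply_right, asg_apply M' hjk hbig', asg_apply M hjk hU,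
            if_pos ((hmemP' b).2 (Or.inr (Or.inl rfl))), if_pos heP]
          by_cases hl : l = j
          · rw [if_pos hl, if_pos hl]; simp
          · by_cases hl' : l = k
            · rw [if_neg hl, if_neg hl, if_pos hl', if_pos hl']; simp
            · have hli : l = i := fin3_eq hij hik hjk hl hl'
              rw [if_neg hl, if_neg hl, if_neg hl', if_neg hl', hli, f7, hie']
        · rw [Equiv.swap_apply_of_ne_of_ne hxb hxe, asg_apply M' hjk hbig', asg_apply M hjk hU,
            hi' x hxa hxb]
          simp only [hmemP', hxa, hxb, false_or, mem_insert, hxe]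

/-- STEP 2 -/
theorem step2 {v : X3 C r c → ℝ} {lam : ℝ} (hlam : 2 < lam)
    (hS : ∀ M, ∑ i, avg (sameRow i) v M = lam * v M)
    {i j : Fin 3} {a b : C} {M M' : X3 C r c} (hM : Mixed i j a b M M') : v M' = v M := by
  have hsym := fun (a b : C) (h : c a = c b) (M : X3 C r c) => step1 hlam hS a b h M
  -- maximal difference along mixed moves
  let G : X3 C r c × X3 C r c → ℝ := fun p =>
    if (∃ (i j : Fin 3) (a b : C), Mixed i j a b p.1 p.2) then v p.2 - v p.1 else 0
  have : Nonempty (X3 C r c × X3 C r c) := ⟨(M, M')⟩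
  obtain ⟨⟨M0, M1⟩, hmax⟩ := Finite.exists_max G
  have hGM : ∀ (i j : Fin 3) (a b : C) (N N' : X3 C r c), Mixed i j a b N N' →
      v N' ≤ v N + G (M0, M1) := by
    intro i j a b N N' hN
    have h1 := hmax (N, N')
    have h2 : G (N, N') = v N' - v N := by
      simp only [G]; rw [if_pos ⟨i, j, a, b, hN⟩]
    linarith
  have hle : G (M0, M1) ≤ 0 := by
    by_contra hpos
    push Not at hpos
    by_cases hex : ∃ (i j : Fin 3) (a b : C), Mixed i j a b M0 M1
    · have hG : G (M0, M1) = v M1 - v M0 := by
        simp only [G]; rw [if_pos hex]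
      obtain ⟨i, j, a, b, h0⟩ := hex
      obtain ⟨k, hik, hjk⟩ := fin3_third i j h0.1
      have hij := h0.1
      have h1 := key_claim hsym hGM h0
      have h2 : avg (sameRow j) v M1 ≤ avg (sameRow j) v M0 + G (M0, M1) := by
        have hneg : ∀ (i j : Fin 3) (a b : C) (N N' : X3 C r c), Mixed i j a b N N' →
            (-v) N' ≤ (-v) N + G (M0, M1) := by
          intro i j a b N N' hN
          have := hGM j i a b N' N hN.symm
          simp only [Pi.neg_apply]; linarith
        have h3 := key_claim (v := -v) (fun a b h N => by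
          simp only [Pi.neg_apply]; rw [hsym a b h N]) hneg h0.symm
        have h4 : ∀ N, avg (sameRow j) (-v) N = - avg (sameRow j) v N := by
          intro N
          unfold avg
          simp only [Pi.neg_apply, sum_neg_distrib, neg_div]
        rw [h4, h4] at h3
        linarith
      have h3 : avg (sameRow k) v M1 = avg (sameRow k) v M0 := by
        apply avg_congr (sameRow_equiv k)
        obtain ⟨f0, f1, f2, f3, f4, f5, f6, f7, f8⟩ := h0.facts hik hjk
        unfold sameRow
        funext x
        by_cases hxa : x = a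
        · rw [hxa, f2, f6]
        · by_cases hxb : x = b
          · rw [hxb, f4, f8]
          · exact h0.2.2.2.2.2.2.2 k x hxa hxb
      have h4 : ∀ N, avg (sameRow i) v N + avg (sameRow j) v N + avg (sameRow k) v N
          = lam * v N := by
        intro N
        rw [← hS N, Fin.sum_univ_three]
        clear h1 h2 h3 h0 hmax hGM hG hS hsym
        fin_cases i <;> fin_cases j <;> fin_cases k <;> simp at hij hik hjk ⊢ <;> ring
      have h5 := h4 M0
      have h6 := h4 M1
      rw [h3] at h6
      have h7 : lam * (v M1 - v M0) ≤ 2 * (v M1 - v M0) := by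
        rw [← hG]
        have : lam * G (M0, M1) = lam * v M1 - lam * v M0 := by rw [hG]; ring
        rw [this]; linarith
      rw [hG] at hpos
      nlinarith
    · have hG : G (M0, M1) = 0 := by simp only [G]; rw [if_neg hex]
      rw [hG] at hpos; exact lt_irrefl _ hpos
  have h1 := hGM i j a b M M' hM
  have h2 := hGM j i a b M' M hM.symm
  linarith

/-- one exchange inside a class -/
theorem exchange {v : X3 C r c → ℝ}
    (hsym : ∀ (a b : C) (h : c a = c b) (M : X3 C r c), v (colSwap a b h M) = v M)
    (hmix : ∀ (i j : Fin 3) (a b : C) (M M' : X3 C r c), Mixed i j a b M M' → v M' = v M)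
    (M : X3 C r c) {i j k : Fin 3} (hij : i ≠ j) (hik : i ≠ k) (hjk : j ≠ k) {U : Finset C}
    (hU : U ∈ (priv M j k).powersetCard (scount M j k)) {x y : C} (hx : x ∈ U) (hy : y ∉ U)
    (hyP : y ∈ priv M j k) :
    insert y (U.erase x) ∈ (priv M j k).powersetCard (scount M j k) ∧
      v (asg M j k (insert y (U.erase x))) = v (asg M j k U) := by
  have hU' := mem_powersetCard.1 hU
  have hxP := hU'.1 hx
  have hxy : x ≠ y := fun h => hy (h ▸ hx)
  have hyU : y ∉ U.erase x := fun h => hy (mem_of_mem_erase h)
  have hV : insert y (U.erase x) ∈ (priv M j k).powersetCard (scount M j k) := by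
    rw [mem_powersetCard, card_insert_of_notMem hyU, card_erase_of_mem hx, hU'.2]
    refine ⟨insert_subset hyP ((erase_subset _ _).trans hU'.1), ?_⟩
    have : 0 < U.card := card_pos.2 ⟨x, hx⟩
    omega
  refine ⟨hV, ?_⟩
  have hcx := priv_col hij hik hjk hxP
  have hcy := priv_col hij hik hjk hyP
  have hxV : x ∉ insert y (U.erase x) := by
    rw [mem_insert]; push Not; exact ⟨hxy, notMem_erase _ _⟩
  by_cases hix : M.m i x = M.m i y
  · -- equal types
    have hc : c x = c y := by rw [hcx, hcy, hix]
    have : asg M j k (insert y (U.erase x)) = colSwap x y hc (asg M j k U) := by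
      apply X3.ext
      funext l z
      show _ = (asg M j k U).m l (Equiv.swap x y z)
      by_cases hzx : z = x
      · subst hzx
        rw [Equiv.swap_apply_left, asg_apply M hjk hV, asg_apply M hjk hU, if_pos hxP, if_pos hyP]
        by_cases hl : l = j
        · rw [if_pos hl, if_pos hl]; simp [hxV, hy]
        · by_cases hl' : l = k
          · rw [if_neg hl, if_neg hl, if_pos hl', if_pos hl']; simp [hxV, hy]
          · rw [if_neg hl, if_neg hl, if_neg hl', if_neg hl', fin3_eq hij hik hjk hl hl', hix]
      · by_cases hzy : z = y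
        · subst hzy
          rw [Equiv.swap_apply_right, asg_apply M hjk hV, asg_apply M hjk hU, if_pos hxP, if_pos hyP]
          by_cases hl : l = j
          · rw [if_pos hl, if_pos hl]; simp [hx]
          · by_cases hl' : l = k
            · rw [if_neg hl, if_neg hl, if_pos hl', if_pos hl']; simp [hx]
            · rw [if_neg hl, if_neg hl, if_neg hl', if_neg hl', fin3_eq hij hik hjk hl hl', hix]
        · rw [Equiv.swap_apply_of_ne_of_ne hzx hzy, asg_apply M hjk hV, asg_apply M hjk hU]
          simp only [mem_insert, mem_erase, hzx, hzy, false_or, ne_eq, not_false_eq_true, true_and]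
    rw [this, hsym]
  · -- different types
    have hoth : ∀ l z, z ≠ x → z ≠ y →
        (asg M j k (insert y (U.erase x))).m l z = (asg M j k U).m l z := by
      intro l z hzx hzy
      rw [asg_apply M hjk hV, asg_apply M hjk hU]
      simp only [mem_insert, mem_erase, hzx, hzy, false_or, ne_eq, not_false_eq_true, true_and]
    by_cases hx1 : M.m i x = false
    · have hy1 : M.m i y = true := by
        cases h : M.m i y
        · exact absurd (hx1.trans h.symm) hix
        · rfl
      apply hmix j k x y
      refine ⟨hjk, by rw [hcx, hx1]; rfl, by rw [hcy, hy1]; rfl, ?_, ?_, ?_, ?_, hoth⟩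
      · rw [asg_apply M hjk hU, if_pos hxP, if_pos rfl]; simp [hx]
      · rw [asg_apply M hjk hU, if_pos hyP, if_pos rfl]; simp [hy]
      · rw [asg_apply M hjk hV, if_pos hxP, if_neg hjk.symm, if_pos rfl]; simp [hxy]
      · rw [asg_apply M hjk hV, if_pos hyP, if_neg hjk.symm, if_pos rfl]; simp
    · have hx1' : M.m i x = true := by simpa using hx1
      have hy1 : M.m i y = false := by
        cases h : M.m i y
        · rfl
        · exact absurd (hx1'.trans h.symm) hix
      apply hmix k j y x
      refine ⟨hjk.symm, by rw [hcy, hy1]; rfl, by rw [hcx, hx1']; rfl, ?_, ?_, ?_, ?_,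
        fun l z hzy hzx => hoth l z hzx hzy⟩
      · rw [asg_apply M hjk hU, if_pos hyP, if_neg hjk.symm, if_pos rfl]; simp [hy]
      · rw [asg_apply M hjk hU, if_pos hxP, if_neg hjk.symm, if_pos rfl]; simp [hx]
      · rw [asg_apply M hjk hV, if_pos hyP, if_pos rfl]; simp
      · rw [asg_apply M hjk hV, if_pos hxP, if_pos rfl]; simp [hxy]

/-- STEP 3 -/
theorem step3 {v : X3 C r c → ℝ}
    (hsym : ∀ (a b : C) (h : c a = c b) (M : X3 C r c), v (colSwap a b h M) = v M)
    (hmix : ∀ (i j : Fin 3) (a b : C) (M M' : X3 C r c), Mixed i j a b M M' → v M' = v M)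
    (i : Fin 3) : avg (sameRow i) v = v := by
  obtain ⟨j, k, hij, hik, hjk⟩ : ∃ j k : Fin 3, i ≠ j ∧ i ≠ k ∧ j ≠ k := by
    fin_cases i
    · exact ⟨1, 2, by simp, by simp, by simp⟩
    · exact ⟨0, 2, by simp, by simp, by simp⟩
    · exact ⟨0, 1, by simp, by simp, by simp⟩
  apply avg_of_inv (sameRow_equiv i)
  intro M N hMN
  have key : ∀ (n : ℕ) (U W : Finset C), U ∈ (priv M j k).powersetCard (scount M j k) →
      W ∈ (priv M j k).powersetCard (scount M j k) → (U \ W).card = n →
      v (asg M j k U) = v (asg M j k W) := by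
    intro n
    induction n with
    | zero =>
      intro U W hU hW h0
      have hsub : U ⊆ W := by
        rw [card_eq_zero, sdiff_eq_empty_iff_subset] at h0; exact h0
      have : U = W := eq_of_subset_of_card_le hsub (by
        rw [(mem_powersetCard.1 hU).2, (mem_powersetCard.1 hW).2])
      rw [this]
    | succ n ih =>
      intro U W hU hW hn
      have hne : (U \ W).Nonempty := card_pos.1 (by omega)
      obtain ⟨x, hx⟩ := hne
      have hcard : (W \ U).card = (U \ W).card := by
        have h1 := card_sdiff_add_card_inter U W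
        have h2 := card_sdiff_add_card_inter W U
        rw [inter_comm W U] at h2
        rw [(mem_powersetCard.1 hU).2] at h1
        rw [(mem_powersetCard.1 hW).2] at h2
        omega
      have hne' : (W \ U).Nonempty := card_pos.1 (by omega)
      obtain ⟨y, hy⟩ := hne'
      rw [mem_sdiff] at hx hy
      obtain ⟨hV, hv⟩ := exchange hsym hmix M hij hik hjk hU hx.1 hy.2
        ((mem_powersetCard.1 hW).1 hy.1)
      rw [← hv]
      apply ih _ _ hV hW
      have : insert y (U.erase x) \ W = (U \ W).erase x := by
        ext z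
        simp only [mem_sdiff, mem_insert, mem_erase]
        constructor
        · rintro ⟨rfl | ⟨h1, h2⟩, h3⟩
          · exact absurd hy.1 h3
          · exact ⟨h1, h2, h3⟩
        · rintro ⟨h1, h2, h3⟩; exact ⟨Or.inr ⟨h1, h2⟩, h3⟩
      rw [this, card_erase_of_mem (mem_sdiff.2 hx)]
      omega
  have hM : M ∈ cls (sameRow i) M := mem_cls.2 rfl
  have hN : N ∈ cls (sameRow i) M := mem_cls.2 hMN
  rw [cls_eq_image M hij hik hjk, mem_image] at hM hN
  obtain ⟨U, hU, hUM⟩ := hM
  obtain ⟨W, hW, hWN⟩ := hN
  have := key _ U W hU hW rfl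
  rwa [hUM, hWN] at this

/-- eigenvectors of `∑ avg` with eigenvalue `> 2` are invariant -/
theorem eigen_dichotomy {v : X3 C r c → ℝ} {lam : ℝ} (hlam : 2 < lam)
    (hS : ∀ M, ∑ i, avg (sameRow i) v M = lam * v M) (i : Fin 3) :
    avg (sameRow i) v = v :=
  step3 (fun a b h M => step1 hlam hS a b h M) (fun _ _ _ _ _ _ hM => step2 hlam hS hM) i

/-- 3-row theorem -/
theorem three_row_aux (g : X3 C r c → ℝ) :
    0 ≤ ip (g - avg (sameRow 0) g) (g - avg (sameRow 1) g)
      + ip (g - avg (sameRow 0) g) (g - avg (sameRow 2) g)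
      + ip (g - avg (sameRow 1) g) (g - avg (sameRow 2) g) := by
  let A : (X3 C r c → ℝ) →ₗ[ℝ] (X3 C r c → ℝ) :=
    ∑ i : Fin 3, (LinearMap.id - avgL (sameRow i))
  have hAf : ∀ f, A f = (f - avg (sameRow 0) f) + (f - avg (sameRow 1) f)
      + (f - avg (sameRow 2) f) := by
    intro f
    simp only [A, Fin.sum_univ_three, LinearMap.add_apply, LinearMap.sub_apply,
      LinearMap.id_apply, avgL_apply]
  have hsub : ∀ (i : Fin 3) (f h : X3 C r c → ℝ),
      ip (f - avg (sameRow i) f) h = ip f (h - avg (sameRow i) h) := by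
    intro i f h
    rw [ip_sub_left, ip_sub_right, ip_avg (sameRow_equiv i)]
  have hA : ∀ f h, ip (A f) h = ip f (A h) := by
    intro f h
    rw [hAf, hAf, ip_add_left, ip_add_left, ip_add_right, ip_add_right, hsub, hsub, hsub]
  have hidem : ∀ (i : Fin 3) (f : X3 C r c → ℝ),
      ip f (f - avg (sameRow i) f) = ip (f - avg (sameRow i) f) (f - avg (sameRow i) f) := by
    intro i f
    rw [hsub i f (f - avg (sameRow i) f), avg_sub, avg_idem (sameRow_equiv i), sub_self, sub_zero]
  have hq := quad_of_eigen A hA 1 (by
    intro v μ hv hμ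
    by_cases hlt : μ < 1
    · have hS : ∀ M, ∑ i, avg (sameRow i) v M = (3 - μ) * v M := by
        intro M
        have := congrFun hμ M
        rw [hAf] at this
        simp only [Pi.add_apply, Pi.sub_apply, Pi.smul_apply, smul_eq_mul] at this
        rw [Fin.sum_univ_three]
        linarith
      have hinv := eigen_dichotomy (by linarith : (2 : ℝ) < 3 - μ) hS
      have hA0 : A v = 0 := by
        rw [hAf, hinv, hinv, hinv]; simp
      rw [hA0] at hμ
      have hμ0 : μ = 0 := by
        by_contra hne
        exact hv ((smul_eq_zero.1 hμ.symm).resolve_left hne)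
      rw [hμ0]; norm_num
    · push Not at hlt
      nlinarith) g
  have e1 : ip g (A g) = ip (g - avg (sameRow 0) g) (g - avg (sameRow 0) g)
      + ip (g - avg (sameRow 1) g) (g - avg (sameRow 1) g)
      + ip (g - avg (sameRow 2) g) (g - avg (sameRow 2) g) := by
    rw [hAf, ip_add_right, ip_add_right, hidem, hidem, hidem]
  rw [e1, hAf] at hq
  simp only [ip_add_left, ip_add_right] at hq
  rw [ip_comm (g - avg (sameRow 1) g) (g - avg (sameRow 0) g),
    ip_comm (g - avg (sameRow 2) g) (g - avg (sameRow 0) g),
    ip_comm (g - avg (sameRow 2) g) (g - avg (sameRow 1) g)] at hq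
  linarith

end X3

/-- 3-row theorem -/
theorem three_row {C : Type*} [Fintype C] (r : Fin 3 → ℕ) (c : C → ℕ) (g : X3 C r c → ℝ) :
    0 ≤ ip (g - avg (sameRow 0) g) (g - avg (sameRow 1) g)
      + ip (g - avg (sameRow 0) g) (g - avg (sameRow 2) g)
      + ip (g - avg (sameRow 1) g) (g - avg (sameRow 2) g) := three_row_aux g

end Vale.Agent.KTV
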