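import Vale.Agent.KTV.Rel

open Finset
open scoped Classical

set_option linter.unusedSectionVars false
set_option linter.unusedVariables false

namespace Vale.Agent.KTV

section Triple
variable {V : Type*} [Fintype V] {d : V → ℕ}

theorem sum_split3 (F : V → ℕ) {u v w : V} (huv : u ≠ v) (huw : u ≠ w) (hvw : v ≠ w) :
    ∑ b, F b = F u + F v + F w +
      ∑ b ∈ univ.filter (fun b => b ≠ u ∧ b ≠ v ∧ b ≠ w), F b := by
  rw [← Finset.add_sum_erase univ F (mem_univ u),
    ← Finset.add_sum_erase (univ.erase u) F (mem_erase.2 ⟨huv.symm, mem_univ v⟩),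
    ← Finset.add_sum_erase ((univ.erase u).erase v) F
      (mem_erase.2 ⟨hvw.symm, mem_erase.2 ⟨huw.symm, mem_univ w⟩⟩)]
  have : ((univ.erase u).erase v).erase w = univ.filter (fun b => b ≠ u ∧ b ≠ v ∧ b ≠ w) := by
    ext b; simp; tauto
  rw [this]
  ring

/-- the adjacency matrix built from a three-row matrix -/
noncomputable def tadj (u v w : V) (A0 : V → V → Bool) (M : Fin 3 → V → Bool) (a b : V) : Bool :=
  if a = u then
    (if b = u then false else if b = v then !(M 2 u) else if b = w then !(M 1 u) else M 0 b)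
  else if a = v then
    (if b = u then !(M 2 u) else if b = v then false else if b = w then !(M 0 u) else M 1 b)
  else if a = w then
    (if b = u then !(M 1 u) else if b = v then !(M 0 u) else if b = w then false else M 2 b)
  else (if b = u then M 0 a else if b = v then M 1 a else if b = w then M 2 a else A0 a b)

/-- the three-row matrix of an adjacency matrix -/
noncomputable def psi (u v w : V) (A : V → V → Bool) (l : Fin 3) (x : V) : Bool :=
  if x = u then !(![A v w, A u w, A u v] l)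
  else if x = v ∨ x = w then false else A (![u, v, w] l) x

variable {u v w : V}

theorem tadj_symm (huv : u ≠ v) (huw : u ≠ w) (hvw : v ≠ w) {A0 : V → V → Bool}
    (hs : ∀ a b, A0 a b = A0 b a) (M : Fin 3 → V → Bool) (a b : V) :
    tadj u v w A0 M a b = tadj u v w A0 M b a := by
  have := huv.symm
  have := huw.symm
  have := hvw.symm
  unfold tadj
  by_cases a1 : a = u
  · by_cases b1 : b = u
    · simp_all
    by_cases b2 : b = v
    · simp_all
    by_cases b3 : b = w
    · simp_all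
    simp_all
  by_cases a2 : a = v
  · by_cases b1 : b = u
    · simp_all
    by_cases b2 : b = v
    · simp_all
    by_cases b3 : b = w
    · simp_all
    simp_all
  by_cases a3 : a = w
  · by_cases b1 : b = u
    · simp_all
    by_cases b2 : b = v
    · simp_all
    by_cases b3 : b = w
    · simp_all
    simp_all
  by_cases b1 : b = u
  · simp_all
  by_cases b2 : b = v
  · simp_all
  by_cases b3 : b = w
  · simp_all
  simp only [if_neg a1, if_neg a2, if_neg a3, if_neg b1, if_neg b2, if_neg b3]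
  exact hs a b

theorem tadj_irrefl (huv : u ≠ v) (huw : u ≠ w) (hvw : v ≠ w) {A0 : V → V → Bool}
    (hi : ∀ a, A0 a a = false) (M : Fin 3 → V → Bool) (a : V) :
    tadj u v w A0 M a a = false := by
  unfold tadj
  by_cases a1 : a = u
  · simp_all
  by_cases a2 : a = v
  · simp_all
  by_cases a3 : a = w
  · simp_all
  simp only [if_neg a1, if_neg a2, if_neg a3]
  exact hi a

theorem toNat_not' (b : Bool) : (!b).toNat + b.toNat = 1 := by cases b <;> rfl

theorem tadj_sum_u (huv : u ≠ v) (huw : u ≠ w) (hvw : v ≠ w) (A0 : V → V → Bool)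
    (M : Fin 3 → V → Bool) :
    ∑ b, (tadj u v w A0 M u b).toNat + ((M 0 u).toNat + (M 1 u).toNat + (M 2 u).toNat)
      + ((M 0 v).toNat + (M 0 w).toNat) = ∑ b, (M 0 b).toNat + 2 := by
  rw [sum_split3 _ huv huw hvw, sum_split3 (fun b => (M 0 b).toNat) huv huw hvw]
  have h : ∑ b ∈ univ.filter (fun b => b ≠ u ∧ b ≠ v ∧ b ≠ w), (tadj u v w A0 M u b).toNat
      = ∑ b ∈ univ.filter (fun b => b ≠ u ∧ b ≠ v ∧ b ≠ w), (M 0 b).toNat := by
    apply sum_congr rfl
    intro b hb
    simp only [mem_filter, mem_univ, true_and] at hb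
    simp [tadj, hb.1, hb.2.1, hb.2.2]
  rw [h]
  have e1 : tadj u v w A0 M u u = false := by simp [tadj]
  have e2 : tadj u v w A0 M u v = !(M 2 u) := by simp [tadj, huv.symm]
  have e3 : tadj u v w A0 M u w = !(M 1 u) := by simp [tadj, huw.symm, hvw.symm]
  rw [e1, e2, e3]
  have := toNat_not' (M 1 u)
  have := toNat_not' (M 2 u)
  simp only [Bool.toNat_false]
  omega

theorem tadj_sum_v (huv : u ≠ v) (huw : u ≠ w) (hvw : v ≠ w) (A0 : V → V → Bool)
    (M : Fin 3 → V → Bool) :
    ∑ b, (tadj u v w A0 M v b).toNat + ((M 0 u).toNat + (M 1 u).toNat + (M 2 u).toNat)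
      + ((M 1 v).toNat + (M 1 w).toNat) = ∑ b, (M 1 b).toNat + 2 := by
  rw [sum_split3 _ huv huw hvw, sum_split3 (fun b => (M 1 b).toNat) huv huw hvw]
  have h : ∑ b ∈ univ.filter (fun b => b ≠ u ∧ b ≠ v ∧ b ≠ w), (tadj u v w A0 M v b).toNat
      = ∑ b ∈ univ.filter (fun b => b ≠ u ∧ b ≠ v ∧ b ≠ w), (M 1 b).toNat := by
    apply sum_congr rfl
    intro b hb
    simp only [mem_filter, mem_univ, true_and] at hb
    simp [tadj, hb.1, hb.2.1, hb.2.2, huv.symm]
  rw [h]
  have e1 : tadj u v w A0 M v u = !(M 2 u) := by simp [tadj, huv.symm]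
  have e2 : tadj u v w A0 M v v = false := by simp [tadj, huv.symm]
  have e3 : tadj u v w A0 M v w = !(M 0 u) := by simp [tadj, huw.symm, hvw.symm, huv.symm]
  rw [e1, e2, e3]
  have := toNat_not' (M 0 u)
  have := toNat_not' (M 2 u)
  simp only [Bool.toNat_false]
  omega

theorem tadj_sum_w (huv : u ≠ v) (huw : u ≠ w) (hvw : v ≠ w) (A0 : V → V → Bool)
    (M : Fin 3 → V → Bool) :
    ∑ b, (tadj u v w A0 M w b).toNat + ((M 0 u).toNat + (M 1 u).toNat + (M 2 u).toNat)
      + ((M 2 v).toNat + (M 2 w).toNat) = ∑ b, (M 2 b).toNat + 2 := by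
  rw [sum_split3 _ huv huw hvw, sum_split3 (fun b => (M 2 b).toNat) huv huw hvw]
  have h : ∑ b ∈ univ.filter (fun b => b ≠ u ∧ b ≠ v ∧ b ≠ w), (tadj u v w A0 M w b).toNat
      = ∑ b ∈ univ.filter (fun b => b ≠ u ∧ b ≠ v ∧ b ≠ w), (M 2 b).toNat := by
    apply sum_congr rfl
    intro b hb
    simp only [mem_filter, mem_univ, true_and] at hb
    simp [tadj, hb.1, hb.2.1, hb.2.2, huw.symm, hvw.symm]
  rw [h]
  have e1 : tadj u v w A0 M w u = !(M 1 u) := by simp [tadj, huw.symm, hvw.symm]
  have e2 : tadj u v w A0 M w v = !(M 0 u) := by simp [tadj, huv.symm, huw.symm, hvw.symm]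
  have e3 : tadj u v w A0 M w w = false := by simp [tadj, huw.symm, hvw.symm]
  rw [e1, e2, e3]
  have := toNat_not' (M 0 u)
  have := toNat_not' (M 1 u)
  simp only [Bool.toNat_false]
  omega

theorem tadj_sum_x (huv : u ≠ v) (huw : u ≠ w) (hvw : v ≠ w) (A0 : V → V → Bool)
    (M : Fin 3 → V → Bool) {x : V} (xu : x ≠ u) (xv : x ≠ v) (xw : x ≠ w) :
    ∑ b, (tadj u v w A0 M x b).toNat = ((M 0 x).toNat + (M 1 x).toNat + (M 2 x).toNat)
      + ∑ b ∈ univ.filter (fun b => b ≠ u ∧ b ≠ v ∧ b ≠ w), (A0 x b).toNat := by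
  rw [sum_split3 _ huv huw hvw]
  have h : ∑ b ∈ univ.filter (fun b => b ≠ u ∧ b ≠ v ∧ b ≠ w), (tadj u v w A0 M x b).toNat
      = ∑ b ∈ univ.filter (fun b => b ≠ u ∧ b ≠ v ∧ b ≠ w), (A0 x b).toNat := by
    apply sum_congr rfl
    intro b hb
    simp only [mem_filter, mem_univ, true_and] at hb
    simp [tadj, hb.1, hb.2.1, hb.2.2, xu, xv, xw]
  rw [h]
  have e1 : tadj u v w A0 M x u = M 0 x := by simp [tadj, xu, xv, xw]
  have e2 : tadj u v w A0 M x v = M 1 x := by simp [tadj, xu, xv, xw, huv.symm]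
  have e3 : tadj u v w A0 M x w = M 2 x := by simp [tadj, xu, xv, xw, huw.symm, hvw.symm]
  rw [e1, e2, e3]

theorem tadj_deg (huv : u ≠ v) (huw : u ≠ w) (hvw : v ≠ w) (A0 : V → V → Bool)
    {M N : Fin 3 → V → Bool} (hr : ∀ i, ∑ x, (M i x).toNat = ∑ x, (N i x).toNat)
    (hc : ∀ x, ∑ i, (M i x).toNat = ∑ i, (N i x).toNat)
    (hv : ∑ i, (M i v).toNat = 0) (hw : ∑ i, (M i w).toNat = 0) (a : V) :
    ∑ b, (tadj u v w A0 M a b).toNat = ∑ b, (tadj u v w A0 N a b).toNat := by
  have hv' := (hc v).symm.trans hv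
  have hw' := (hc w).symm.trans hw
  simp only [Fin.sum_univ_three] at hc hv hw hv' hw'
  have hu := hc u
  by_cases au : a = u
  · subst au
    have h1 := tadj_sum_u huv huw hvw A0 M
    have h2 := tadj_sum_u huv huw hvw A0 N
    have h3 := hr 0
    omega
  by_cases av : a = v
  · subst av
    have h1 := tadj_sum_v huv huw hvw A0 M
    have h2 := tadj_sum_v huv huw hvw A0 N
    have h3 := hr 1
    omega
  by_cases aw : a = w
  · subst aw
    have h1 := tadj_sum_w huv huw hvw A0 M
    have h2 := tadj_sum_w huv huw hvw A0 N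
    have h3 := hr 2
    omega
  have h1 := tadj_sum_x huv huw hvw A0 M au av aw
  have h2 := tadj_sum_x huv huw hvw A0 N au av aw
  have h3 := hc a
  omega

/-- agreement outside `{u,v,w}` and equal number of edges inside -/
def trel (u v w : V) (A B : Om d) : Prop :=
  (∀ a b, (a ≠ u ∧ a ≠ v ∧ a ≠ w) → (b ≠ u ∧ b ≠ v ∧ b ≠ w) → A.adj a b = B.adj a b) ∧
    (A.adj u v).toNat + (A.adj u w).toNat + (A.adj v w).toNat =
      (B.adj u v).toNat + (B.adj u w).toNat + (B.adj v w).toNat

theorem trel_equiv (u v w : V) : Equivalence (trel u v w : Om d → Om d → Prop) :=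
  ⟨fun _ => ⟨fun _ _ _ _ => rfl, rfl⟩, fun h => ⟨fun a b ha hb => (h.1 a b ha hb).symm, h.2.symm⟩,
    fun h h' => ⟨fun a b ha hb => (h.1 a b ha hb).trans (h'.1 a b ha hb), h.2.trans h'.2⟩⟩

theorem tadj_psi (huv : u ≠ v) (huw : u ≠ w) (hvw : v ≠ w) {A0 A : Om d}
    (h : ∀ a b, (a ≠ u ∧ a ≠ v ∧ a ≠ w) → (b ≠ u ∧ b ≠ v ∧ b ≠ w) → A0.adj a b = A.adj a b) :
    tadj u v w A0.adj (psi u v w A.adj) = A.adj := by
  have hs := A.symm
  have hi := A.irrefl
  have huv' := huv.symm
  have huw' := huw.symm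
  have hvw' := hvw.symm
  funext a b
  unfold tadj psi
  by_cases a1 : a = u
  · by_cases b1 : b = u
    · rw [a1, b1]; simp [hi]
    by_cases b2 : b = v
    · rw [a1, b2]; simp [huv']
    by_cases b3 : b = w
    · rw [a1, b3]; simp [huw', hvw']
    rw [a1]; simp [b1, b2, b3]
  by_cases a2 : a = v
  · by_cases b1 : b = u
    · rw [a2, b1]; simp [huv', hs v u]
    by_cases b2 : b = v
    · rw [a2, b2]; simp [hi, huv']
    by_cases b3 : b = w
    · rw [a2, b3]; simp [huv', huw', hvw']
    rw [a2]; simp [b1, b2, b3, huv']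
  by_cases a3 : a = w
  · by_cases b1 : b = u
    · rw [a3, b1]; simp [huw', hvw', hs w u]
    by_cases b2 : b = v
    · rw [a3, b2]; simp [huv', huw', hvw', hs w v]
    by_cases b3 : b = w
    · rw [a3, b3]; simp [hi, huw', hvw']
    rw [a3]; simp [b1, b2, b3, huw', hvw']
  by_cases b1 : b = u
  · rw [b1]; simp [a1, a2, a3, hs a u]
  by_cases b2 : b = v
  · rw [b2]; simp [a1, a2, a3, huv', hs a v]
  by_cases b3 : b = w
  · rw [b3]; simp [a1, a2, a3, huw', hvw', hs a w]
  simp only [if_neg a1, if_neg a2, if_neg a3, if_neg b1, if_neg b2, if_neg b3]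
  exact h a b ⟨a1, a2, a3⟩ ⟨b1, b2, b3⟩

theorem psi_col_v (huv : u ≠ v) (A : V → V → Bool) : ∑ i, (psi u v w A i v).toNat = 0 := by
  simp [psi, huv.symm]

theorem psi_col_w (huw : u ≠ w) (A : V → V → Bool) : ∑ i, (psi u v w A i w).toNat = 0 := by
  simp [psi, huw.symm]

/-- the margins of the three-row matrices are constant on the sectors -/
theorem psi_margins (huv : u ≠ v) (huw : u ≠ w) (hvw : v ≠ w) {A B : Om d}
    (h : trel u v w A B) :
    (∀ i, ∑ x, (psi u v w A.adj i x).toNat = ∑ x, (psi u v w B.adj i x).toNat) ∧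
    (∀ x, ∑ i, (psi u v w A.adj i x).toNat = ∑ i, (psi u v w B.adj i x).toNat) := by
  have hA := tadj_psi huv huw hvw (A0 := A) (A := A) (fun _ _ _ _ => rfl)
  have hB := tadj_psi huv huw hvw (A0 := A) (A := B) h.1
  have cu : ∀ A : Om d, (psi u v w A.adj 0 u).toNat + (psi u v w A.adj 1 u).toNat
      + (psi u v w A.adj 2 u).toNat +
      ((A.adj u v).toNat + (A.adj u w).toNat + (A.adj v w).toNat) = 3 := by
    intro A
    have h1 := toNat_not' (A.adj u v)
    have h2 := toNat_not' (A.adj u w)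
    have h3 := toNat_not' (A.adj v w)
    simp only [psi, if_true, Matrix.cons_val_zero, Matrix.cons_val_one, Matrix.cons_val]
    omega
  have z : ∀ (A : Om d) (i : Fin 3), (psi u v w A.adj i v).toNat = 0 ∧
      (psi u v w A.adj i w).toNat = 0 := by
    intro A i
    simp [psi, huv.symm, huw.symm]
  have cA := cu A
  have cB := cu B
  have ht := h.2
  constructor
  · intro i
    fin_cases i
    · have h1 := tadj_sum_u huv huw hvw A.adj (psi u v w A.adj)
      have h2 := tadj_sum_u huv huw hvw A.adj (psi u v w B.adj)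
      rw [hA, A.deg] at h1
      rw [hB, B.deg] at h2
      have := z A 0
      have := z B 0
      change ∑ x, (psi u v w A.adj 0 x).toNat = ∑ x, (psi u v w B.adj 0 x).toNat
      omega
    · have h1 := tadj_sum_v huv huw hvw A.adj (psi u v w A.adj)
      have h2 := tadj_sum_v huv huw hvw A.adj (psi u v w B.adj)
      rw [hA, A.deg] at h1
      rw [hB, B.deg] at h2
      have := z A 1
      have := z B 1
      change ∑ x, (psi u v w A.adj 1 x).toNat = ∑ x, (psi u v w B.adj 1 x).toNat
      omega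
    · have h1 := tadj_sum_w huv huw hvw A.adj (psi u v w A.adj)
      have h2 := tadj_sum_w huv huw hvw A.adj (psi u v w B.adj)
      rw [hA, A.deg] at h1
      rw [hB, B.deg] at h2
      have := z A 2
      have := z B 2
      change ∑ x, (psi u v w A.adj 2 x).toNat = ∑ x, (psi u v w B.adj 2 x).toNat
      omega
  · intro x
    by_cases x2 : x = v
    · rw [x2, psi_col_v huv, psi_col_v huv]
    by_cases x3 : x = w
    · rw [x3, psi_col_w huw, psi_col_w huw]
    by_cases x1 : x = u
    · rw [x1]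
      simp only [Fin.sum_univ_three]
      omega
    · have h1 := tadj_sum_x huv huw hvw A.adj (psi u v w A.adj) x1 x2 x3
      have h2 := tadj_sum_x huv huw hvw A.adj (psi u v w B.adj) x1 x2 x3
      rw [hA, A.deg] at h1
      rw [hB, B.deg] at h2
      simp only [Fin.sum_univ_three]
      omega

/-- the sector of `A0` as the image of a three-row system -/
noncomputable def theta (huv : u ≠ v) (huw : u ≠ w) (hvw : v ≠ w) (A0 : Om d)
    (M : X3 V (fun i => ∑ x, (psi u v w A0.adj i x).toNat)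
      (fun x => ∑ i, (psi u v w A0.adj i x).toNat)) : Om d where
  adj := tadj u v w A0.adj M.m
  symm := tadj_symm huv huw hvw A0.symm M.m
  irrefl := tadj_irrefl huv huw hvw A0.irrefl M.m
  deg a := by
    have h := tadj_deg huv huw hvw A0.adj (M := M.m) (N := psi u v w A0.adj) M.row M.col
      ((M.col v).trans (psi_col_v huv _)) ((M.col w).trans (psi_col_w huw _)) a
    rw [h, tadj_psi huv huw hvw (fun _ _ _ _ => rfl), A0.deg]

theorem X3.col_false {r : Fin 3 → ℕ} {c : V → ℕ} (M : X3 V r c) {x : V} (h : c x = 0)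
    (i : Fin 3) : M.m i x = false := by
  have h1 := M.col x
  rw [h, sum_eq_zero_iff] at h1
  have := h1 i (mem_univ i)
  cases hh : M.m i x
  · rfl
  · rw [hh] at this; exact absurd this (by decide)

theorem theta_row (huv : u ≠ v) (huw : u ≠ w) (hvw : v ≠ w) (A0 : Om d)
    (M : X3 V (fun i => ∑ x, (psi u v w A0.adj i x).toNat)
      (fun x => ∑ i, (psi u v w A0.adj i x).toNat)) :
    psi u v w (theta huv huw hvw A0 M).adj = M.m := by
  have huv' := huv.symm
  have huw' := huw.symm
  have hvw' := hvw.symm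
  funext i x
  by_cases x2 : x = v
  · rw [x2, M.col_false (psi_col_v huv _)]
    simp [psi, huv']
  by_cases x3 : x = w
  · rw [x3, M.col_false (psi_col_w huw _)]
    simp [psi, huw']
  by_cases x1 : x = u
  · rw [x1]
    fin_cases i
    · simp [psi, theta, tadj, huv', huw', hvw']
    · simp [psi, theta, tadj, huw', hvw']
    · simp [psi, theta, tadj, huv']
  · fin_cases i
    · simp [psi, theta, tadj, x1, x2, x3]
    · simp [psi, theta, tadj, x1, x2, x3, huv']
    · simp [psi, theta, tadj, x1, x2, x3, huw', hvw']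

theorem theta_injective (huv : u ≠ v) (huw : u ≠ w) (hvw : v ≠ w) (A0 : Om d) :
    Function.Injective (theta huv huw hvw A0) := by
  intro M N h
  apply X3.ext
  rw [← theta_row huv huw hvw A0 M, ← theta_row huv huw hvw A0 N, h]

theorem theta_out (huv : u ≠ v) (huw : u ≠ w) (hvw : v ≠ w) (A0 : Om d)
    (M : X3 V (fun i => ∑ x, (psi u v w A0.adj i x).toNat)
      (fun x => ∑ i, (psi u v w A0.adj i x).toNat)) (a b : V)
    (ha : a ≠ u ∧ a ≠ v ∧ a ≠ w) (hb : b ≠ u ∧ b ≠ v ∧ b ≠ w) :
    (theta huv huw hvw A0 M).adj a b = A0.adj a b := by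
  simp [theta, tadj, ha.1, ha.2.1, ha.2.2, hb.1, hb.2.1, hb.2.2]

theorem theta_trel (huv : u ≠ v) (huw : u ≠ w) (hvw : v ≠ w) (A0 : Om d)
    (M : X3 V (fun i => ∑ x, (psi u v w A0.adj i x).toNat)
      (fun x => ∑ i, (psi u v w A0.adj i x).toNat)) :
    trel u v w A0 (theta huv huw hvw A0 M) := by
  refine ⟨fun a b ha hb => (theta_out huv huw hvw A0 M a b ha hb).symm, ?_⟩
  have h := M.col u
  have h1 := theta_row huv huw hvw A0 M
  have cu : ∀ A : Om d, (psi u v w A.adj 0 u).toNat + (psi u v w A.adj 1 u).toNat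
      + (psi u v w A.adj 2 u).toNat +
      ((A.adj u v).toNat + (A.adj u w).toNat + (A.adj v w).toNat) = 3 := by
    intro A
    have h1 := toNat_not' (A.adj u v)
    have h2 := toNat_not' (A.adj u w)
    have h3 := toNat_not' (A.adj v w)
    simp only [psi, if_true, Matrix.cons_val_zero, Matrix.cons_val_one, Matrix.cons_val]
    omega
  have h2 := cu A0
  have h3 := cu (theta huv huw hvw A0 M)
  rw [h1] at h3
  simp only [Fin.sum_univ_three] at h
  omega

theorem exists_theta (huv : u ≠ v) (huw : u ≠ w) (hvw : v ≠ w) {A0 A : Om d}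
    (h : trel u v w A0 A) : ∃ M, theta huv huw hvw A0 M = A := by
  obtain ⟨h1, h2⟩ := psi_margins huv huw hvw h
  refine ⟨⟨psi u v w A.adj, fun i => (h1 i).symm, fun x => (h2 x).symm⟩, ?_⟩
  apply Om.ext
  exact tadj_psi huv huw hvw h.1

theorem cls_trel (huv : u ≠ v) (huw : u ≠ w) (hvw : v ≠ w) (A0 : Om d) :
    cls (trel u v w) A0 = univ.image (theta huv huw hvw A0) := by
  ext A
  rw [mem_cls, mem_image]
  constructor
  · intro h
    obtain ⟨M, hM⟩ := exists_theta huv huw hvw h
    exact ⟨M, mem_univ _, hM⟩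
  · rintro ⟨M, _, rfl⟩
    exact theta_trel huv huw hvw A0 M

/-- resampling two of the three rows stays in the sector -/
theorem trel_of_pr (huv : u ≠ v) (huw : u ≠ w) (hvw : v ≠ w) {A B : Om d} (h : pr u v A B) :
    trel u v w A B := by
  have huv' := huv.symm
  have huw' := huw.symm
  have hvw' := hvw.symm
  refine ⟨fun a b ha hb => h a b ?_, ?_⟩
  · simp [ha.1, ha.2.1, hb.1, hb.2.1]
  · have e1 : A.adj u v = B.adj u v := h u v (by simp)
    have dA := A.deg w
    have dB := B.deg w
    rw [sum_split3 _ huv huw hvw] at dA dB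
    have e2 : ∑ b ∈ univ.filter (fun b => b ≠ u ∧ b ≠ v ∧ b ≠ w), (A.adj w b).toNat
        = ∑ b ∈ univ.filter (fun b => b ≠ u ∧ b ≠ v ∧ b ≠ w), (B.adj w b).toNat := by
      apply sum_congr rfl
      intro b hb
      simp only [mem_filter, mem_univ, true_and] at hb
      rw [h w b (by simp [hb.1, hb.2.1, huw', hvw'])]
    rw [A.irrefl, A.symm w u, A.symm w v] at dA
    rw [B.irrefl, B.symm w u, B.symm w v] at dB
    rw [e1]
    omega

theorem trel_perm1 {A B : Om d} (h : trel u v w A B) : trel u w v A B := by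
  refine ⟨fun a b ha hb => h.1 a b ⟨ha.1, ha.2.2, ha.2.1⟩ ⟨hb.1, hb.2.2, hb.2.1⟩, ?_⟩
  have := h.2
  rw [A.symm w v, B.symm w v]
  omega

theorem trel_perm2 {A B : Om d} (h : trel u v w A B) : trel v w u A B := by
  refine ⟨fun a b ha hb => h.1 a b ⟨ha.2.2, ha.1, ha.2.1⟩ ⟨hb.2.2, hb.1, hb.2.1⟩, ?_⟩
  have := h.2
  rw [A.symm v u, B.symm v u, A.symm w u, B.symm w u]
  omega

/-- inside a sector, the relation `pr u v` is equality of the third row -/
theorem pr_iff_row (huv : u ≠ v) (huw : u ≠ w) (hvw : v ≠ w) {A B : Om d}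
    (h : trel u v w A B) : pr u v A B ↔ (A.adj u v = B.adj u v ∧
      ∀ x, x ≠ u → x ≠ v → x ≠ w → A.adj w x = B.adj w x) := by
  constructor
  · intro h'
    refine ⟨h' u v (by simp), fun x h1 h2 _ => h' w x ?_⟩
    simp [h1, h2, huw.symm, hvw.symm]
  · rintro ⟨h1, h2⟩ a b hab
    by_cases ha : a = u ∨ a = v
    · have hb := hab.mp ha
      rcases ha with rfl | rfl <;> rcases hb with rfl | rfl
      · rw [A.irrefl, B.irrefl]
      · exact h1
      · rw [A.symm, B.symm]; exact h1
      · rw [A.irrefl, B.irrefl]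
    · have hb : ¬ (b = u ∨ b = v) := fun hb => ha (hab.mpr hb)
      push Not at ha hb
      by_cases aw : a = w
      · rw [aw]
        by_cases bw : b = w
        · rw [bw, A.irrefl, B.irrefl]
        · exact h2 b hb.1 hb.2 bw
      · by_cases bw : b = w
        · rw [bw, A.symm a w, B.symm a w]
          exact h2 a ha.1 ha.2 aw
        · exact h.1 a b ⟨ha.1, ha.2, aw⟩ ⟨hb.1, hb.2, bw⟩

theorem avg_theta (huv : u ≠ v) (huw : u ≠ w) (hvw : v ≠ w) (A0 : Om d) (f : Om d → ℝ)
    (r : Om d → Om d → Prop) (i : Fin 3)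
    (hr : ∀ A B, r A B → trel u v w A B)
    (hi : ∀ M N, r (theta huv huw hvw A0 M) (theta huv huw hvw A0 N) ↔ sameRow i M N)
    (M : X3 V (fun i => ∑ x, (psi u v w A0.adj i x).toNat)
      (fun x => ∑ i, (psi u v w A0.adj i x).toNat)) :
    avg (sameRow i) (fun N => f (theta huv huw hvw A0 N)) M =
      avg r f (theta huv huw hvw A0 M) := by
  apply avg_transfer (theta huv huw hvw A0) (theta_injective huv huw hvw A0)
  intro A
  constructor
  · intro h
    obtain ⟨N, hN⟩ := exists_theta huv huw hvw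
      ((trel_equiv u v w).trans (theta_trel huv huw hvw A0 M) (hr _ _ h))
    exact ⟨N, (hi M N).mp (by rw [hN]; exact h), hN⟩
  · rintro ⟨N, h1, rfl⟩
    exact (hi M N).mpr h1

theorem theta_pr (huv : u ≠ v) (huw : u ≠ w) (hvw : v ≠ w) (A0 : Om d)
    (M N : X3 V (fun i => ∑ x, (psi u v w A0.adj i x).toNat)
      (fun x => ∑ i, (psi u v w A0.adj i x).toNat)) :
    (pr u v (theta huv huw hvw A0 M) (theta huv huw hvw A0 N) ↔ sameRow 2 M N) ∧
    (pr u w (theta huv huw hvw A0 M) (theta huv huw hvw A0 N) ↔ sameRow 1 M N) ∧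
    (pr v w (theta huv huw hvw A0 M) (theta huv huw hvw A0 N) ↔ sameRow 0 M N) := by
  have huv' := huv.symm
  have huw' := huw.symm
  have hvw' := hvw.symm
  have ht : trel u v w (theta huv huw hvw A0 M) (theta huv huw hvw A0 N) :=
    (trel_equiv u v w).trans ((trel_equiv u v w).symm (theta_trel huv huw hvw A0 M))
      (theta_trel huv huw hvw A0 N)
  have key : ∀ i : Fin 3, sameRow i M N ↔ (M.m i u = N.m i u ∧
      ∀ x, x ≠ u → x ≠ v → x ≠ w → M.m i x = N.m i x) := by
    intro i
    unfold sameRow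
    constructor
    · intro h; exact ⟨congrFun h u, fun x _ _ _ => congrFun h x⟩
    · rintro ⟨h1, h2⟩
      funext x
      by_cases x1 : x = u
      · rw [x1]; exact h1
      by_cases x2 : x = v
      · rw [x2, M.col_false (psi_col_v huv _), N.col_false (psi_col_v huv _)]
      by_cases x3 : x = w
      · rw [x3, M.col_false (psi_col_w huw _), N.col_false (psi_col_w huw _)]
      exact h2 x x1 x2 x3
  have euv : ∀ M, (theta huv huw hvw A0 M).adj u v = !(M.m 2 u) := by
    intro M; simp [theta, tadj, huv']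
  have euw : ∀ M, (theta huv huw hvw A0 M).adj u w = !(M.m 1 u) := by
    intro M; simp [theta, tadj, huw', hvw']
  have evw : ∀ M, (theta huv huw hvw A0 M).adj v w = !(M.m 0 u) := by
    intro M; simp [theta, tadj, huv', huw', hvw']
  have ewx : ∀ M x, x ≠ u → x ≠ v → x ≠ w → (theta huv huw hvw A0 M).adj w x = M.m 2 x := by
    intro M x h1 h2 h3; simp [theta, tadj, huw', hvw', h1, h2, h3]
  have evx : ∀ M x, x ≠ u → x ≠ v → x ≠ w → (theta huv huw hvw A0 M).adj v x = M.m 1 x := by
    intro M x h1 h2 h3; simp [theta, tadj, huv', h1, h2, h3]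
  have eux : ∀ M x, x ≠ u → x ≠ v → x ≠ w → (theta huv huw hvw A0 M).adj u x = M.m 0 x := by
    intro M x h1 h2 h3; simp [theta, tadj, h1, h2, h3]
  have hnot : ∀ a b : Bool, ((!a) = (!b)) ↔ a = b := by decide
  refine ⟨?_, ?_, ?_⟩
  · rw [pr_iff_row huv huw hvw ht, key, euv, euv, hnot]
    apply and_congr_right
    intro _
    constructor
    · intro h x h1 h2 h3
      rw [← ewx M x h1 h2 h3, ← ewx N x h1 h2 h3]; exact h x h1 h2 h3
    · intro h x h1 h2 h3
      rw [ewx M x h1 h2 h3, ewx N x h1 h2 h3]; exact h x h1 h2 h3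
  · rw [pr_iff_row huw huv hvw' (trel_perm1 ht), key, euw, euw, hnot]
    apply and_congr_right
    intro _
    constructor
    · intro h x h1 h2 h3
      rw [← evx M x h1 h2 h3, ← evx N x h1 h2 h3]; exact h x h1 h3 h2
    · intro h x h1 h2 h3
      rw [evx M x h1 h3 h2, evx N x h1 h3 h2]; exact h x h1 h3 h2
  · rw [pr_iff_row hvw huv' huw' (trel_perm2 ht), key, evw, evw, hnot]
    apply and_congr_right
    intro _
    constructor
    · intro h x h1 h2 h3
      rw [← eux M x h1 h2 h3, ← eux N x h1 h2 h3]; exact h x h2 h3 h1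
    · intro h x h1 h2 h3
      rw [eux M x h3 h1 h2, eux N x h3 h1 h2]; exact h x h3 h1 h2

/-- `triple_graph` from the three-row inequality `three_row`; use as
`triple_graph_of (fun r c g => three_row r c g) huv huw hvw f`. -/
theorem triple_graph_of
    (H : ∀ (r : Fin 3 → ℕ) (c : V → ℕ) (g : X3 V r c → ℝ),
      0 ≤ ip (g - avg (sameRow 0) g) (g - avg (sameRow 1) g)
        + ip (g - avg (sameRow 0) g) (g - avg (sameRow 2) g)
        + ip (g - avg (sameRow 1) g) (g - avg (sameRow 2) g))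
    (huv : u ≠ v) (huw : u ≠ w)
    (hvw : v ≠ w) (f : Om d → ℝ) :
    0 ≤ ip (Lp u v f) (Lp u w f) + ip (Lp u v f) (Lp v w f) + ip (Lp u w f) (Lp v w f) := by
  have hmain : ∑ _A : Om d, (0 : ℝ) ≤ ∑ A : Om d, (Lp u v f A * Lp u w f A
      + Lp u v f A * Lp v w f A + Lp u w f A * Lp v w f A) := by
    apply sum_le_sum_of_cls (trel_equiv u v w)
    intro A0
    rw [sum_const_zero, cls_trel huv huw hvw,
      sum_image (fun a _ b _ hab => theta_injective huv huw hvw A0 hab)]
    have h := H _ _ (fun M => f (theta huv huw hvw A0 M))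
    have a2 := avg_theta huv huw hvw A0 f (pr u v) 2
      (fun A B h => trel_of_pr huv huw hvw h) (fun M N => (theta_pr huv huw hvw A0 M N).1)
    have a1 := avg_theta huv huw hvw A0 f (pr u w) 1
      (fun A B h => trel_perm1 (trel_of_pr huw huv hvw.symm h))
      (fun M N => (theta_pr huv huw hvw A0 M N).2.1)
    have a0 := avg_theta huv huw hvw A0 f (pr v w) 0
      (fun A B h => trel_perm2 (trel_perm2 (trel_of_pr hvw huv.symm huw.symm h)))
      (fun M N => (theta_pr huv huw hvw A0 M N).2.2)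
    unfold ip at h
    simp only [Pi.sub_apply, a0, a1, a2] at h
    rw [← sum_add_distrib, ← sum_add_distrib] at h
    refine h.trans_eq ?_
    apply sum_congr rfl
    intro M _
    unfold Lp
    ring
  rw [sum_const_zero] at hmain
  unfold ip
  rw [← sum_add_distrib, ← sum_add_distrib]
  exact hmain

end Triple

end Vale.Agent.KTV
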