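import Vale.Agent.KTV.Assembly
import Vale.Agent.KTV.Connected
import Vale.Agent.KTV.ThreeRow
import Vale.Agent.KTV.Triple
import Vale.Agent.KTV.Disjoint
import Vale.Agent.KTV.GraphJohnson
import Vale.Agent.KTV.Mixing

open Finset
open scoped Classical

namespace Vale.Agent.KTV

/-- Poincaré inequality for the switch chain, for every degree sequence -/
theorem main_poincare {V : Type*} [Fintype V] {d : V → ℕ} (f : Om d → ℝ)
    (hf : ∑ A, f A = 0) :
    16 * ∑ A, f A ^ 2 ≤ ∑ u, ∑ v, ∑ x, ∑ y, ∑ A, (f A - f (tau u v x y A)) ^ 2 :=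
  main_poincare_of (fun u v => pr_equiv u v)
    (fun _ _ _ huv huw hvw f => triple_graph_of (fun r c g => three_row r c g) huv huw hvw f)
    (fun _ _ _ _ h f => disjoint_pairs h f)
    (fun _ _ h f => graph_poincare h f)
    (fun _ _ h f => graph_sep h f)
    (fun f hf => connected_of_tau f hf) f hf

end Vale.Agent.KTV
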