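import Vale.Agent.KTV.Avg
import Vale.Agent.KTV.Chain

open Finset
open scoped Classical

namespace Vale.Agent.KTV

variable {n : ℕ} {d : Fin n → ℕ}

theorem degree_eq_sum (G : SimpleGraph (Fin n)) (inst : ∀ v, Fintype (G.neighborSet v))
    (a : Fin n) : ∑ b, (decide (G.Adj a b)).toNat = G.degree a := by
  have h1 : ∀ b, (decide (G.Adj a b)).toNat = if G.Adj a b then 1 else 0 := by
    intro b; by_cases h : G.Adj a b <;> simp [h]
  rw [sum_congr rfl (fun b _ => h1 b), ← card_filter, SimpleGraph.degree]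
  congr 1
  ext b
  simp

/-- adjacency matrix of a realization -/
noncomputable def toOm (G : Realization n d) : Om d where
  adj a b := decide (G.1.Adj a b)
  symm a b := by simp [G.1.adj_comm]
  irrefl a := by simp
  deg a := by
    rw [← G.2 a]
    exact degree_eq_sum G.1 _ a

/-- the graph of an adjacency matrix -/
def graphOf (A : Om d) : SimpleGraph (Fin n) where
  Adj a b := A.adj a b = true
  symm := ⟨fun a b h => by rw [A.symm b a]; exact h⟩
  loopless := ⟨fun a h => by rw [A.irrefl a] at h; exact absurd h (by simp)⟩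

theorem graphOf_adj (A : Om d) (a b : Fin n) : (graphOf A).Adj a b ↔ A.adj a b = true := Iff.rfl

/-- realization of an adjacency matrix -/
noncomputable def ofOm (A : Om d) : Realization n d :=
  ⟨graphOf A, fun v => by
    rw [← A.deg v, ← degree_eq_sum]
    refine sum_congr rfl (fun b _ => ?_)
    congr 1
    rw [Bool.eq_iff_iff, decide_eq_true_iff]
    exact graphOf_adj A v b⟩

theorem toOm_ofOm (A : Om d) : toOm (ofOm A) = A := by
  apply Om.ext
  funext a b
  show decide ((graphOf A).Adj a b) = A.adj a b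
  rw [Bool.eq_iff_iff, decide_eq_true_iff]
  exact graphOf_adj A a b

theorem ofOm_toOm (G : Realization n d) : ofOm (toOm G) = G := by
  apply Subtype.ext
  ext a b
  show (graphOf (toOm G)).Adj a b ↔ _
  rw [graphOf_adj]
  show decide (G.1.Adj a b) = true ↔ _
  rw [decide_eq_true_iff]

/-- the equivalence -/
noncomputable def eqv : Realization n d ≃ Om d where
  toFun := toOm
  invFun := ofOm
  left_inv := ofOm_toOm
  right_inv := toOm_ofOm

theorem card_realization_le : Fintype.card (Realization n d) ≤ 2 ^ (n ^ 2) := by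
  have h1 : Function.Injective (fun (G : Realization n d) (p : Fin n × Fin n) =>
      decide (G.1.Adj p.1 p.2)) := by
    intro G H h
    apply Subtype.ext
    ext a b
    have := congrFun h (a, b)
    simp only at this
    rw [Bool.eq_iff_iff, decide_eq_true_iff, decide_eq_true_iff] at this
    exact this
  have h2 := Fintype.card_le_of_injective _ h1
  refine h2.trans ?_
  simp [sq]

/-! ### the involutions -/

section Tau
variable {V : Type*} [Fintype V] {d : V → ℕ}

theorem flipAdj_invol (u v x y : V) (A : V → V → Bool) :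
    flipAdj u v x y (flipAdj u v x y A) = A := by
  funext a b
  unfold flipAdj
  split_ifs with h
  · simp
  · rfl

theorem tau_adj_mix {u v x y : V} {A : Om d} (h : Dist4 u v x y ∧ Alt u v x y A) :
    (tau u v x y A).adj = flipAdj u v x y A.adj := by
  unfold tau
  rw [dif_pos h]

theorem tau_of_not' {u v x y : V} {A : Om d} (h : ¬ (Dist4 u v x y ∧ Alt u v x y A)) :
    tau u v x y A = A := by
  unfold tau
  rw [dif_neg h]

theorem alt_tau {u v x y : V} {A : Om d} (h : Dist4 u v x y ∧ Alt u v x y A) :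
    Alt u v x y (tau u v x y A) := by
  obtain ⟨h1, h2, h3⟩ := h.2
  unfold Alt
  rw [tau_adj_mix h]
  have e1 : flipAdj u v x y A.adj u x = !(A.adj u x) := by
    unfold flipAdj; rw [if_pos]; left; exact ⟨Or.inl rfl, Or.inl rfl⟩
  have e2 : flipAdj u v x y A.adj v y = !(A.adj v y) := by
    unfold flipAdj; rw [if_pos]; left; exact ⟨Or.inr rfl, Or.inr rfl⟩
  have e3 : flipAdj u v x y A.adj u y = !(A.adj u y) := by
    unfold flipAdj; rw [if_pos]; left; exact ⟨Or.inl rfl, Or.inr rfl⟩
  have e4 : flipAdj u v x y A.adj v x = !(A.adj v x) := by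
    unfold flipAdj; rw [if_pos]; left; exact ⟨Or.inr rfl, Or.inl rfl⟩
  rw [e1, e2, e3, e4, h1, h2]
  refine ⟨rfl, rfl, ?_⟩
  rw [← h1, ← h2]
  intro h4
  apply h3
  rw [← Bool.not_not (A.adj u x), h4, Bool.not_not]

theorem tau_tau_mix (u v x y : V) (A : Om d) : tau u v x y (tau u v x y A) = A := by
  by_cases h : Dist4 u v x y ∧ Alt u v x y A
  · apply Om.ext
    rw [tau_adj_mix ⟨h.1, alt_tau h⟩, tau_adj_mix h, flipAdj_invol]
  · rw [tau_of_not' h, tau_of_not' h]

theorem tau_swap (u v x y : V) (A : Om d) : tau u v y x A = tau u v x y A := by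
  have hD : Dist4 u v y x ↔ Dist4 u v x y := by
    unfold Dist4
    constructor
    · rintro ⟨a, b, c, e, g, h⟩; exact ⟨a, c, b, g, e, h.symm⟩
    · rintro ⟨a, b, c, e, g, h⟩; exact ⟨a, c, b, g, e, h.symm⟩
  have hA : Alt u v y x A ↔ Alt u v x y A := by
    unfold Alt
    constructor
    · rintro ⟨h1, h2, h3⟩; exact ⟨h2, h1, h3.symm⟩
    · rintro ⟨h1, h2, h3⟩; exact ⟨h2, h1, h3.symm⟩
  by_cases h : Dist4 u v x y ∧ Alt u v x y A
  · have h' : Dist4 u v y x ∧ Alt u v y x A := ⟨hD.2 h.1, hA.2 h.2⟩
    apply Om.ext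
    rw [tau_adj_mix h, tau_adj_mix h']
    funext a b
    unfold flipAdj
    simp only [or_comm (a := a = y), or_comm (a := b = y)]
  · have h' : ¬ (Dist4 u v y x ∧ Alt u v y x A) := fun h' => h ⟨hD.1 h'.1, hA.1 h'.2⟩
    rw [tau_of_not' h, tau_of_not' h']

end Tau

end Vale.Agent.KTV
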