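import Vale.Agent.KTV.MixEquiv

open Finset
open scoped Classical

namespace Vale.Agent.KTV

variable {n : ℕ} {d : Fin n → ℕ}

/-- the pair of edges `ux`, `vy` -/
noncomputable def Mt (u x v y : Fin n) : Finset (Sym2 (Fin n)) := {s(u, x), s(v, y)}

theorem cond_iff (G : SimpleGraph (Fin n)) (u v x y : Fin n) :
    ((∀ e ∈ Mt u x v y, e ∈ G.edgeSet) ∧ (∀ e ∈ Mt u y v x, e ∉ G.edgeSet)) ↔
      (G.Adj u x ∧ G.Adj v y ∧ ¬ G.Adj u y ∧ ¬ G.Adj v x) := by
  simp [Mt, and_assoc]

theorem toOm_adj (G : Realization n d) (a b : Fin n) :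
    (toOm G).adj a b = decide (G.1.Adj a b) := rfl

theorem ofOm_adj (A : Om d) (a b : Fin n) : (ofOm A).1.Adj a b ↔ A.adj a b = true := Iff.rfl

theorem alt_of_cond {G : Realization n d} {u v x y : Fin n}
    (h : G.1.Adj u x ∧ G.1.Adj v y ∧ ¬ G.1.Adj u y ∧ ¬ G.1.Adj v x) :
    Alt u v x y (toOm G) := by
  obtain ⟨h1, h2, h3, h4⟩ := h
  unfold Alt
  simp only [toOm_adj, h1, h2, h3, h4, decide_true, decide_false]
  decide

theorem cond_of_alt {G : Realization n d} {u v x y : Fin n} (h : Alt u v x y (toOm G)) :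
    (G.1.Adj u x ∧ G.1.Adj v y ∧ ¬ G.1.Adj u y ∧ ¬ G.1.Adj v x) ∨
    (G.1.Adj u y ∧ G.1.Adj v x ∧ ¬ G.1.Adj u x ∧ ¬ G.1.Adj v y) := by
  obtain ⟨h1, h2, h3⟩ := h
  simp only [toOm_adj, decide_eq_decide] at h1 h2
  rw [toOm_adj, toOm_adj, Ne, decide_eq_decide] at h3
  by_cases h4 : G.1.Adj u x <;> by_cases h5 : G.1.Adj u y
  · exact absurd (iff_of_true h4 h5) h3
  · exact Or.inl ⟨h4, h1.1 h4, h5, fun h => h5 (h2.2 h)⟩
  · exact Or.inr ⟨h5, h2.1 h5, h4, fun h => h4 (h1.2 h)⟩
  · exact absurd (iff_of_false h4 h5) h3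

theorem switch_pos {G : Realization n d} {u v x y : Fin n} (hD : Dist4 u v x y)
    (hc : G.1.Adj u x ∧ G.1.Adj v y ∧ ¬ G.1.Adj u y ∧ ¬ G.1.Adj v x) :
    switchStep G.1 (Mt u x v y) (Mt u y v x) = (ofOm (tau u v x y (toOm G))).1 := by
  have hA := alt_of_cond hc
  unfold switchStep
  rw [if_pos ((cond_iff G.1 u v x y).2 hc)]
  ext a b
  rw [ofOm_adj, tau_adj_mix ⟨hD, hA⟩, SimpleGraph.fromEdgeSet_adj]
  obtain ⟨h1, h2, h3, h4⟩ := hc
  obtain ⟨d1, d2, d3, d4, d5, d6⟩ := hD
  unfold flipAdj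
  by_cases hB : ((a = u ∨ a = v) ∧ (b = x ∨ b = y)) ∨ ((a = x ∨ a = y) ∧ (b = u ∨ b = v))
  · rw [if_pos hB]
    rw [toOm_adj]
    simp only [Set.mem_union, Set.mem_sdiff, SimpleGraph.mem_edgeSet, coe_insert, Mt,
      coe_singleton, Set.mem_insert_iff, Set.mem_singleton_iff, Sym2.eq_iff]
    have h1' := h1.symm
    have h2' := h2.symm
    have h3' : ¬ G.1.Adj y u := fun h => h3 h.symm
    have h4' : ¬ G.1.Adj x v := fun h => h4 h.symm
    rcases hB with ⟨rfl | rfl, rfl | rfl⟩ | ⟨rfl | rfl, rfl | rfl⟩ <;>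
      simp [h1, h2, h3, h4, h1', h2', h3', h4', d1, d2, d3, d4, d5, d6, d1.symm, d2.symm,
        d3.symm, d4.symm, d5.symm, d6.symm]
  · rw [if_neg hB, toOm_adj, decide_eq_true_iff]
    have e1 : s(a, b) ∉ (Mt u x v y : Set (Sym2 (Fin n))) := by
      simp only [Mt, coe_insert, coe_singleton, Set.mem_insert_iff, Set.mem_singleton_iff,
        Sym2.eq_iff]
      rintro ((⟨rfl, rfl⟩ | ⟨rfl, rfl⟩) | (⟨rfl, rfl⟩ | ⟨rfl, rfl⟩)) <;> apply hB <;> simp
    have e2 : s(a, b) ∉ (Mt u y v x : Set (Sym2 (Fin n))) := by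
      simp only [Mt, coe_insert, coe_singleton, Set.mem_insert_iff, Set.mem_singleton_iff,
        Sym2.eq_iff]
      rintro ((⟨rfl, rfl⟩ | ⟨rfl, rfl⟩) | (⟨rfl, rfl⟩ | ⟨rfl, rfl⟩)) <;> apply hB <;> simp
    constructor
    · rintro ⟨(⟨h, -⟩ | h), -⟩
      · exact h
      · exact absurd h e2
    · intro h
      exact ⟨Or.inl ⟨h, e1⟩, h.ne⟩

theorem switch_neg {G : Realization n d} {u v x y : Fin n}
    (hc : ¬ (G.1.Adj u x ∧ G.1.Adj v y ∧ ¬ G.1.Adj u y ∧ ¬ G.1.Adj v x)) :
    switchStep G.1 (Mt u x v y) (Mt u y v x) = G.1 := by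
  unfold switchStep
  rw [if_neg (fun h => hc ((cond_iff G.1 u v x y).1 h))]

/-- the involution on realizations -/
noncomputable def tauR (u v x y : Fin n) (G : Realization n d) : Realization n d :=
  ofOm (tau u v x y (toOm G))

theorem tauR_invol (u v x y : Fin n) : Function.Involutive (tauR u v x y (d := d)) := by
  intro G
  unfold tauR
  rw [toOm_ofOm, tau_tau_mix, ofOm_toOm]

/-- key identity: the two ordered switches on a pair of matchings together are the identity and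
the involution -/
theorem switch_pair {u v x y : Fin n} (hD : Dist4 u v x y) (G H : Realization n d) :
    (if switchStep G.1 (Mt u x v y) (Mt u y v x) = H.1 then (1 : ℝ) else 0) +
      (if switchStep G.1 (Mt u y v x) (Mt u x v y) = H.1 then (1 : ℝ) else 0) =
    (if G = H then (1 : ℝ) else 0) + (if tauR u v x y G = H then (1 : ℝ) else 0) := by
  have hsub : ∀ K : Realization n d, (K.1 = H.1) = (K = H) := fun K =>
    propext Subtype.ext_iff.symm
  have hD' : Dist4 u v y x := by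
    obtain ⟨a, b, c, e, g, h⟩ := hD
    exact ⟨a, c, b, g, e, h.symm⟩
  by_cases h1 : G.1.Adj u x ∧ G.1.Adj v y ∧ ¬ G.1.Adj u y ∧ ¬ G.1.Adj v x
  · have h2 : ¬ (G.1.Adj u y ∧ G.1.Adj v x ∧ ¬ G.1.Adj u x ∧ ¬ G.1.Adj v y) :=
      fun h => h1.2.2.1 h.1
    rw [switch_pos hD h1, switch_neg h2, hsub, hsub, add_comm]
    rfl
  · by_cases h2 : G.1.Adj u y ∧ G.1.Adj v x ∧ ¬ G.1.Adj u x ∧ ¬ G.1.Adj v y
    · rw [switch_neg h1, switch_pos hD' h2, hsub, hsub, tau_swap]
      rfl
    · have h3 : tauR u v x y G = G := by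
        unfold tauR
        rw [tau_of_not', ofOm_toOm]
        rintro ⟨-, hA⟩
        rcases cond_of_alt hA with h | h
        · exact h1 h
        · exact h2 h
      rw [switch_neg h1, switch_neg h2, hsub, h3]

/-! ### perfect matchings of a four-element set -/

theorem mem_pm {S : Finset (Fin n)} {F : Finset (Sym2 (Fin n))} :
    F ∈ perfectMatchings S ↔ (∀ e ∈ F, ¬ e.IsDiag ∧ ∀ v ∈ e, v ∈ S) ∧
      ∀ v ∈ S, ∃! e, e ∈ F ∧ v ∈ e := by
  simp [perfectMatchings]

theorem Mt_mem {a b c e : Fin n} (h : Dist4 a c b e) :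
    Mt a b c e ∈ perfectMatchings ({a, b, c, e} : Finset (Fin n)) := by
  obtain ⟨d1, d2, d3, d4, d5, d6⟩ := h
  rw [mem_pm]
  constructor
  · intro z hz
    simp only [Mt, mem_insert, mem_singleton] at hz
    rcases hz with rfl | rfl
    · refine ⟨by simpa using d2, ?_⟩
      intro v hv
      rw [Sym2.mem_iff] at hv
      rcases hv with rfl | rfl <;> simp
    · refine ⟨by simpa using d5, ?_⟩
      intro v hv
      rw [Sym2.mem_iff] at hv
      rcases hv with rfl | rfl <;> simp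
  · intro v hv
    simp only [mem_insert, mem_singleton] at hv
    rcases hv with rfl | rfl | rfl | rfl
    · refine ⟨s(v, b), ⟨by simp [Mt], by simp⟩, ?_⟩
      rintro z ⟨hz, hv⟩
      simp only [Mt, mem_insert, mem_singleton] at hz
      rcases hz with rfl | rfl
      · rfl
      · rw [Sym2.mem_iff] at hv
        rcases hv with h | h
        · exact absurd h d1
        · exact absurd h d3
    · refine ⟨s(a, v), ⟨by simp [Mt], by simp⟩, ?_⟩
      rintro z ⟨hz, hv⟩
      simp only [Mt, mem_insert, mem_singleton] at hz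
      rcases hz with rfl | rfl
      · rfl
      · rw [Sym2.mem_iff] at hv
        rcases hv with h | h
        · exact absurd h.symm d4
        · exact absurd h d6
    · refine ⟨s(v, e), ⟨by simp [Mt], by simp⟩, ?_⟩
      rintro z ⟨hz, hv⟩
      simp only [Mt, mem_insert, mem_singleton] at hz
      rcases hz with rfl | rfl
      · rw [Sym2.mem_iff] at hv
        rcases hv with h | h
        · exact absurd h.symm d1
        · exact absurd h d4
      · rfl
    · refine ⟨s(c, v), ⟨by simp [Mt], by simp⟩, ?_⟩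
      rintro z ⟨hz, hv⟩
      simp only [Mt, mem_insert, mem_singleton] at hz
      rcases hz with rfl | rfl
      · rw [Sym2.mem_iff] at hv
        rcases hv with h | h
        · exact absurd h.symm d3
        · exact absurd h.symm d6
      · rfl

/-- a perfect matching containing `ab` is `{ab, ce}` -/
theorem eq_Mt_of_mem {a b c e : Fin n} (h : Dist4 a c b e) {F : Finset (Sym2 (Fin n))}
    (hF : F ∈ perfectMatchings ({a, b, c, e} : Finset (Fin n))) (hab : s(a, b) ∈ F) :
    F = Mt a b c e := by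
  obtain ⟨d1, d2, d3, d4, d5, d6⟩ := h
  rw [mem_pm] at hF
  obtain ⟨hF1, hF2⟩ := hF
  have uniq : ∀ v ∈ ({a, b, c, e} : Finset (Fin n)), ∀ z ∈ F, ∀ w ∈ F, v ∈ z → v ∈ w → z = w := by
    intro v hv z hz w hw hvz hvw
    exact (hF2 v hv).unique ⟨hz, hvz⟩ ⟨hw, hvw⟩
  have hce : s(c, e) ∈ F := by
    obtain ⟨z, ⟨hz, hcz⟩, -⟩ := hF2 c (by simp)
    obtain ⟨w, rfl⟩ := Sym2.mem_iff_exists.1 hcz
    have hw : w ∈ ({a, b, c, e} : Finset (Fin n)) := (hF1 _ hz).2 w (by simp)
    have hd : ¬ c = w := by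
      have := (hF1 _ hz).1
      simpa using this
    simp only [mem_insert, mem_singleton] at hw
    rcases hw with rfl | rfl | rfl | rfl
    · have := uniq w (by simp) _ hz _ hab (by simp) (by simp)
      rw [Sym2.eq_iff] at this
      rcases this with ⟨h1, h2⟩ | ⟨h1, h2⟩
      · exact absurd h1.symm d1
      · exact absurd h1 d4
    · have := uniq w (by simp) _ hz _ hab (by simp) (by simp)
      rw [Sym2.eq_iff] at this
      rcases this with ⟨h1, h2⟩ | ⟨h1, h2⟩
      · exact absurd h1.symm d1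
      · exact absurd h1 d4
    · exact absurd rfl hd
    · exact hz
  ext z
  simp only [Mt, mem_insert, mem_singleton]
  constructor
  · intro hz
    induction z using Sym2.ind with
    | _ p q =>
      have hp : p ∈ ({a, b, c, e} : Finset (Fin n)) := (hF1 _ hz).2 p (by simp)
      have hp' := hp
      simp only [mem_insert, mem_singleton] at hp
      rcases hp with rfl | rfl | rfl | rfl
      · left; exact uniq _ hp' _ hz _ hab (by simp) (by simp)
      · left; exact uniq _ hp' _ hz _ hab (by simp) (by simp)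
      · right; exact uniq _ hp' _ hz _ hce (by simp) (by simp)
      · right; exact uniq _ hp' _ hz _ hce (by simp) (by simp)
  · rintro (rfl | rfl)
    · exact hab
    · exact hce

theorem pm_four {a b c e : Fin n} (h : Dist4 a b c e) :
    perfectMatchings ({a, b, c, e} : Finset (Fin n)) = {Mt a b c e, Mt a c b e, Mt a e b c} := by
  obtain ⟨d1, d2, d3, d4, d5, d6⟩ := h
  have s1 : ({a, b, c, e} : Finset (Fin n)) = {a, c, b, e} := by ext; simp; tauto
  have s2 : ({a, b, c, e} : Finset (Fin n)) = {a, e, b, c} := by ext; simp; tauto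
  ext F
  simp only [mem_insert, mem_singleton]
  constructor
  · intro hF
    obtain ⟨z, ⟨hz, haz⟩, -⟩ := (mem_pm.1 hF).2 a (by simp)
    obtain ⟨w, rfl⟩ := Sym2.mem_iff_exists.1 haz
    have hw : w ∈ ({a, b, c, e} : Finset (Fin n)) := ((mem_pm.1 hF).1 _ hz).2 w (by simp)
    have hd : ¬ a = w := by
      have := ((mem_pm.1 hF).1 _ hz).1
      simpa using this
    simp only [mem_insert, mem_singleton] at hw
    rcases hw with rfl | rfl | rfl | rfl
    · exact absurd rfl hd
    · left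
      exact eq_Mt_of_mem ⟨d2, d1, d3, d4.symm, d6, d5⟩ hF hz
    · right; left
      rw [s1] at hF
      exact eq_Mt_of_mem ⟨d1, d2, d3, d4, d5, d6⟩ hF hz
    · right; right
      rw [s2] at hF
      exact eq_Mt_of_mem ⟨d1, d3, d2, d5, d4, d6.symm⟩ hF hz
  · rintro (rfl | rfl | rfl)
    · exact Mt_mem ⟨d2, d1, d3, d4.symm, d6, d5⟩
    · rw [s1]; exact Mt_mem ⟨d1, d2, d3, d4, d5, d6⟩
    · rw [s2]; exact Mt_mem ⟨d1, d3, d2, d5, d4, d6.symm⟩

end Vale.Agent.KTV
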