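import Vale.Agent.KTV.Avg

open Finset
open scoped Classical

namespace Vale.Agent.KTV

section Rel
variable {V : Type*} [Fintype V] {d : V → ℕ}

theorem pr_refl (u v : V) (A : Om d) : pr u v A A := fun _ _ _ => rfl

theorem pr_symm {u v : V} {A B : Om d} (h : pr u v A B) : pr u v B A :=
  fun a b hab => (h a b hab).symm

theorem pr_trans {u v : V} {A B C : Om d} (h : pr u v A B) (h' : pr u v B C) : pr u v A C :=
  fun a b hab => (h a b hab).trans (h' a b hab)

theorem pr_equiv (u v : V) : Equivalence (pr u v : Om d → Om d → Prop) :=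
  ⟨pr_refl u v, pr_symm, pr_trans⟩

theorem prs_equiv {u v x y : V} (_h : Dist4 u v x y) :
    Equivalence (prs u v x y : Om d → Om d → Prop) := by
  have hs : ∀ a : V, Equiv.swap u v (Equiv.swap u v a) = a := fun a => Equiv.swap_apply_self u v a
  refine ⟨fun A => ⟨pr_refl u v A, Or.inl fun a => ⟨rfl, rfl⟩⟩, ?_, ?_⟩
  · rintro A B ⟨h1, h2⟩
    refine ⟨pr_symm h1, ?_⟩
    rcases h2 with h2 | h2
    · exact Or.inl fun a => ⟨(h2 a).1.symm, (h2 a).2.symm⟩
    · refine Or.inr fun a => ?_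
      have := h2 (Equiv.swap u v a)
      rw [hs a] at this
      exact ⟨this.1.symm, this.2.symm⟩
  · rintro A B C ⟨h1, h2⟩ ⟨h3, h4⟩
    refine ⟨pr_trans h1 h3, ?_⟩
    rcases h2 with h2 | h2 <;> rcases h4 with h4 | h4
    · exact Or.inl fun a => ⟨(h4 a).1.trans (h2 a).1, (h4 a).2.trans (h2 a).2⟩
    · exact Or.inr fun a => ⟨(h4 a).1.trans (h2 _).1, (h4 a).2.trans (h2 _).2⟩
    · exact Or.inr fun a => ⟨(h4 a).1.trans (h2 a).1, (h4 a).2.trans (h2 a).2⟩
    · refine Or.inl fun a => ?_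
      have h5 := h2 (Equiv.swap u v a)
      rw [hs a] at h5
      exact ⟨(h4 a).1.trans h5.1, (h4 a).2.trans h5.2⟩

end Rel

end Vale.Agent.KTV
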